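import Vale.Agent.P300.H435.L2.Weights
import Vale.Agent.P300.H435.L2.LeviLog

set_option linter.all false

/-! P298, block OT: the functions of the twist. For a holomorphic function `τ` with `|τ| ≤ 1/2`:
`G = log (ε² + |τ|²)`, `s = -G`, `g = s + log s`, `ζ = -log g`, `l = (1 + s)²`, `w = log (g + l)`. -/

open MeasureTheory Filter Topology
open scoped ENNReal NNReal ComplexConjugate

namespace Vale.Agent.P298.H293

open Vale.Agent.P300.L2 Vale.Agent.P300.L2.Sheets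

variable {n N : ℕ} {S : Sheets n N}

/-- The Levi form of a function of a real function. -/
theorem levi_comp_real {h h1 h2 : ℝ → ℝ} {u : (Fin n → ℂ) × ℕ → ℝ}
    (hu : S.CD 2 (fun q => (u q : ℂ))) (hh1 : ∀ q ∈ S.M, HasDerivAt h (h1 (u q)) (u q))
    (hh2 : ∀ q ∈ S.M, HasDerivAt h1 (h2 (u q)) (u q))
    (hc : S.CD 1 (fun q => ((h1 (u q) : ℝ) : ℂ)))
    {q : (Fin n → ℂ) × ℕ} (hq : q ∈ S.M) (β : Fin n → ℂ) :
    S.levi (fun q => h (u q)) β q = h1 (u q) * S.levi u β q +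
      h2 (u q) * ‖∑ j, S.D j (fun q => (u q : ℂ)) q * β j‖ ^ 2 := by
  have hu1 : S.CD 1 (fun q => (u q : ℂ)) := hu.mono one_le_two
  have hDb : ∀ k, ∀ q ∈ S.M, S.Db k (fun q => ((h (u q) : ℝ) : ℂ)) q =
      ((h1 (u q) : ℝ) : ℂ) * S.Db k (fun q => (u q : ℂ)) q := by
    intro k q hq
    rw [Db_comp_real (φ := h) hu1 hq (hh1 q hq).differentiableAt, (hh1 q hq).deriv]
  have hconj : ∀ k, S.Db k (fun q => (u q : ℂ)) q = conj (S.D k (fun q => (u q : ℂ)) q) := by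
    intro k
    rw [← Db_conj]
    congr 1
    funext q
    rw [Complex.conj_ofReal]
  have hD : ∀ l k, S.D l (S.Db k (fun q => ((h (u q) : ℝ) : ℂ))) q =
      ((h2 (u q) : ℝ) : ℂ) * S.D l (fun q => (u q : ℂ)) q *
        conj (S.D k (fun q => (u q : ℂ)) q) +
      ((h1 (u q) : ℝ) : ℂ) * S.D l (S.Db k (fun q => (u q : ℂ))) q := by
    intro l k
    rw [D_congr (X := fun q => ((h1 (u q) : ℝ) : ℂ) * S.Db k (fun q => (u q : ℂ)) q)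
      (fun q hq => hDb k q hq) hq, D_mul hc (CD.Db (m := 1) hu) hq,
      D_comp_real (φ := h1) hu1 hq (hh2 q hq).differentiableAt, (hh2 q hq).deriv, hconj]
  unfold levi
  simp only [hD]
  have e1 : ∑ l, ∑ k, (((h2 (u q) : ℝ) : ℂ) * S.D l (fun q => (u q : ℂ)) q *
        conj (S.D k (fun q => (u q : ℂ)) q) +
      ((h1 (u q) : ℝ) : ℂ) * S.D l (S.Db k (fun q => (u q : ℂ))) q) * β l * conj (β k) =
      ((h2 (u q) : ℝ) : ℂ) *
        ((∑ j, S.D j (fun q => (u q : ℂ)) q * β j) *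
          conj (∑ j, S.D j (fun q => (u q : ℂ)) q * β j)) +
      ((h1 (u q) : ℝ) : ℂ) *
        ∑ l, ∑ k, S.D l (S.Db k (fun q => (u q : ℂ))) q * β l * conj (β k) := by
    rw [map_sum, Finset.sum_mul_sum, Finset.mul_sum, Finset.mul_sum, ← Finset.sum_add_distrib]
    refine Finset.sum_congr rfl fun j _ => ?_
    rw [Finset.mul_sum, Finset.mul_sum, ← Finset.sum_add_distrib]
    refine Finset.sum_congr rfl fun k _ => ?_
    rw [map_mul]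
    ring
  rw [e1, Complex.mul_conj, Complex.add_re, Complex.re_ofReal_mul, Complex.re_ofReal_mul,
    Complex.ofReal_re, Complex.normSq_eq_norm_sq]
  ring

theorem D_real_comp {h h1 : ℝ → ℝ} {u : (Fin n → ℂ) × ℕ → ℝ}
    (hu : S.CD 1 (fun q => (u q : ℂ))) {q : (Fin n → ℂ) × ℕ} (hq : q ∈ S.M)
    (hh1 : HasDerivAt h (h1 (u q)) (u q)) (β : Fin n → ℂ) :
    ‖∑ j, S.D j (fun q => ((h (u q) : ℝ) : ℂ)) q * β j‖ ^ 2 =
      h1 (u q) ^ 2 * ‖∑ j, S.D j (fun q => (u q : ℂ)) q * β j‖ ^ 2 := by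
  have e1 : ∑ j, S.D j (fun q => ((h (u q) : ℝ) : ℂ)) q * β j =
      ((h1 (u q) : ℝ) : ℂ) * ∑ j, S.D j (fun q => (u q : ℂ)) q * β j := by
    rw [Finset.mul_sum]
    refine Finset.sum_congr rfl fun j _ => ?_
    rw [D_comp_real (φ := h) hu hq hh1.differentiableAt, hh1.deriv, mul_assoc]
  rw [e1, norm_mul, mul_pow, Complex.norm_real, Real.norm_eq_abs, sq_abs]

/-- `s = - log (ε² + |τ|²)` -/
noncomputable def ss (ε : ℝ) (τ : (Fin n → ℂ) × ℕ → ℂ) (q : (Fin n → ℂ) × ℕ) : ℝ :=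
  -Real.log (ε ^ 2 + ‖τ q‖ ^ 2)

/-- `g = s + log s` -/
noncomputable def gg (ε : ℝ) (τ : (Fin n → ℂ) × ℕ → ℂ) (q : (Fin n → ℂ) × ℕ) : ℝ :=
  ss ε τ q + Real.log (ss ε τ q)

/-- `ζ = - log g` -/
noncomputable def zz (ε : ℝ) (τ : (Fin n → ℂ) × ℕ → ℂ) (q : (Fin n → ℂ) × ℕ) : ℝ :=
  -Real.log (gg ε τ q)

/-- `l = (1 + s)²` -/
noncomputable def lf (ε : ℝ) (τ : (Fin n → ℂ) × ℕ → ℂ) (q : (Fin n → ℂ) × ℕ) : ℝ :=
  if 1 ≤ ss ε τ q then (1 + ss ε τ q) ^ 2 else 1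

/-- `w = log (g + l)` -/
noncomputable def ww (ε : ℝ) (τ : (Fin n → ℂ) × ℕ → ℂ) (q : (Fin n → ℂ) × ℕ) : ℝ :=
  Real.log (gg ε τ q + lf ε τ q)

section

variable {ε : ℝ} {τ : (Fin n → ℂ) × ℕ → ℂ}

theorem lf_pos (q : (Fin n → ℂ) × ℕ) : 0 < lf ε τ q := by
  unfold lf
  split_ifs with h
  · positivity
  · norm_num

theorem ss_bounds (hε : 0 < ε) (hε4 : ε ≤ 1 / 4) {q : (Fin n → ℂ) × ℕ} (hτ : ‖τ q‖ ≤ 1 / 2) :
    1 ≤ ss ε τ q ∧ ss ε τ q ≤ -Real.log (ε ^ 2) := by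
  unfold ss
  have h0 : 0 < ε ^ 2 + ‖τ q‖ ^ 2 := by positivity
  constructor
  · rw [le_neg, Real.log_le_iff_le_exp h0]
    have h1 : ε ^ 2 ≤ (1 / 4) ^ 2 := by gcongr
    have h2 : ‖τ q‖ ^ 2 ≤ (1 / 2) ^ 2 := by gcongr
    have h3 : Real.exp (-1) ≥ 1 / 3 := by
      rw [Real.exp_neg, ge_iff_le, one_div]
      apply inv_anti₀ (Real.exp_pos 1)
      have := Real.exp_one_lt_d9
      linarith
    linarith
  · rw [neg_le_neg_iff]
    apply Real.log_le_log (by positivity)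
    have := sq_nonneg ‖τ q‖
    linarith

theorem gg_bounds {q : (Fin n → ℂ) × ℕ} (hs : 1 ≤ ss ε τ q) :
    ss ε τ q ≤ gg ε τ q ∧ gg ε τ q ≤ 2 * ss ε τ q := by
  unfold gg
  have h1 : 0 ≤ Real.log (ss ε τ q) := Real.log_nonneg hs
  have h2 : Real.log (ss ε τ q) ≤ ss ε τ q - 1 := Real.log_le_sub_one_of_pos (by linarith)
  constructor <;> linarith

theorem CD_log_tau (hτ : S.Holo τ) (k : ℕ) (hε : 0 < ε) :
    S.CD k (fun q => ((Real.log (ε ^ 2 + ‖τ q‖ ^ 2) : ℝ) : ℂ)) := by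
  have h := CD.log_normSq_sum (r := 1) (F := fun _ => τ) (fun _ => hτ) k (s := ε ^ 2) (by positivity)
  simpa using h

theorem CD_ss (hτ : S.Holo τ) (k : ℕ) (hε : 0 < ε) : S.CD k (fun q => (ss ε τ q : ℂ)) := by
  refine (CD.mul (CD.const (-1)) (CD_log_tau hτ k hε)).congr fun q _ => ?_
  unfold ss
  push_cast
  ring

variable (hτ : S.Holo τ) (hε : 0 < ε) (hs : ∀ q ∈ S.M, 1 ≤ ss ε τ q)

include hτ hε hs

theorem CD_gg (k : ℕ) : S.CD k (fun q => (gg ε τ q : ℂ)) := by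
  refine (CD.add (CD_ss hτ k hε) (CD.log (CD_ss hτ k hε) fun q hq => ?_)).congr fun q _ => ?_
  · have := hs q hq
    linarith
  · unfold gg
    push_cast
    ring

theorem gg_pos {q : (Fin n → ℂ) × ℕ} (hq : q ∈ S.M) : 0 < gg ε τ q := by
  have h1 := hs q hq
  have h2 := gg_bounds h1
  linarith [h2.1]

theorem CD_zz (k : ℕ) : S.CD k (fun q => (zz ε τ q : ℂ)) := by
  refine (CD.mul (CD.const (-1)) (CD.log (CD_gg hτ hε hs k) fun q hq =>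
    gg_pos hτ hε hs hq)).congr fun q _ => ?_
  unfold zz
  push_cast
  ring

theorem CD_lf (k : ℕ) : S.CD k (fun q => (lf ε τ q : ℂ)) := by
  refine (CD.mul (CD.add (CD.const 1) (CD_ss hτ k hε)) (CD.add (CD.const 1)
    (CD_ss hτ k hε))).congr fun q hq => ?_
  unfold lf
  rw [if_pos (hs q hq)]
  push_cast
  ring

theorem CD_ww (k : ℕ) : S.CD k (fun q => (ww ε τ q : ℂ)) := by
  have h1 : S.CD k (fun q => ((gg ε τ q + lf ε τ q : ℝ) : ℂ)) := by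
    refine (CD.add (CD_gg hτ hε hs k) (CD_lf hτ hε hs k)).congr fun q hq => ?_
    push_cast
    rfl
  exact CD.log h1 fun q hq => add_pos (gg_pos hτ hε hs hq) (lf_pos q)

theorem exp_neg_zz {q : (Fin n → ℂ) × ℕ} (hq : q ∈ S.M) : Real.exp (-zz ε τ q) = gg ε τ q := by
  unfold zz
  rw [neg_neg, Real.exp_log (gg_pos hτ hε hs hq)]

theorem exp_ww {q : (Fin n → ℂ) × ℕ} (hq : q ∈ S.M) :
    Real.exp (ww ε τ q) = Real.exp (-zz ε τ q) + lf ε τ q := by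
  rw [exp_neg_zz hτ hε hs hq]
  unfold ww
  rw [Real.exp_log (add_pos (gg_pos hτ hε hs hq) (lf_pos q))]

theorem levi_ss_ge {q : (Fin n → ℂ) × ℕ} (hq : q ∈ S.M) (β : Fin n → ℂ) :
    ‖∑ j, ((ε / (ε ^ 2 + ‖τ q‖ ^ 2) : ℝ) : ℂ) * S.D j τ q * β j‖ ^ 2 ≤ -S.levi (ss ε τ) β q := by
  have h1 := levi_log_ge (r := 1) (F := fun _ => τ) (fun _ => hτ) (s := ε ^ 2) (by positivity) hq β
  simp only [Finset.univ_unique, Finset.sum_const, Finset.card_singleton, one_smul] at h1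
  have h2 : S.levi (ss ε τ) β q = (-1) * S.levi (fun q => Real.log (ε ^ 2 + ‖τ q‖ ^ 2)) β q := by
    have h3 := levi_comp_real (S := S) (h := fun x => -x) (h1 := fun _ => -1) (h2 := fun _ => 0)
      (u := fun q => Real.log (ε ^ 2 + ‖τ q‖ ^ 2)) (CD_log_tau hτ 2 hε)
      (fun q _ => (hasDerivAt_id _).neg) (fun q _ => hasDerivAt_const _ _)
      (CD.const _) hq β
    have h4 : (fun q => -Real.log (ε ^ 2 + ‖τ q‖ ^ 2)) = ss ε τ := rfl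
    rw [← h4, h3]
    ring
  rw [h2]
  have h4 : ∑ j, ((ε / (ε ^ 2 + ‖τ q‖ ^ 2) : ℝ) : ℂ) * S.D j τ q * β j =
      ((ε / (ε ^ 2 + ‖τ q‖ ^ 2) : ℝ) : ℂ) * ∑ j, S.D j τ q * β j := by
    rw [Finset.mul_sum]
    refine Finset.sum_congr rfl fun j _ => ?_
    ring
  rw [h4, norm_mul, mul_pow, Complex.norm_real, Real.norm_eq_abs, sq_abs]
  calc (ε / (ε ^ 2 + ‖τ q‖ ^ 2)) ^ 2 * ‖∑ j, S.D j τ q * β j‖ ^ 2
      = ε ^ 2 * ‖∑ j, S.D j τ q * β j‖ ^ 2 / (ε ^ 2 + ‖τ q‖ ^ 2) ^ 2 := by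
        rw [div_pow]; ring
    _ ≤ -(-1 * S.levi (fun q => Real.log (ε ^ 2 + ‖τ q‖ ^ 2)) β q) := by
        linarith

/-- The twist condition. -/
theorem twist_cond {q : (Fin n → ℂ) × ℕ} (hq : q ∈ S.M) (β : Fin n → ℂ) :
    ‖∑ j, ((ε / (ε ^ 2 + ‖τ q‖ ^ 2) : ℝ) : ℂ) * S.D j τ q * β j‖ ^ 2 +
      (Real.exp (-zz ε τ q) + Real.exp (-zz ε τ q) ^ 2 / lf ε τ q) *
        ‖∑ j, S.D j (fun q => (zz ε τ q : ℂ)) q * β j‖ ^ 2 ≤
      Real.exp (-zz ε τ q) * S.levi (zz ε τ) β q := by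
  have hsq := hs q hq
  have hs0 : 0 < ss ε τ q := by linarith
  have hg0 := gg_pos hτ hε hs hq
  have hlf : lf ε τ q = (1 + ss ε τ q) ^ 2 := by
    unfold lf
    rw [if_pos hsq]
  -- `g` as a function of `s`
  have a1 : ∀ q ∈ S.M, HasDerivAt (fun x : ℝ => x + Real.log x)
      ((fun x : ℝ => 1 + x⁻¹) (ss ε τ q)) (ss ε τ q) := by
    intro q hq
    have h0 : ss ε τ q ≠ 0 := by have := hs q hq; linarith
    exact (hasDerivAt_id _).add (Real.hasDerivAt_log h0)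
  have a2 : ∀ q ∈ S.M, HasDerivAt (fun x : ℝ => 1 + x⁻¹)
      ((fun x : ℝ => -(x ^ 2)⁻¹) (ss ε τ q)) (ss ε τ q) := by
    intro q hq
    have h0 : ss ε τ q ≠ 0 := by have := hs q hq; linarith
    exact (hasDerivAt_inv h0).const_add 1
  have cinv : ∀ {u : (Fin n → ℂ) × ℕ → ℝ}, S.CD 1 (fun q => (u q : ℂ)) →
      (∀ q ∈ S.M, 0 < u q) → S.CD 1 (fun q => (((u q)⁻¹ : ℝ) : ℂ)) := by
    intro u hu hu0
    refine CD.congr (X := fun q => ((Real.exp (-Real.log (u q)) : ℝ) : ℂ)) ?_ ?_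
    · have h1 : ContDiff ℝ 1 (fun x : ℝ => Real.exp (-x)) := by fun_prop
      exact CD.comp_real (m := 1) (φ := fun x : ℝ => Real.exp (-x))
        (u := fun q => Real.log (u q)) (by exact_mod_cast h1) (CD.log hu hu0)
    · intro q hq
      rw [Real.exp_neg, Real.exp_log (hu0 q hq)]
  have a3 : S.CD 1 (fun q => (((fun x : ℝ => 1 + x⁻¹) (ss ε τ q) : ℝ) : ℂ)) := by
    have h1 := cinv (CD_ss (ε := ε) hτ 1 hε) (fun q hq => by have := hs q hq; linarith)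
    refine (CD.add (CD.const 1) h1).congr fun q _ => ?_
    push_cast
    rfl
  have L1 := levi_comp_real (S := S) (h := fun x : ℝ => x + Real.log x)
    (h1 := fun x : ℝ => 1 + x⁻¹) (h2 := fun x : ℝ => -(x ^ 2)⁻¹) (u := ss ε τ)
    (CD_ss (ε := ε) hτ 2 hε) a1 a2 a3 hq β
  have D1 := D_real_comp (S := S) (h := fun x : ℝ => x + Real.log x)
    (h1 := fun x : ℝ => 1 + x⁻¹) (u := ss ε τ) (CD_ss (ε := ε) hτ 1 hε) hq (a1 q hq) β
  -- `ζ` as a function of `g`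
  have b1 : ∀ q ∈ S.M, HasDerivAt (fun x : ℝ => -Real.log x)
      ((fun x : ℝ => -x⁻¹) (gg ε τ q)) (gg ε τ q) := by
    intro q hq
    exact (Real.hasDerivAt_log (gg_pos hτ hε hs hq).ne').neg
  have b2 : ∀ q ∈ S.M, HasDerivAt (fun x : ℝ => -x⁻¹)
      ((fun x : ℝ => (x ^ 2)⁻¹) (gg ε τ q)) (gg ε τ q) := by
    intro q hq
    have h1 := (hasDerivAt_inv (gg_pos hτ hε hs hq).ne').neg
    have h2 : HasDerivAt (fun x : ℝ => -x⁻¹) (-(-(gg ε τ q ^ 2)⁻¹)) (gg ε τ q) := h1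
    rw [neg_neg] at h2
    exact h2
  have b3 : S.CD 1 (fun q => (((fun x : ℝ => -x⁻¹) (gg ε τ q) : ℝ) : ℂ)) := by
    have h1 := cinv (CD_gg hτ hε hs 1) (fun q hq => gg_pos hτ hε hs hq)
    refine (CD.mul (CD.const (-1)) h1).congr fun q _ => ?_
    push_cast
    ring
  have L2 := levi_comp_real (S := S) (h := fun x : ℝ => -Real.log x)
    (h1 := fun x : ℝ => -x⁻¹) (h2 := fun x : ℝ => (x ^ 2)⁻¹) (u := gg ε τ)
    (CD_gg hτ hε hs 2) b1 b2 b3 hq β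
  have D2 := D_real_comp (S := S) (h := fun x : ℝ => -Real.log x)
    (h1 := fun x : ℝ => -x⁻¹) (u := gg ε τ) (CD_gg hτ hε hs 1) hq (b1 q hq) β
  have e1 : (fun q => -Real.log (gg ε τ q)) = zz ε τ := rfl
  have e2 : (fun q => ss ε τ q + Real.log (ss ε τ q)) = gg ε τ := rfl
  have L1' : S.levi (gg ε τ) β q = (1 + (ss ε τ q)⁻¹) * S.levi (ss ε τ) β q +
      -(ss ε τ q ^ 2)⁻¹ * ‖∑ j, S.D j (fun q => (ss ε τ q : ℂ)) q * β j‖ ^ 2 := L1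
  have D1' : ‖∑ j, S.D j (fun q => (gg ε τ q : ℂ)) q * β j‖ ^ 2 =
      (1 + (ss ε τ q)⁻¹) ^ 2 * ‖∑ j, S.D j (fun q => (ss ε τ q : ℂ)) q * β j‖ ^ 2 := D1
  have L2' : S.levi (zz ε τ) β q = -(gg ε τ q)⁻¹ * S.levi (gg ε τ) β q +
      (gg ε τ q ^ 2)⁻¹ * ‖∑ j, S.D j (fun q => (gg ε τ q : ℂ)) q * β j‖ ^ 2 := L2
  have D2' : ‖∑ j, S.D j (fun q => (zz ε τ q : ℂ)) q * β j‖ ^ 2 =
      (-(gg ε τ q)⁻¹) ^ 2 * ‖∑ j, S.D j (fun q => (gg ε τ q : ℂ)) q * β j‖ ^ 2 := D2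
  have hlevi := levi_ss_ge hτ hε hs hq β
  rw [exp_neg_zz hτ hε hs hq, D2', L2', D1', L1', hlf]
  set X := ‖∑ j, ((ε / (ε ^ 2 + ‖τ q‖ ^ 2) : ℝ) : ℂ) * S.D j τ q * β j‖ ^ 2 with hX
  set Y := ‖∑ j, S.D j (fun q => (ss ε τ q : ℂ)) q * β j‖ ^ 2 with hY
  set L := S.levi (ss ε τ) β q with hL
  set s := ss ε τ q with hsdef
  set g := gg ε τ q with hgdef
  have hX0 : 0 ≤ X := by positivity
  have hid : g * (-g⁻¹ * ((1 + s⁻¹) * L + -(s ^ 2)⁻¹ * Y) + (g ^ 2)⁻¹ * ((1 + s⁻¹) ^ 2 * Y)) -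
      (g + g ^ 2 / (1 + s) ^ 2) * ((-g⁻¹) ^ 2 * ((1 + s⁻¹) ^ 2 * Y)) = (1 + s⁻¹) * (-L) := by
    have h1s : (1 + s) ≠ 0 := by linarith
    have hs0' := hs0.ne'
    have hg0' := hg0.ne'
    field_simp
    ring
  have h5 : X ≤ (1 + s⁻¹) * (-L) := by
    have h6 : 0 ≤ s⁻¹ := by positivity
    have h7 : 0 ≤ -L := hX0.trans hlevi
    nlinarith [mul_nonneg h6 h7]
  linarith

end

end Vale.Agent.P298.H293
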