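import Vale.Agent.P300.H435.L2.Meas

set_option linter.all false

/-! P298, block OT: `|z_{j0}|⁻²` is not integrable near its zeros; consequence on sheets. -/

open MeasureTheory Filter Topology
open scoped ENNReal NNReal ComplexConjugate

namespace Vale.Agent.P298.H293

open Vale.Agent.P300.L2 Vale.Agent.P300.L2.Sheets

variable {n N : ℕ} {S : Sheets n N}

theorem box_volume (j0 : Fin n) (z0 : Fin n → ℂ) {δ ρ : ℝ} :
    volume (Set.pi Set.univ (fun j => Metric.ball (z0 j) (if j = j0 then δ else ρ))) =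
      ENNReal.ofReal δ ^ 2 * (NNReal.pi * ∏ j ∈ Finset.univ.erase j0,
        (ENNReal.ofReal ρ ^ 2 * (NNReal.pi : ℝ≥0∞))) := by
  rw [volume_pi_pi, ← Finset.mul_prod_erase _ _ (Finset.mem_univ j0)]
  simp only [if_true, Complex.volume_ball]
  rw [mul_assoc]
  congr 2
  refine Finset.prod_congr rfl fun j hj => ?_
  rw [if_neg (Finset.ne_of_mem_erase hj)]

theorem not_integrable_inv (j0 : Fin n) {z0 : Fin n → ℂ} (hz0 : z0 j0 = 0) {ρ : ℝ} (hρ : 0 < ρ) :
    ∫⁻ z in Metric.ball z0 ρ, ENNReal.ofReal ((‖z j0‖ ^ 2)⁻¹) = ⊤ := by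
  by_contra hfin
  set c0 : ℝ≥0∞ := NNReal.pi * ∏ j ∈ Finset.univ.erase j0,
        (ENNReal.ofReal ρ ^ 2 * (NNReal.pi : ℝ≥0∞)) with hc0
  have hpi : (NNReal.pi : ℝ≥0∞) ≠ 0 := by
    rw [ENNReal.coe_ne_zero]
    exact NNReal.pi_ne_zero
  have hc0pos : c0 ≠ 0 := by
    rw [hc0]
    refine mul_ne_zero hpi (Finset.prod_ne_zero_iff.2 fun j _ => mul_ne_zero ?_ hpi)
    exact pow_ne_zero 2 (ENNReal.ofReal_pos.2 hρ).ne'
  have hc0top : c0 ≠ ⊤ := by
    rw [hc0]
    refine ENNReal.mul_ne_top ENNReal.coe_ne_top (ENNReal.prod_ne_top fun j _ => ?_)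
    exact ENNReal.mul_ne_top (ENNReal.pow_ne_top ENNReal.ofReal_ne_top) ENNReal.coe_ne_top
  set δ : ℕ → ℝ := fun m => ρ / (m + 2) with hδ
  have hδ0 : ∀ m, 0 < δ m := fun m => by positivity
  have hδρ : ∀ m, δ m ≤ ρ := fun m => by
    rw [hδ]
    apply div_le_self hρ.le
    have : (0 : ℝ) ≤ m := Nat.cast_nonneg m
    linarith
  have hδlim : Tendsto δ atTop (𝓝 0) := by
    have h1 : Tendsto (fun m : ℕ => ρ / ((m : ℝ) + 2)) atTop (𝓝 0) := by
      apply Tendsto.div_atTop tendsto_const_nhds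
      exact tendsto_atTop_add_const_right _ _ tendsto_natCast_atTop_atTop
    exact h1
  set s : ℕ → Set (Fin n → ℂ) := fun m =>
    Set.pi Set.univ (fun j => Metric.ball (z0 j) (if j = j0 then δ m else ρ)) with hs
  have hsvol : ∀ m, volume (s m) = ENNReal.ofReal (δ m) ^ 2 * c0 := fun m =>
    box_volume j0 z0
  have hsball : ∀ m, s m ⊆ Metric.ball z0 ρ := by
    intro m z hz
    rw [Metric.mem_ball, dist_pi_lt_iff hρ]
    intro j
    have h1 := hz j (Set.mem_univ j)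
    rw [Metric.mem_ball] at h1
    refine h1.trans_le ?_
    split_ifs
    · exact hδρ m
    · exact le_rfl
  have hsm : ∀ m, MeasurableSet (s m) := fun m =>
    MeasurableSet.univ_pi fun j => Metric.isOpen_ball.measurableSet
  have hlim : Tendsto (fun m => (volume.restrict (Metric.ball z0 ρ)) (s m)) atTop (𝓝 0) := by
    have h1 : ∀ m, (volume.restrict (Metric.ball z0 ρ)) (s m) = ENNReal.ofReal (δ m) ^ 2 * c0 := by
      intro m
      rw [Measure.restrict_apply (hsm m), Set.inter_eq_left.2 (hsball m), hsvol]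
    simp only [h1]
    have h2 : Tendsto (fun m => ENNReal.ofReal (δ m) ^ 2) atTop (𝓝 0) := by
      have h3 : Tendsto (fun m => ENNReal.ofReal (δ m)) atTop (𝓝 0) := by
        have h5 := (ENNReal.continuous_ofReal.tendsto 0).comp hδlim
        rw [ENNReal.ofReal_zero] at h5
        exact h5
      have h6 := ENNReal.Tendsto.pow (n := 2) h3
      rwa [zero_pow two_ne_zero] at h6
    have h4 := ENNReal.Tendsto.mul_const h2 (Or.inr hc0top)
    rwa [zero_mul] at h4
  have h1 := tendsto_setLIntegral_zero hfin hlim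
  have h2 : ∀ m, c0 ≤ ∫⁻ z in s m, ENNReal.ofReal ((‖z j0‖ ^ 2)⁻¹)
      ∂(volume.restrict (Metric.ball z0 ρ)) := by
    intro m
    rw [Measure.restrict_restrict (hsm m), Set.inter_eq_left.2 (hsball m)]
    calc c0 = ENNReal.ofReal ((δ m ^ 2)⁻¹) * volume (s m) := by
          rw [hsvol, ← mul_assoc, ← ENNReal.ofReal_pow (hδ0 m).le, ← ENNReal.ofReal_mul
            (by positivity), inv_mul_cancel₀ (by have := hδ0 m; positivity), ENNReal.ofReal_one,
            one_mul]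
      _ = ∫⁻ z in s m, ENNReal.ofReal ((δ m ^ 2)⁻¹) := by
          rw [setLIntegral_const]
      _ ≤ ∫⁻ z in s m, (ENNReal.ofReal ((‖z j0‖ ^ 2)⁻¹) +
            Set.indicator {z : Fin n → ℂ | z j0 = 0} (fun _ => ⊤) z) := by
          refine setLIntegral_mono' (hsm m) fun z hz => ?_
          have h3 : z j0 ∈ Metric.ball (z0 j0) (if j0 = j0 then δ m else ρ) :=
            hz j0 (Set.mem_univ j0)
          rw [if_pos rfl, hz0, mem_ball_zero_iff] at h3
          by_cases h4 : z j0 = 0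
          · rw [Set.indicator_of_mem (by exact h4)]
            simp
          · rw [Set.indicator_of_notMem (by exact h4), add_zero]
            apply ENNReal.ofReal_le_ofReal
            have : 0 < ‖z j0‖ := norm_pos_iff.2 h4
            gcongr
      _ = ∫⁻ z in s m, ENNReal.ofReal ((‖z j0‖ ^ 2)⁻¹) := by
          refine lintegral_congr_ae (ae_restrict_of_ae ?_)
          have h7 : ∀ᵐ z : Fin n → ℂ, z j0 ≠ 0 :=
            Measure.ae_eval_ne (μ := fun _ : Fin n => (volume : Measure ℂ)) j0 0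
          filter_upwards [h7] with z hz
          have h8 : z ∉ {z : Fin n → ℂ | z j0 = 0} := hz
          simp only [Set.indicator_of_notMem h8, add_zero]
  have h3 := ge_of_tendsto' h1 h2
  exact hc0pos (le_antisymm h3 (zero_le))

/-- If `v - F` is square integrable against `|z_{j0}|⁻²`, then `F = v` where `z_{j0} = 0`. -/
theorem restrict_eq (j0 : Fin n) {u v F : (Fin n → ℂ) × ℕ → ℂ} (hv : S.Holo v) (hF : S.Holo F)
    {Ψ : (Fin n → ℂ) × ℕ → ℝ} (hΨ : S.CD 0 (fun q => (Ψ q : ℂ)))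
    (hum : AEStronglyMeasurable u S.μ) {B : ℝ≥0∞} (hB : B ≠ ⊤) {δ : ℕ → ℝ} (hδ : ∀ m, 0 < δ m)
    (hδ0 : Tendsto δ atTop (𝓝 0))
    (hu : ∀ m, ∫⁻ q, ENNReal.ofReal (‖u q‖ ^ 2 * Real.exp (-(Ψ q +
      Real.log (δ m ^ 2 + ‖q.1 j0‖ ^ 2)))) ∂S.μ ≤ B)
    {ε : ℝ} (hε : 0 < ε) (huv : ∀ᵐ q ∂S.μ, ‖q.1 j0‖ ≤ ε → u q = v q - F q) :
    ∀ q ∈ S.M, q.1 j0 = 0 → F q = v q := by
  intro q hq hq0
  by_contra hne
  obtain ⟨s, W, hs, hqW, hsq⟩ := exists_section hq
  have hqe : (q.1, s q.1) = q := by rw [hsq]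
  have hWn : W ∈ 𝓝 q.1 := hs.isOpen.mem_nhds hqW
  have hHc : ContinuousAt (fun z => v (z, s z) - F (z, s z)) q.1 :=
    (((hv W s hs).continuousOn).sub ((hF W s hs).continuousOn)).continuousAt hWn
  have hΨc : ContinuousAt (fun z => Ψ (z, s z)) q.1 :=
    ((CD.re_section hΨ hs).continuousOn).continuousAt hWn
  have hH0 : v (q.1, s q.1) - F (q.1, s q.1) ≠ 0 := by
    rw [hqe]
    exact fun h => hne (sub_eq_zero.1 h).symm
  set c0 : ℝ := ‖v (q.1, s q.1) - F (q.1, s q.1)‖ / 2 with hc0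
  have hc0pos : 0 < c0 := by
    have := norm_pos_iff.2 hH0
    positivity
  set Bd : ℝ := Ψ (q.1, s q.1) + 1 with hBd
  have e1 : ∀ᶠ z in 𝓝 q.1, c0 < ‖v (z, s z) - F (z, s z)‖ := by
    apply hHc.norm.eventually (lt_mem_nhds _)
    have := norm_pos_iff.2 hH0
    rw [hc0]
    linarith
  have e2 : ∀ᶠ z in 𝓝 q.1, Ψ (z, s z) < Bd := hΨc.eventually (gt_mem_nhds (by rw [hBd]; linarith))
  have e3 : ∀ᶠ z in 𝓝 q.1, ‖z j0‖ < ε := by
    have h1 : ContinuousAt (fun z : Fin n → ℂ => ‖z j0‖) q.1 :=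
      ((continuous_apply j0).norm).continuousAt
    apply h1.eventually (gt_mem_nhds _)
    show ‖q.1 j0‖ < ε
    rw [hq0, norm_zero]
    exact hε
  obtain ⟨ρ, hρ, hball⟩ := Metric.eventually_nhds_iff_ball.1 ((e1.and e2).and (e3.and hWn))
  have hbW : Metric.ball q.1 ρ ⊆ W := fun z hz => (hball z hz).2.2
  have hbV : Metric.ball q.1 ρ ⊆ S.V := hbW.trans hs.subset
  have hbm : MeasurableSet (Metric.ball q.1 ρ) := Metric.isOpen_ball.measurableSet
  -- the lower bound
  have hlow : ∀ m, ENNReal.ofReal (c0 ^ 2 * Real.exp (-Bd)) *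
      ∫⁻ z in Metric.ball q.1 ρ, ENNReal.ofReal ((δ m ^ 2 + ‖z j0‖ ^ 2)⁻¹) ≤ B := by
    intro m
    refine le_trans ?_ (hu m)
    have hδm := hδ m
    have hpos : ∀ z : Fin n → ℂ, 0 < δ m ^ 2 + ‖z j0‖ ^ 2 := fun z => by positivity
    have hlogm : Measurable (fun q : (Fin n → ℂ) × ℕ => Real.log (δ m ^ 2 + ‖q.1 j0‖ ^ 2)) := by
      apply Real.measurable_log.comp
      apply Measurable.const_add
      apply Measurable.pow_const
      apply Measurable.norm
      exact (measurable_pi_apply j0).comp measurable_fst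
    have hΨm : AEMeasurable Ψ S.μ := by
      have h1 := (aestronglyMeasurable_of_CD hΨ).aemeasurable
      have h2 := Complex.measurable_re.comp_aemeasurable h1
      refine h2.congr (Eventually.of_forall fun q => ?_)
      simp
    have hmeas : AEMeasurable (fun q => ENNReal.ofReal (‖u q‖ ^ 2 * Real.exp (-(Ψ q +
      Real.log (δ m ^ 2 + ‖q.1 j0‖ ^ 2))))) S.μ := by
      apply AEMeasurable.ennreal_ofReal
      apply AEMeasurable.mul
      · exact (hum.norm.pow 2).aemeasurable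
      · apply Real.measurable_exp.comp_aemeasurable
        exact (hΨm.add hlogm.aemeasurable).neg
    rw [lintegral_μ' hmeas, ← lintegral_const_mul' _ _ ENNReal.ofReal_ne_top]
    refine le_trans ?_ (lintegral_mono_set hbV)
    refine lintegral_mono_ae ?_
    have h1 := ae_restrict_of_ae_restrict_of_subset hbV (ae_μ_iff.1 huv)
    filter_upwards [h1, ae_restrict_mem hbm] with z hz hzb
    obtain ⟨⟨g1, g2⟩, g3, g4⟩ := hball z hzb
    have h2 := hz (s z) (hs.mem z g4) g3.le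
    refine le_trans ?_ (Finset.single_le_sum (f := fun w => ENNReal.ofReal (‖u (z, w)‖ ^ 2 *
      Real.exp (-(Ψ (z, w) + Real.log (δ m ^ 2 + ‖(z, w).1 j0‖ ^ 2))))) (fun _ _ => zero_le)
      (hs.mem z g4))
    simp only
    rw [← ENNReal.ofReal_mul (by positivity), h2]
    apply ENNReal.ofReal_le_ofReal
    have h3 : Real.exp (-(Ψ (z, s z) + Real.log (δ m ^ 2 + ‖z j0‖ ^ 2))) =
        Real.exp (-Ψ (z, s z)) * (δ m ^ 2 + ‖z j0‖ ^ 2)⁻¹ := by
      rw [neg_add, Real.exp_add, Real.exp_neg (Real.log _), Real.exp_log (hpos z)]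
    rw [h3, mul_assoc]
    have h4 := hpos z
    gcongr
  -- Fatou
  have hfat : ∫⁻ z in Metric.ball q.1 ρ, ENNReal.ofReal ((‖z j0‖ ^ 2)⁻¹) ≤
      liminf (fun m => ∫⁻ z in Metric.ball q.1 ρ, ENNReal.ofReal ((δ m ^ 2 + ‖z j0‖ ^ 2)⁻¹))
        atTop := by
    refine le_trans ?_ (lintegral_liminf_le fun m => ?_)
    · refine lintegral_mono fun z => ?_
      by_cases hz : z j0 = 0
      · simp [hz]
      · have h1 : Tendsto (fun m => ENNReal.ofReal ((δ m ^ 2 + ‖z j0‖ ^ 2)⁻¹)) atTop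
            (𝓝 (ENNReal.ofReal ((‖z j0‖ ^ 2)⁻¹))) := by
          apply (ENNReal.continuous_ofReal.tendsto _).comp
          have h2 : Tendsto (fun m => δ m ^ 2 + ‖z j0‖ ^ 2) atTop (𝓝 (‖z j0‖ ^ 2)) := by
            have := (hδ0.pow 2).add_const (‖z j0‖ ^ 2)
            simpa using this
          apply h2.inv₀
          have := norm_pos_iff.2 hz
          positivity
        exact h1.liminf_eq.ge
    · apply Measurable.ennreal_ofReal
      apply Measurable.inv
      apply Measurable.const_add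
      apply Measurable.pow_const
      exact (measurable_pi_apply j0).norm
  rw [not_integrable_inv j0 hq0 hρ, top_le_iff] at hfat
  have hc : ENNReal.ofReal (c0 ^ 2 * Real.exp (-Bd)) ≠ 0 := by
    rw [Ne, ENNReal.ofReal_eq_zero, not_le]
    positivity
  have h5 : ∀ m, ∫⁻ z in Metric.ball q.1 ρ, ENNReal.ofReal ((δ m ^ 2 + ‖z j0‖ ^ 2)⁻¹) ≤
      B / ENNReal.ofReal (c0 ^ 2 * Real.exp (-Bd)) := by
    intro m
    rw [ENNReal.le_div_iff_mul_le (Or.inl hc) (Or.inl ENNReal.ofReal_ne_top), mul_comm]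
    exact hlow m
  have h6 : liminf (fun m => ∫⁻ z in Metric.ball q.1 ρ, ENNReal.ofReal ((δ m ^ 2 + ‖z j0‖ ^ 2)⁻¹))
      atTop ≤ B / ENNReal.ofReal (c0 ^ 2 * Real.exp (-Bd)) := by
    calc _ ≤ liminf (fun _ : ℕ => B / ENNReal.ofReal (c0 ^ 2 * Real.exp (-Bd))) atTop :=
          liminf_le_liminf (Eventually.of_forall h5)
      _ = _ := liminf_const _
  rw [hfat, top_le_iff] at h6
  exact (ENNReal.div_ne_top hB hc) h6

end Vale.Agent.P298.H293
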