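import Vale.Agent.P298.H293.TwH
import Vale.Agent.P300.H435.L2.Meas
import Vale.Agent.P300.H435.L2.LeviLog

set_option linter.all false

/-! P298, block OT: the theorem of Ohsawa and Takegoshi on sheets, for a fixed `ε`. -/

open MeasureTheory Filter Topology
open scoped ENNReal NNReal ComplexConjugate

namespace Vale.Agent.P298.H293

open Vale.Agent.P300.L2 Vale.Agent.P300.L2.Sheets

variable {n N : ℕ} {S : Sheets n N}

theorem D_coord (j0 j : Fin n) (q : (Fin n → ℂ) × ℕ) :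
    S.D j (fun q => q.1 j0) q = if j = j0 then 1 else 0 := by
  have h1 : S.D j (fun q => q.1 j0) q = dz j (fun z => z j0) q.1 := rfl
  have h2 : DifferentiableAt ℂ (fun z : Fin n → ℂ => z j0) q.1 :=
    (ContinuousLinearMap.proj (R := ℂ) (φ := fun _ : Fin n => ℂ) j0).differentiableAt
  rw [h1, dz_holo h2]
  have h3 : fderiv ℂ (fun z : Fin n → ℂ => z j0) q.1 =
      ContinuousLinearMap.proj (R := ℂ) (φ := fun _ : Fin n => ℂ) j0 :=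
    (ContinuousLinearMap.proj (R := ℂ) (φ := fun _ : Fin n => ℂ) j0).fderiv
  rw [h3]
  simp only [ContinuousLinearMap.proj_apply, Pi.single_apply]
  split_ifs with h4 h5 h5
  · rfl
  · exact absurd h4.symm h5
  · exact absurd h5.symm h4
  · rfl

theorem holo_coord (j0 : Fin n) : S.Holo (fun q => q.1 j0) :=
  Holo.fst (f := fun z => z j0) (fun z _ =>
    ((ContinuousLinearMap.proj (R := ℂ) (φ := fun _ : Fin n => ℂ) j0).differentiableAt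
      ).differentiableWithinAt)

/-- the cut off function -/
noncomputable def sg (j0 : Fin n) (ε : ℝ) (v : (Fin n → ℂ) × ℕ → ℂ) (q : (Fin n → ℂ) × ℕ) : ℂ :=
  ((cutX (‖q.1 j0‖ ^ 2 / ε ^ 2) : ℝ) : ℂ) * v q

theorem CD_nsq (j0 : Fin n) (k : ℕ) : S.CD k (fun q => ((‖q.1 j0‖ ^ 2 : ℝ) : ℂ)) := by
  have h := CD.normSq_sum (S := S) (r := 1) (F := fun _ q => q.1 j0) (fun _ => holo_coord j0) k 0
  simpa using h

theorem Db_nsq (j0 : Fin n) {q : (Fin n → ℂ) × ℕ} (hq : q ∈ S.M) (k : Fin n) :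
    S.Db k (fun q => ((‖q.1 j0‖ ^ 2 : ℝ) : ℂ)) q = if k = j0 then q.1 j0 else 0 := by
  have h := Db_normSq_sum (S := S) (r := 1) (F := fun _ q => q.1 j0) (fun _ => holo_coord j0) 0 hq k
  simp only [Finset.univ_unique, Finset.sum_const, Finset.card_singleton, one_smul, zero_add,
    D_coord] at h
  rw [h]
  split_ifs <;> simp

theorem CD_cut (j0 : Fin n) (ε : ℝ) :
    S.CD 2 (fun q => ((cutX (‖q.1 j0‖ ^ 2 / ε ^ 2) : ℝ) : ℂ)) := by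
  have h1 : ContDiff ℝ 2 (fun x : ℝ => cutX (x / ε ^ 2)) :=
    (cutX_contDiff.of_le (by norm_num)).comp (contDiff_id.div_const _)
  exact CD.comp_real (m := 2) (φ := fun x : ℝ => cutX (x / ε ^ 2))
    (u := fun q => ‖q.1 j0‖ ^ 2) (by exact_mod_cast h1) (CD_nsq j0 2)

theorem CD_sg (j0 : Fin n) (ε : ℝ) {v : (Fin n → ℂ) × ℕ → ℂ} (hv : S.Holo v) :
    S.CD 2 (sg j0 ε v) := (CD_cut j0 ε).mul (hv.CD 2)

theorem Db_sg (j0 : Fin n) (ε : ℝ) {v : (Fin n → ℂ) × ℕ → ℂ} (hv : S.Holo v)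
    {q : (Fin n → ℂ) × ℕ} (hq : q ∈ S.M) (k : Fin n) :
    S.Db k (sg j0 ε v) q = (((deriv cutX (‖q.1 j0‖ ^ 2 / ε ^ 2)) / ε ^ 2 : ℝ) : ℂ) *
      (if k = j0 then q.1 j0 else 0) * v q := by
  unfold sg
  rw [Db_mul ((CD_cut j0 ε).mono one_le_two) (hv.CD 1) hq, hv.Db hq, mul_zero, add_zero]
  congr 1
  have h1 : HasDerivAt (fun x : ℝ => cutX (x / ε ^ 2))
      (deriv cutX (‖q.1 j0‖ ^ 2 / ε ^ 2) / ε ^ 2) (‖q.1 j0‖ ^ 2) := by
    have h2 : HasDerivAt (fun x : ℝ => x / ε ^ 2) (1 / ε ^ 2) (‖q.1 j0‖ ^ 2) :=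
      (hasDerivAt_id _).div_const _
    have h3 : HasDerivAt cutX (deriv cutX (‖q.1 j0‖ ^ 2 / ε ^ 2)) (‖q.1 j0‖ ^ 2 / ε ^ 2) :=
      ((cutX_contDiff.differentiable (by norm_num)) _).hasDerivAt
    have h4 := h3.comp (‖q.1 j0‖ ^ 2) h2
    rw [mul_one_div] at h4
    exact h4
  rw [Db_comp_real (φ := fun x : ℝ => cutX (x / ε ^ 2)) (u := fun q => ‖q.1 j0‖ ^ 2)
    (CD_nsq j0 1) hq h1.differentiableAt, h1.deriv, Db_nsq j0 hq]

/-- the coefficient `a` -/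
noncomputable def af (j0 : Fin n) (ε : ℝ) (v : (Fin n → ℂ) × ℕ → ℂ) (q : (Fin n → ℂ) × ℕ) : ℝ :=
  {q : (Fin n → ℂ) × ℕ | ε ^ 2 / 2 ≤ ‖q.1 j0‖ ^ 2 ∧ ‖q.1 j0‖ ^ 2 ≤ ε ^ 2}.indicator
    (fun q => 16 * stB ^ 2 * ‖v q‖ ^ 2) q

theorem af_nonneg (j0 : Fin n) (ε : ℝ) (v : (Fin n → ℂ) × ℕ → ℂ) (q : (Fin n → ℂ) × ℕ) :
    0 ≤ af j0 ε v q := by
  unfold af
  apply Set.indicator_nonneg
  intro q _
  positivity

theorem measurable_coord (j0 : Fin n) : Measurable (fun q : (Fin n → ℂ) × ℕ => ‖q.1 j0‖) :=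
  ((measurable_pi_apply j0).comp measurable_fst).norm

theorem af_meas (j0 : Fin n) (ε : ℝ) {v : (Fin n → ℂ) × ℕ → ℂ} (hv : S.Holo v) :
    AEMeasurable (af j0 ε v) S.μ := by
  have h1 : AEMeasurable (fun q => 16 * stB ^ 2 * ‖v q‖ ^ 2) S.μ :=
    (((aestronglyMeasurable_of_CD (hv.CD 0)).norm.pow 2).aemeasurable).const_mul _
  have h2 : MeasurableSet {q : (Fin n → ℂ) × ℕ | ε ^ 2 / 2 ≤ ‖q.1 j0‖ ^ 2 ∧
      ‖q.1 j0‖ ^ 2 ≤ ε ^ 2} := by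
    apply MeasurableSet.inter
    · exact measurableSet_le measurable_const ((measurable_coord j0).pow_const 2)
    · exact measurableSet_le ((measurable_coord j0).pow_const 2) measurable_const
  exact h1.indicator h2

theorem af_bound (j0 : Fin n) {ε : ℝ} (hε : 0 < ε) {v : (Fin n → ℂ) × ℕ → ℂ} (hv : S.Holo v)
    {q : (Fin n → ℂ) × ℕ} (hq : q ∈ S.M) (β : Fin n → ℂ) :
    ‖∑ j, S.Db j (sg j0 ε v) q * conj (β j)‖ ^ 2 ≤ af j0 ε v q *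
      ‖∑ j, ((ε / (ε ^ 2 + ‖q.1 j0‖ ^ 2) : ℝ) : ℂ) * S.D j (fun q => q.1 j0) q * β j‖ ^ 2 := by
  have h1 : ∑ j, S.Db j (sg j0 ε v) q * conj (β j) =
      (((deriv cutX (‖q.1 j0‖ ^ 2 / ε ^ 2)) / ε ^ 2 : ℝ) : ℂ) * q.1 j0 * v q * conj (β j0) := by
    rw [Finset.sum_eq_single j0]
    · rw [Db_sg j0 ε hv hq, if_pos rfl]
    · intro j _ hj
      rw [Db_sg j0 ε hv hq, if_neg hj]
      simp
    · simp
  have h2 : ∑ j, ((ε / (ε ^ 2 + ‖q.1 j0‖ ^ 2) : ℝ) : ℂ) * S.D j (fun q => q.1 j0) q * β j =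
      ((ε / (ε ^ 2 + ‖q.1 j0‖ ^ 2) : ℝ) : ℂ) * β j0 := by
    rw [Finset.sum_eq_single j0]
    · rw [D_coord, if_pos rfl, mul_one]
    · intro j _ hj
      rw [D_coord, if_neg hj]
      simp
    · simp
  rw [h1, h2]
  simp only [norm_mul, Complex.norm_real, Real.norm_eq_abs, RCLike.norm_conj, mul_pow, sq_abs]
  set y : ℝ := ‖q.1 j0‖ ^ 2 with hy
  have hy0 : 0 ≤ y := by positivity
  by_cases hcase : ε ^ 2 / 2 ≤ y ∧ y ≤ ε ^ 2
  · have h3 : af j0 ε v q = 16 * stB ^ 2 * ‖v q‖ ^ 2 := by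
      unfold af
      exact Set.indicator_of_mem (by exact hcase) _
    rw [h3]
    have h4 := deriv_cutX_sq_le (y / ε ^ 2)
    have h5 : (deriv cutX (y / ε ^ 2) / ε ^ 2) ^ 2 * y ≤ 16 * stB ^ 2 * (ε / (ε ^ 2 + y)) ^ 2 := by
      have h6 : y * (ε ^ 2 + y) ^ 2 ≤ 4 * (ε ^ 2) ^ 3 := by
        have : ε ^ 2 + y ≤ 2 * ε ^ 2 := by linarith [hcase.2]
        calc y * (ε ^ 2 + y) ^ 2 ≤ ε ^ 2 * (2 * ε ^ 2) ^ 2 := by
              gcongr
              exact hcase.2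
          _ = 4 * (ε ^ 2) ^ 3 := by ring
      rw [div_pow, div_pow, div_mul_eq_mul_div, mul_div_assoc', div_le_div_iff₀ (by positivity)
        (by positivity)]
      calc deriv cutX (y / ε ^ 2) ^ 2 * y * (ε ^ 2 + y) ^ 2
          = deriv cutX (y / ε ^ 2) ^ 2 * (y * (ε ^ 2 + y) ^ 2) := by ring
        _ ≤ (4 * stB ^ 2) * (4 * (ε ^ 2) ^ 3) := by gcongr
        _ = 16 * stB ^ 2 * ε ^ 2 * (ε ^ 2) ^ 2 := by ring
    calc (deriv cutX (y / ε ^ 2) / ε ^ 2) ^ 2 * y * ‖v q‖ ^ 2 * ‖β j0‖ ^ 2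
        ≤ (16 * stB ^ 2 * (ε / (ε ^ 2 + y)) ^ 2) * ‖v q‖ ^ 2 * ‖β j0‖ ^ 2 := by gcongr
      _ = 16 * stB ^ 2 * ‖v q‖ ^ 2 * ((ε / (ε ^ 2 + y)) ^ 2 * ‖β j0‖ ^ 2) := by ring
  · have h3 : deriv cutX (y / ε ^ 2) = 0 := by
      apply deriv_cutX_zero
      rw [not_and_or, not_le, not_le] at hcase
      rcases hcase with h | h
      · left
        rw [div_lt_iff₀ (by positivity)]
        linarith
      · right
        rw [lt_div_iff₀ (by positivity)]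
        linarith
    rw [h3]
    have := af_nonneg j0 ε v q
    have h4 : (0 / ε ^ 2 : ℝ) ^ 2 * y * ‖v q‖ ^ 2 * ‖β j0‖ ^ 2 = 0 := by simp
    rw [h4]
    positivity

end Vale.Agent.P298.H293
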