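import Vale.Agent.P298.H293.TwF
import Vale.Agent.P298.H293.TwG
import Vale.Agent.P298.H293.TwI
import Vale.Agent.P298.H293.TwJ
import Vale.Agent.P300.H435.L2.Holo

set_option linter.all false

/-! P298, block OT: the theorem of Ohsawa and Takegoshi on sheets, for a fixed `ε`. -/

open MeasureTheory Filter Topology
open scoped ENNReal NNReal ComplexConjugate

namespace Vale.Agent.P298.H293

open Vale.Agent.P300.L2 Vale.Agent.P300.L2.Sheets

variable {n N : ℕ} {S : Sheets n N}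

theorem levi_log_nonneg (j0 : Fin n) {δ : ℝ} (hδ : 0 < δ) {q : (Fin n → ℂ) × ℕ} (hq : q ∈ S.M)
    (β : Fin n → ℂ) : 0 ≤ S.levi (fun q => Real.log (δ ^ 2 + ‖q.1 j0‖ ^ 2)) β q := by
  have h := levi_log_ge (S := S) (r := 1) (F := fun _ q => q.1 j0) (fun _ => holo_coord j0)
    (s := δ ^ 2) (by positivity) hq β
  simp only [Finset.univ_unique, Finset.sum_const, Finset.card_singleton, one_smul] at h
  refine le_trans ?_ h
  positivity

theorem CD_real_nonneg_aux {Ψ : (Fin n → ℂ) × ℕ → ℝ} (hΨ : S.CD 0 (fun q => (Ψ q : ℂ))) :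
    AEMeasurable Ψ S.μ := by
  have h1 := (aestronglyMeasurable_of_CD hΨ).aemeasurable
  have h2 := Complex.measurable_re.comp_aemeasurable h1
  refine h2.congr (Eventually.of_forall fun q => ?_)
  simp

/-- **Ohsawa–Takegoshi on sheets**, for a fixed `ε`. -/
theorem ot_eps {p : (Fin n → ℂ) → ℝ} {C : ℝ} {k0 : ℕ} (hp : Exh S.V p C k0) (j0 : Fin n)
    (hV : ∀ z ∈ S.V, ‖z j0‖ ≤ 1 / 2) {Φ : (Fin n → ℂ) × ℕ → ℝ}
    (hΦ : S.CD 2 (fun q => (Φ q : ℂ))) (hΦb : ∃ c : ℝ, ∀ q ∈ S.M, c ≤ Φ q)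
    (hlevi : ∀ q ∈ S.M, ∀ β : Fin n → ℂ, 0 ≤ S.levi Φ β q)
    {v : (Fin n → ℂ) × ℕ → ℂ} (hv : S.Holo v)
    (hvb : ∃ (c : ℝ) (k : ℕ), ∀ q ∈ S.M, ‖v q‖ ≤ c * (1 + p q.1) ^ k)
    {ε : ℝ} (hε : 0 < ε) (hε4 : ε ≤ 1 / 4) {A : ℝ} (hA0 : 0 ≤ A)
    (hA : ∫⁻ q in {q : (Fin n → ℂ) × ℕ | ‖q.1 j0‖ ≤ ε},
      ENNReal.ofReal (‖v q‖ ^ 2 * Real.exp (-Φ q)) ∂S.μ ≤ ENNReal.ofReal (A * ε ^ 2)) :
    ∃ F : (Fin n → ℂ) × ℕ → ℂ, S.Holo F ∧
      (∫⁻ q, ENNReal.ofReal (‖F q‖ ^ 2 * Real.exp (-Φ q)) ∂S.μ ≤ ENNReal.ofReal (otC * A)) ∧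
      ∀ q ∈ S.M, q.1 j0 = 0 → F q = v q := by
  obtain ⟨τ, hτdef⟩ : ∃ τ : (Fin n → ℂ) × ℕ → ℂ, τ = fun q => q.1 j0 := ⟨_, rfl⟩
  have hτ : S.Holo τ := by rw [hτdef]; exact holo_coord j0
  have hτV : ∀ q ∈ S.M, ‖τ q‖ ≤ 1 / 2 := fun q hq => by rw [hτdef]; exact hV q.1 hq.1
  have hs : ∀ q ∈ S.M, 1 ≤ ss ε τ q := fun q hq => (ss_bounds hε hε4 (hτV q hq)).1
  have hs' : ∀ q ∈ S.M, ss ε τ q ≤ -Real.log (ε ^ 2) := fun q hq =>
    (ss_bounds hε hε4 (hτV q hq)).2
  obtain ⟨sm, hsm⟩ : ∃ sm : ℝ, sm = max 1 (-Real.log (ε ^ 2)) := ⟨_, rfl⟩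
  have hsm1 : 1 ≤ sm := by rw [hsm]; exact le_max_left _ _
  have hssm : ∀ q ∈ S.M, ss ε τ q ≤ sm := fun q hq => by
    rw [hsm]; exact (hs' q hq).trans (le_max_right _ _)
  have hlfe : ∀ q ∈ S.M, lf ε τ q = (1 + ss ε τ q) ^ 2 := fun q hq => by
    unfold lf; rw [if_pos (hs q hq)]
  have hp0 : ∀ z ∈ S.V, 0 ≤ p z := fun z hz => (sq_nonneg _).trans (hp.norm_sq_le z hz)
  -- the weights
  obtain ⟨δ, hδdef⟩ : ∃ δ : ℕ → ℝ, δ = fun m : ℕ => ε / ((m : ℝ) + 1) := ⟨_, rfl⟩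
  have hδ : ∀ m, 0 < δ m := fun m => by rw [hδdef]; positivity
  have hδlim : Tendsto δ atTop (𝓝 0) := by
    rw [hδdef]
    apply Tendsto.div_atTop tendsto_const_nhds
    exact tendsto_atTop_add_const_right _ _ tendsto_natCast_atTop_atTop
  have hδ0 : δ 0 = ε := by rw [hδdef]; simp
  have hδanti : ∀ m, δ (m + 1) ≤ δ m := by
    intro m
    rw [hδdef]
    simp only
    push_cast
    apply div_le_div_of_nonneg_left hε.le (by positivity)
    linarith
  have hδε : ∀ m, δ m ≤ ε := fun m => by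
    rw [hδdef]
    apply div_le_self hε.le
    have : (0 : ℝ) ≤ m := Nat.cast_nonneg m
    linarith
  obtain ⟨Φs, hΦs⟩ : ∃ Φs : ℕ → (Fin n → ℂ) × ℕ → ℝ,
      Φs = fun m q => Φ q + Real.log (δ m ^ 2 + ‖q.1 j0‖ ^ 2) := ⟨_, rfl⟩
  have hlogCD : ∀ m, S.CD 2 (fun q => ((Real.log (δ m ^ 2 + ‖q.1 j0‖ ^ 2) : ℝ) : ℂ)) := fun m =>
    CD_log_tau (τ := fun q => q.1 j0) (holo_coord j0) 2 (hδ m)
  have w1 : ∀ m, S.CD 2 (fun q => (Φs m q : ℂ)) := by
    intro m
    rw [hΦs]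
    refine (hΦ.add (hlogCD m)).congr fun q _ => ?_
    push_cast
    rfl
  have w2 : ∀ m, ∀ q ∈ S.M, Φs (m + 1) q ≤ Φs m q := by
    intro m q hq
    rw [hΦs]
    simp only
    have h1 := hδ (m + 1)
    have h2 := hδanti m
    gcongr
  have w3 : ∀ m, ∃ c : ℝ, ∀ q ∈ S.M, c ≤ Φs m q := by
    intro m
    obtain ⟨c, hc⟩ := hΦb
    refine ⟨c + Real.log (δ m ^ 2), fun q hq => ?_⟩
    rw [hΦs]
    simp only
    have h1 := hδ m
    have h2 := hc q hq
    have h3 : Real.log (δ m ^ 2) ≤ Real.log (δ m ^ 2 + ‖q.1 j0‖ ^ 2) := by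
      apply Real.log_le_log (by positivity)
      have := sq_nonneg ‖q.1 j0‖
      linarith
    linarith
  have w4 : ∀ m, ∀ q ∈ S.M, ∀ β : Fin n → ℂ, 0 ≤ S.levi (Φs m) β q := by
    intro m q hq β
    rw [hΦs]
    rw [levi_add hΦ (hlogCD m) hq β]
    exact add_nonneg (hlevi q hq β) (levi_log_nonneg j0 (hδ m) hq β)
  -- constants
  have hK : ∀ q ∈ S.M, Real.exp (-zz ε τ q) + lf ε τ q ≤
      (1 + 4 * sm) * Real.exp (-zz ε τ q) := by
    intro q hq
    rw [exp_neg_zz hτ hε hs hq, hlfe q hq]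
    have h1 := (gg_bounds (hs q hq)).1
    have h2 := hs q hq
    have h3 := hssm q hq
    have h4 : (1 + ss ε τ q) ^ 2 ≤ 4 * sm * gg ε τ q := by
      calc (1 + ss ε τ q) ^ 2 ≤ (2 * ss ε τ q) ^ 2 := by gcongr; linarith
        _ = 4 * ss ε τ q * ss ε τ q := by ring
        _ ≤ 4 * sm * gg ε τ q := by gcongr
    linarith
  have hK1 : 1 ≤ 1 + 4 * sm := by linarith
  have hW1 : ∀ q ∈ S.M, Real.exp (-zz ε τ q) + lf ε τ q ≤ 6 * sm ^ 2 := by
    intro q hq
    rw [exp_neg_zz hτ hε hs hq, hlfe q hq]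
    have h1 := (gg_bounds (hs q hq)).2
    have h2 := hs q hq
    have h3 := hssm q hq
    have h4 : (1 + ss ε τ q) ^ 2 ≤ (2 * sm) ^ 2 := by gcongr; linarith
    have h5 : gg ε τ q ≤ 2 * sm := by linarith
    nlinarith
  -- the form
  have hξ : ∀ j, S.CD 0 (fun q => ((ε / (ε ^ 2 + ‖τ q‖ ^ 2) : ℝ) : ℂ) * S.D j τ q) := by
    intro j
    refine CD.mul ?_ ((hτ.D).CD 0)
    have h1 : ContDiff ℝ 0 (fun x : ℝ => ε * Real.exp (-x)) := by fun_prop
    refine CD.congr (X := fun q => ((ε * Real.exp (-Real.log (ε ^ 2 + ‖τ q‖ ^ 2)) : ℝ) : ℂ)) ?_ ?_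
    · exact CD.comp_real (m := 0) (φ := fun x : ℝ => ε * Real.exp (-x))
        (u := fun q => Real.log (ε ^ 2 + ‖τ q‖ ^ 2)) (by exact_mod_cast h1) (CD_log_tau hτ 0 hε)
    · intro q _
      have h0 : 0 < ε ^ 2 + ‖τ q‖ ^ 2 := by positivity
      rw [Real.exp_neg, Real.exp_log h0, div_eq_mul_inv]
  obtain ⟨A', hA'⟩ : ∃ A' : ℝ, A' = 32 * stB ^ 2 * A := ⟨_, rfl⟩
  have hA'0 : 0 ≤ A' := by rw [hA']; positivity
  have hAm : ∀ m, ∫⁻ q, ENNReal.ofReal (af j0 ε v q * Real.exp (-Φs m q)) ∂S.μ ≤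
      ENNReal.ofReal A' := by
    intro m
    have hE : MeasurableSet {q : (Fin n → ℂ) × ℕ | ‖q.1 j0‖ ≤ ε} :=
      measurableSet_le (measurable_coord j0) measurable_const
    calc ∫⁻ q, ENNReal.ofReal (af j0 ε v q * Real.exp (-Φs m q)) ∂S.μ
        ≤ ∫⁻ q, ENNReal.ofReal (32 * stB ^ 2 / ε ^ 2) *
            {q : (Fin n → ℂ) × ℕ | ‖q.1 j0‖ ≤ ε}.indicator
              (fun q => ENNReal.ofReal (‖v q‖ ^ 2 * Real.exp (-Φ q))) q ∂S.μ := by
          refine lintegral_mono fun q => ?_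
          by_cases hcase : ε ^ 2 / 2 ≤ ‖q.1 j0‖ ^ 2 ∧ ‖q.1 j0‖ ^ 2 ≤ ε ^ 2
          · have h1 : ‖q.1 j0‖ ≤ ε := by
              exact (pow_le_pow_iff_left₀ (norm_nonneg _) hε.le two_ne_zero).1 hcase.2
            have h3 : af j0 ε v q = 16 * stB ^ 2 * ‖v q‖ ^ 2 := by
              unfold af
              exact Set.indicator_of_mem (by exact hcase) _
            rw [Set.indicator_of_mem (by exact h1), h3, ← ENNReal.ofReal_mul (by positivity)]
            apply ENNReal.ofReal_le_ofReal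
            have h4 : Real.exp (-Φs m q) = Real.exp (-Φ q) * (δ m ^ 2 + ‖q.1 j0‖ ^ 2)⁻¹ := by
              have h0 : 0 < δ m ^ 2 + ‖q.1 j0‖ ^ 2 := by have := hδ m; positivity
              rw [hΦs]
              simp only
              rw [neg_add, Real.exp_add, Real.exp_neg (Real.log _), Real.exp_log h0]
            have h5 : (δ m ^ 2 + ‖q.1 j0‖ ^ 2)⁻¹ ≤ 2 / ε ^ 2 := by
              rw [inv_eq_one_div, div_le_div_iff₀ (by have := hδ m; positivity) (by positivity)]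
              have := sq_nonneg (δ m)
              linarith [hcase.1]
            rw [h4]
            calc 16 * stB ^ 2 * ‖v q‖ ^ 2 * (Real.exp (-Φ q) * (δ m ^ 2 + ‖q.1 j0‖ ^ 2)⁻¹)
                ≤ 16 * stB ^ 2 * ‖v q‖ ^ 2 * (Real.exp (-Φ q) * (2 / ε ^ 2)) := by gcongr
              _ = 32 * stB ^ 2 / ε ^ 2 * (‖v q‖ ^ 2 * Real.exp (-Φ q)) := by ring
          · have h3 : af j0 ε v q = 0 := by
              unfold af
              exact Set.indicator_of_notMem (by exact hcase) _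
            rw [h3, zero_mul, ENNReal.ofReal_zero]
            exact zero_le
      _ = ENNReal.ofReal (32 * stB ^ 2 / ε ^ 2) *
            ∫⁻ q in {q : (Fin n → ℂ) × ℕ | ‖q.1 j0‖ ≤ ε},
              ENNReal.ofReal (‖v q‖ ^ 2 * Real.exp (-Φ q)) ∂S.μ := by
          rw [lintegral_const_mul' _ _ ENNReal.ofReal_ne_top, lintegral_indicator hE]
      _ ≤ ENNReal.ofReal (32 * stB ^ 2 / ε ^ 2) * ENNReal.ofReal (A * ε ^ 2) := by gcongr
      _ = ENNReal.ofReal A' := by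
          rw [← ENNReal.ofReal_mul (by positivity), hA']
          congr 1
          field_simp
  -- bound of the form
  have hαb : ∃ (c : ℝ) (k : ℕ), ∀ q ∈ S.M, ∀ j, ‖S.Db j (sg j0 ε v) q‖ ≤ c * (1 + p q.1) ^ k := by
    obtain ⟨c, k, hc⟩ := hvb
    refine ⟨2 * stB / ε ^ 2 * (1 / 2) * |c|, k, fun q hq j => ?_⟩
    rw [Db_sg j0 ε hv hq, norm_mul, norm_mul, Complex.norm_real, Real.norm_eq_abs, abs_div,
      abs_of_pos (show 0 < ε ^ 2 by positivity)]
    have h1 : |deriv cutX (‖q.1 j0‖ ^ 2 / ε ^ 2)| ≤ 2 * stB := by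
      apply abs_le_of_sq_le_sq _ (by have := stB_pos; positivity)
      have := deriv_cutX_sq_le (‖q.1 j0‖ ^ 2 / ε ^ 2)
      nlinarith
    have h2 : ‖(if j = j0 then q.1 j0 else 0 : ℂ)‖ ≤ 1 / 2 := by
      split_ifs
      · exact hV q.1 hq.1
      · simp
    have h3 : ‖v q‖ ≤ |c| * (1 + p q.1) ^ k := by
      have h4 := hp0 q.1 hq.1
      refine (hc q hq).trans ?_
      gcongr
      exact le_abs_self c
    have h4 := stB_pos
    calc |deriv cutX (‖q.1 j0‖ ^ 2 / ε ^ 2)| / ε ^ 2 * ‖(if j = j0 then q.1 j0 else 0 : ℂ)‖ * ‖v q‖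
        ≤ (2 * stB) / ε ^ 2 * (1 / 2) * (|c| * (1 + p q.1) ^ k) := by gcongr
      _ = _ := by ring
  -- application of the twisted theorem of Hörmander
  obtain ⟨u, hu1, hu2, hu3⟩ := hor_sing_tw hp w1 w2 w3 w4 (CD_zz hτ hε hs 2) (CD_lf hτ hε hs 0)
    (CD_ww hτ hε hs 2) (fun q hq => exp_ww hτ hε hs hq) (fun q => lf_pos q) hK hK1 hW1 hξ
    (fun q hq β => twist_cond hτ hε hs hq β) (fun j => S.Db j (sg j0 ε v))
    (fun j => CD.Db (m := 1) (CD_sg j0 ε hv)) (fun q hq j k => Db_Db_comm (CD_sg j0 ε hv) hq)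
    hαb (fun _ => af j0 ε v) (fun _ q => af_nonneg j0 ε v q) (fun _ => af_meas j0 ε hv)
    (fun _ q hq β => by rw [hτdef]; exact af_bound j0 hε hv hq β) hA'0 hAm
  have hwCD0 : S.CD 0 (fun q => (ww ε τ q : ℂ)) := CD_ww hτ hε hs 0
  have hloc : ∀ K : Set (Fin n → ℂ), IsCompact K → K ⊆ S.V →
      ∫⁻ q in {q : (Fin n → ℂ) × ℕ | q.1 ∈ K}, ‖u q‖ₑ ^ 2 ∂S.μ < ⊤ := by
    intro K hK hKV
    have hc : S.CD 0 (fun q => ((Φs 0 q + ww ε τ q : ℝ) : ℂ)) := by
      refine (((w1 0).mono (Nat.zero_le 2)).add hwCD0).congr fun q _ => ?_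
      push_cast
      rfl
    obtain ⟨B, hB⟩ := exists_bound hc hK hKV
    have h1 : ∫⁻ q in {q : (Fin n → ℂ) × ℕ | q.1 ∈ K}, ‖u q‖ₑ ^ 2 ∂S.μ ≤
        ∫⁻ q in {q : (Fin n → ℂ) × ℕ | q.1 ∈ K}, ENNReal.ofReal (Real.exp B) *
          ENNReal.ofReal (‖u q‖ ^ 2 * Real.exp (-(Φs 0 q + ww ε τ q))) ∂S.μ := by
      refine lintegral_mono_ae ?_
      filter_upwards [ae_restrict_of_ae (ae_mem_M (S := S)),
        ae_restrict_mem (hdc_meas_fst hK)] with q hq1 hq2
      have h3 := hB q hq1 hq2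
      rw [Complex.norm_real, Real.norm_eq_abs] at h3
      have h4 : Φs 0 q + ww ε τ q ≤ B := (le_abs_self _).trans h3
      rw [← ENNReal.ofReal_mul (Real.exp_pos _).le, ← ofReal_norm,
        ← ENNReal.ofReal_pow (norm_nonneg _)]
      refine ENNReal.ofReal_le_ofReal ?_
      have h5 : 1 ≤ Real.exp B * Real.exp (-(Φs 0 q + ww ε τ q)) := by
        rw [← Real.exp_add]
        exact Real.one_le_exp (by linarith)
      nlinarith [sq_nonneg ‖u q‖]
    refine h1.trans_lt ?_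
    rw [lintegral_const_mul' _ _ ENNReal.ofReal_ne_top]
    refine ENNReal.mul_lt_top ENNReal.ofReal_lt_top ?_
    exact (setLIntegral_le_lintegral _ _).trans_lt ((hu2 0).trans_lt ENNReal.ofReal_lt_top)
  obtain ⟨F, hF, hFe⟩ := weylM_sub ((CD_sg j0 ε hv).mono one_le_two) hu1 hloc hu3
  refine ⟨F, hF, ?_, ?_⟩
  · -- the estimate
    have hmeas1 : AEMeasurable (fun q => ENNReal.ofReal (‖sg j0 ε v q‖ ^ 2 * Real.exp (-Φ q))) S.μ := by
      apply AEMeasurable.ennreal_ofReal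
      exact ((aestronglyMeasurable_of_CD ((CD_sg j0 ε hv).mono (Nat.zero_le 2))).norm.pow
        2).aemeasurable.mul (Real.measurable_exp.comp_aemeasurable
          (CD_real_nonneg_aux (hΦ.mono (Nat.zero_le 2))).neg)
    have i1 : ∫⁻ q, ENNReal.ofReal (‖sg j0 ε v q‖ ^ 2 * Real.exp (-Φ q)) ∂S.μ ≤
        ENNReal.ofReal A := by
      have hE : MeasurableSet {q : (Fin n → ℂ) × ℕ | ‖q.1 j0‖ ≤ ε} :=
        measurableSet_le (measurable_coord j0) measurable_const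
      calc ∫⁻ q, ENNReal.ofReal (‖sg j0 ε v q‖ ^ 2 * Real.exp (-Φ q)) ∂S.μ
          ≤ ∫⁻ q, {q : (Fin n → ℂ) × ℕ | ‖q.1 j0‖ ≤ ε}.indicator
              (fun q => ENNReal.ofReal (‖v q‖ ^ 2 * Real.exp (-Φ q))) q ∂S.μ := by
            refine lintegral_mono fun q => ?_
            by_cases h1 : ‖q.1 j0‖ ≤ ε
            · rw [Set.indicator_of_mem (by exact h1)]
              apply ENNReal.ofReal_le_ofReal
              have h2 : ‖sg j0 ε v q‖ ≤ ‖v q‖ := by
                unfold sg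
                rw [norm_mul, Complex.norm_real, Real.norm_eq_abs, abs_of_nonneg (cutX_nonneg _)]
                exact mul_le_of_le_one_left (norm_nonneg _) (cutX_le_one _)
              gcongr
            · have h2 : sg j0 ε v q = 0 := by
                unfold sg
                rw [cutX_zero]
                · simp
                · rw [le_div_iff₀ (by positivity), one_mul]
                  rw [not_le] at h1
                  gcongr
              rw [h2]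
              simp
        _ = _ := lintegral_indicator hE _
        _ ≤ ENNReal.ofReal (A * ε ^ 2) := hA
        _ ≤ ENNReal.ofReal A := by
            apply ENNReal.ofReal_le_ofReal
            apply mul_le_of_le_one_right hA0
            nlinarith
    have i2 : ∫⁻ q, ENNReal.ofReal (‖u q‖ ^ 2 * Real.exp (-Φ q)) ∂S.μ ≤
        ENNReal.ofReal (768 * stB ^ 2 * A) := by
      calc ∫⁻ q, ENNReal.ofReal (‖u q‖ ^ 2 * Real.exp (-Φ q)) ∂S.μ
          ≤ ∫⁻ q, ENNReal.ofReal 12 *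
              ENNReal.ofReal (‖u q‖ ^ 2 * Real.exp (-(Φs 0 q + ww ε τ q))) ∂S.μ := by
            refine lintegral_mono_ae ?_
            filter_upwards [ae_mem_M (S := S)] with q hq
            rw [← ENNReal.ofReal_mul (by norm_num)]
            apply ENNReal.ofReal_le_ofReal
            have h0 : 0 < ε ^ 2 + ‖q.1 j0‖ ^ 2 := by positivity
            have h1 : Real.exp (-ss ε τ q) = ε ^ 2 + ‖q.1 j0‖ ^ 2 := by
              unfold ss
              rw [neg_neg, hτdef, Real.exp_log h0]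
            have h2 := exp_mul_le (hs q hq) (gg_bounds (hs q hq)).2 (hlfe q hq)
            rw [h1] at h2
            have h3 : Real.exp (ww ε τ q) = gg ε τ q + lf ε τ q := by
              rw [exp_ww hτ hε hs hq, exp_neg_zz hτ hε hs hq]
            have h4 : Real.exp (-Φ q) = Real.exp (-(Φs 0 q + ww ε τ q)) *
                ((ε ^ 2 + ‖q.1 j0‖ ^ 2) * (gg ε τ q + lf ε τ q)) := by
              rw [← h3]
              have h5 : Φs 0 q = Φ q + Real.log (ε ^ 2 + ‖q.1 j0‖ ^ 2) := by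
                rw [hΦs]
                simp only
                rw [hδ0]
              have h6 : (ε ^ 2 + ‖q.1 j0‖ ^ 2) * Real.exp (ww ε τ q) =
                  Real.exp (Real.log (ε ^ 2 + ‖q.1 j0‖ ^ 2) + ww ε τ q) := by
                rw [Real.exp_add, Real.exp_log h0]
              rw [h6, h5, ← Real.exp_add]
              congr 1
              ring
            rw [h4]
            have h6 := Real.exp_pos (-(Φs 0 q + ww ε τ q))
            calc ‖u q‖ ^ 2 * (Real.exp (-(Φs 0 q + ww ε τ q)) *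
                  ((ε ^ 2 + ‖q.1 j0‖ ^ 2) * (gg ε τ q + lf ε τ q)))
                ≤ ‖u q‖ ^ 2 * (Real.exp (-(Φs 0 q + ww ε τ q)) * 12) := by gcongr
              _ = 12 * (‖u q‖ ^ 2 * Real.exp (-(Φs 0 q + ww ε τ q))) := by ring
        _ = ENNReal.ofReal 12 *
              ∫⁻ q, ENNReal.ofReal (‖u q‖ ^ 2 * Real.exp (-(Φs 0 q + ww ε τ q))) ∂S.μ :=
            lintegral_const_mul' _ _ ENNReal.ofReal_ne_top
        _ ≤ ENNReal.ofReal 12 * ENNReal.ofReal (2 * A') := by gcongr; exact hu2 0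
        _ = ENNReal.ofReal (768 * stB ^ 2 * A) := by
            rw [← ENNReal.ofReal_mul (by norm_num), hA']
            congr 1
            ring
    calc ∫⁻ q, ENNReal.ofReal (‖F q‖ ^ 2 * Real.exp (-Φ q)) ∂S.μ
        ≤ ∫⁻ q, (ENNReal.ofReal 2 * ENNReal.ofReal (‖sg j0 ε v q‖ ^ 2 * Real.exp (-Φ q)) +
            ENNReal.ofReal 2 * ENNReal.ofReal (‖u q‖ ^ 2 * Real.exp (-Φ q))) ∂S.μ := by
          refine lintegral_mono_ae ?_
          filter_upwards [hFe] with q hq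
          rw [← ENNReal.ofReal_mul (by norm_num), ← ENNReal.ofReal_mul (by norm_num),
            ← ENNReal.ofReal_add (by positivity) (by positivity)]
          apply ENNReal.ofReal_le_ofReal
          rw [← hq]
          have h7 := norm_sub_le (sg j0 ε v q) (u q)
          have h8 : ‖sg j0 ε v q - u q‖ ^ 2 ≤ 2 * ‖sg j0 ε v q‖ ^ 2 + 2 * ‖u q‖ ^ 2 := by
            nlinarith [norm_nonneg (sg j0 ε v q - u q), norm_nonneg (sg j0 ε v q),
              norm_nonneg (u q), sq_nonneg (‖sg j0 ε v q‖ - ‖u q‖)]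
          have h9 := Real.exp_pos (-Φ q)
          nlinarith
      _ = ENNReal.ofReal 2 * (∫⁻ q, ENNReal.ofReal (‖sg j0 ε v q‖ ^ 2 * Real.exp (-Φ q)) ∂S.μ) +
            ENNReal.ofReal 2 * ∫⁻ q, ENNReal.ofReal (‖u q‖ ^ 2 * Real.exp (-Φ q)) ∂S.μ := by
          rw [lintegral_add_left' (hmeas1.const_mul _),
            lintegral_const_mul' _ _ ENNReal.ofReal_ne_top,
            lintegral_const_mul' _ _ ENNReal.ofReal_ne_top]
      _ ≤ ENNReal.ofReal 2 * ENNReal.ofReal A +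
            ENNReal.ofReal 2 * ENNReal.ofReal (768 * stB ^ 2 * A) := by gcongr
      _ = ENNReal.ofReal (otC * A) := by
          rw [← ENNReal.ofReal_mul (by norm_num), ← ENNReal.ofReal_mul (by norm_num),
            ← ENNReal.ofReal_add (by positivity) (by positivity)]
          congr 1
          unfold otC
          ring
  · -- the restriction
    obtain ⟨ε', hε'⟩ : ∃ ε' : ℝ, ε' = ε / 2 := ⟨_, rfl⟩
    have hΨ : S.CD 0 (fun q => ((Φ q + ww ε τ q : ℝ) : ℂ)) := by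
      refine ((hΦ.mono (Nat.zero_le 2)).add hwCD0).congr fun q _ => ?_
      push_cast
      rfl
    refine restrict_eq j0 hv hF (Ψ := fun q => Φ q + ww ε τ q) hΨ hu1
      (B := ENNReal.ofReal (2 * A')) ENNReal.ofReal_ne_top hδ hδlim (fun m => ?_)
      (ε := ε / 2) (by positivity) ?_
    · refine le_trans (le_of_eq ?_) (hu2 m)
      refine lintegral_congr fun q => ?_
      have : Φ q + ww ε τ q + Real.log (δ m ^ 2 + ‖q.1 j0‖ ^ 2) = Φs m q + ww ε τ q := by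
        rw [hΦs]
        ring
      rw [this]
    · filter_upwards [hFe] with q hq hqε
      have h1 : sg j0 ε v q = v q := by
        unfold sg
        rw [cutX_one]
        · simp
        · rw [div_le_iff₀ (by positivity)]
          have : ‖q.1 j0‖ ^ 2 ≤ (ε / 2) ^ 2 := by gcongr
          nlinarith
      rw [← h1, ← hq]
      ring

end Vale.Agent.P298.H293
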