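import Vale.Agent.P298.H293.Fin2
import Vale.Agent.P298.H379.Coer

set_option linter.all false

/-! P298, block OT: the constant extension has finite norm (extension in the parameter `s`). -/

namespace Vale.Agent.P298.H293

open Filter Topology Metric MeasureTheory Set Vale.Agent.P298 Vale.Agent.P298.H379
open scoped ENNReal NNReal

variable {d e : ℕ} {R δ : ℝ}

theorem det_smul_one (w : ℂ) :
    ((w • (ContinuousLinearMap.id ℂ ℂ)).restrictScalars ℝ).det = ‖w‖ ^ 2 := by
  have h1 : ((w • (ContinuousLinearMap.id ℂ ℂ)).restrictScalars ℝ).det =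
      LinearMap.det ((w • (LinearMap.id : ℂ →ₗ[ℂ] ℂ)).restrictScalars ℝ) := rfl
  rw [h1, LinearMap.det_restrictScalars, Algebra.norm_complex_apply, LinearMap.det_smul,
    LinearMap.det_id, Module.finrank_self, pow_one, mul_one, Complex.normSq_eq_norm_sq]

/-- One-dimensional area formula for the polynomial `z ↦ F_t(p, z)`. -/
theorem area_z (F : PFam d R δ) (t : ℂ) (p : ℂ × ℂ) {φ : (Fin 3 → ℂ) → ℝ≥0∞}
    (hφ : Measurable φ) : ∫⁻ s : ℂ, rootSum (F.f t) s φ p ≤ ∫⁻ z : ℂ, φ (pt p z) := by
  classical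
  set g : ℂ → ℂ := fun z => F.f t (pt p z) with hg
  set S : Set ℂ := {z | pd 2 (F.f t) (pt p z) ≠ 0} with hS
  have hfd : Differentiable ℂ (F.f t) := (F.contDiff_f t (n := 1)).differentiable one_ne_zero
  have hgd : ∀ z, HasDerivAt g (pd 2 (F.f t) (pt p z)) z := by
    intro z
    have h1 := (hfd (pt p z)).hasFDerivAt.comp_hasDerivAt z (hasDerivAt_pt p z)
    exact h1
  have hgc : ContDiff ℂ 1 g := (F.contDiff_f t).comp (contDiff_pt.comp (contDiff_prodMk_right p))
  have hgs : ∀ z, HasStrictFDerivAt g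
      ((pd 2 (F.f t) (pt p z) • (ContinuousLinearMap.id ℂ ℂ)).restrictScalars ℝ) z := by
    intro z
    have h1 : HasStrictFDerivAt g (fderiv ℂ g z) z :=
      (hgc.contDiffAt).hasStrictFDerivAt one_ne_zero
    have h2 : fderiv ℂ g z = pd 2 (F.f t) (pt p z) • (ContinuousLinearMap.id ℂ ℂ) := by
      ext
      rw [fderiv_eq_deriv_mul]
      simp [(hgd z).deriv]
    rw [h2] at h1
    exact h1.restrictScalars ℝ
  have hpdc : Continuous fun z => pd 2 (F.f t) (pt p z) := by
    have h1 : Continuous (pd 2 (F.f t)) := by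
      unfold pd
      exact ((F.contDiff_f t (n := 1)).continuous_fderiv one_ne_zero).clm_apply continuous_const
    exact h1.comp (continuous_pt.comp (Continuous.prodMk_right p))
  have hSm : MeasurableSet S := by
    have : IsOpen S := isOpen_ne_fun hpdc continuous_const
    exact this.measurableSet
  set G : ℂ → ℝ≥0∞ := fun z => φ (pt p z) / ‖pd 2 (F.f t) (pt p z)‖ₑ ^ 2 with hG
  have hGm : Measurable G := by
    refine Measurable.div ?_ ?_
    · exact hφ.comp (continuous_pt.comp (Continuous.prodMk_right p)).measurable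
    · exact hpdc.enorm.measurable.pow_const 2
  have harea := (H98.area (volume : Measure ℂ) hSm (fun z _ => hgs z) (fun z hz => by
    rw [det_smul_one]
    have : 0 < ‖pd 2 (F.f t) (pt p z)‖ := norm_pos_iff.2 hz
    positivity) (g := G) (hGm.comp measurable_subtype_coe)).2
  have h1 : ∀ s, rootSum (F.f t) s φ p = H98.fsum g S G s := by
    intro s
    unfold rootSum H98.fsum
    have h2 : Rts (F.f t) s p = S ∩ g ⁻¹' {s} := by
      ext z
      simp only [Rts, hS, hg, mem_inter_iff, mem_preimage, mem_singleton_iff, mem_ofPred_eq]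
      exact and_comm
    rw [← tsum_subtype, h2]
  simp only [h1]
  rw [← harea]
  calc ∫⁻ z in S, ENNReal.ofReal |((pd 2 (F.f t) (pt p z) •
        (ContinuousLinearMap.id ℂ ℂ)).restrictScalars ℝ).det| * G z
      = ∫⁻ z in S, φ (pt p z) := by
        refine setLIntegral_congr_fun hSm fun z hz => ?_
        rw [det_smul_one, abs_of_nonneg (by positivity), hG]
        rw [ENNReal.ofReal_pow (norm_nonneg _), ofReal_norm]
        rw [ENNReal.mul_div_cancel]
        · have : pd 2 (F.f t) (pt p z) ≠ 0 := hz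
          simpa using this
        · finiteness
    _ ≤ ∫⁻ z : ℂ, φ (pt p z) := setLIntegral_le_lintegral _ _

/-- **Local part**: integration over all levels gives at most the volume. -/
theorem level_bound (F : PFam d R δ) {t : ℂ} (ht : t ∈ ball (0 : ℂ) R)
    {φ : (Fin 3 → ℂ) → ℝ≥0∞} (hφ : LowerSemicontinuous φ) :
    ∫⁻ s : ℂ, nu (F.f t) s φ ≤ ∫⁻ p : ℂ × ℂ, ∫⁻ z : ℂ, φ (pt p z) := by
  have hlsc : LowerSemicontinuous (fun y : ℂ × (ℂ × ℂ) => rootSum (F.f t) y.1 φ y.2) := by
    intro y
    refine F.lsc_rootSum (Y := ℂ × (ℂ × ℂ)) (τ := fun _ => t) (σ := fun y => y.1)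
      (π := fun y => y.2) (φ := fun _ => φ) continuousAt_const continuousAt_fst continuousAt_snd
      ht fun x c hc => ?_
    exact (continuous_snd.tendsto (y, x)).eventually (hφ x c hc)
  have h1 : ∫⁻ s : ℂ, nu (F.f t) s φ = ∫⁻ p : ℂ × ℂ, ∫⁻ s : ℂ, rootSum (F.f t) s φ p := by
    unfold nu
    exact lintegral_lintegral_swap (f := fun s p => rootSum (F.f t) s φ p)
      (hlsc.measurable.aemeasurable)
  rw [h1]
  exact lintegral_mono fun p => area_z F t p hφ.measurable

/-- finiteness for the extension in the parameter `s` -/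
theorem fin_s (F : PFam d R δ) {t : ℂ} (ht : t ∈ ball (0 : ℂ) R) (r : ℝ) {k : ℝ}
    (hk : k ∈ KK d e) (v : Q d e) : ∫⁻ s in ball (0 : ℂ) r, F.N k t s v < ∞ := by
  obtain ⟨C, g, hC, hg, hCg⟩ := pow_ev_le hk v
  obtain ⟨A, κ, hA1, hκ, hA⟩ := pd_lower F t
  obtain ⟨B, hB, hBs⟩ := tail_bound F t hκ hA hC hg hCg
  set φ : (Fin 3 → ℂ) → ℝ≥0∞ := fun x => ‖ev v x‖ₑ ^ (2 / k) with hφ
  have hφc : Continuous φ :=
    (ENNReal.continuous_rpow_const).comp (contDiff_ev (n := 0) v).continuous.enorm
  set ψ : (Fin 3 → ℂ) → ℝ≥0∞ := (ball (0 : Fin 3 → ℂ) A).indicator φ with hψ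
  have hψl : LowerSemicontinuous ψ := by
    intro x c hc
    by_cases hx : x ∈ ball (0 : Fin 3 → ℂ) A
    · rw [hψ, indicator_of_mem hx] at hc
      filter_upwards [isOpen_ball.mem_nhds hx, hφc.continuousAt.eventually (lt_mem_nhds hc)]
        with y hy hy2
      rw [hψ, indicator_of_mem hy]
      exact hy2
    · rw [hψ, indicator_of_notMem hx] at hc
      exact absurd hc not_lt_zero
  have hdec : ∀ s, F.N k t s v ≤ nu (F.f t) s ψ + B := by
    intro s
    calc F.N k t s v = nu (F.f t) s φ := rfl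
      _ = nu (F.f t) s (fun x => ψ x + {x | A ≤ ‖x‖}.indicator φ x) := by
          congr 1
          funext x
          by_cases hx : ‖x‖ < A
          · rw [hψ, indicator_of_mem (by simpa using hx), indicator_of_notMem (by simpa using hx),
              add_zero]
          · rw [hψ, indicator_of_notMem (by simpa using hx), indicator_of_mem (by simpa using hx),
              zero_add]
      _ = nu (F.f t) s ψ + nu (F.f t) s ({x | A ≤ ‖x‖}.indicator φ) :=
          H373.nu_add isOpen_univ (analytic_f F t) s hψl.measurable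
            (fun x hx => absurd (mem_univ x) hx)
      _ ≤ _ := by gcongr; exact hBs s
  -- bound of the local part
  obtain ⟨M, hM⟩ : ∃ M : ℝ≥0, ∀ x ∈ closedBall (0 : Fin 3 → ℂ) A, φ x ≤ M := by
    obtain ⟨x₁, hx₁, hmax⟩ := (isCompact_closedBall (0 : Fin 3 → ℂ) A).exists_isMaxOn
      ⟨0, mem_closedBall_self (by linarith)⟩ hφc.continuousOn
    have hfin : φ x₁ ≠ ∞ := ne_top_of_le_ne_top ENNReal.ofReal_ne_top (hCg x₁)
    refine ⟨(φ x₁).toNNReal, fun x hx => ?_⟩
    rw [ENNReal.coe_toNNReal hfin]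
    exact hmax hx
  have hloc : ∫⁻ p : ℂ × ℂ, ∫⁻ z : ℂ, ψ (pt p z) < ∞ := by
    calc ∫⁻ p : ℂ × ℂ, ∫⁻ z : ℂ, ψ (pt p z)
        ≤ ∫⁻ p : ℂ × ℂ, (ball (0 : ℂ × ℂ) A).indicator
            (fun _ => ∫⁻ z : ℂ, (ball (0 : ℂ) A).indicator (fun _ => (M : ℝ≥0∞)) z) p := by
          refine lintegral_mono fun p => ?_
          by_cases hp : p ∈ ball (0 : ℂ × ℂ) A
          · rw [indicator_of_mem hp]
            refine lintegral_mono fun z => ?_
            by_cases hx : pt p z ∈ ball (0 : Fin 3 → ℂ) A
            · have hz : z ∈ ball (0 : ℂ) A := by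
                rw [mem_ball_zero_iff, norm_pt] at hx
                rw [mem_ball_zero_iff]
                exact (le_max_right _ _).trans_lt hx
              rw [hψ, indicator_of_mem hx, indicator_of_mem hz]
              exact hM _ (ball_subset_closedBall hx)
            · rw [hψ, indicator_of_notMem hx]
              exact zero_le
          · rw [indicator_of_notMem hp]
            refine (lintegral_eq_zero_of_ae_eq_zero ?_).le
            refine Eventually.of_forall fun z => ?_
            have hx : pt p z ∉ ball (0 : Fin 3 → ℂ) A := by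
              intro hx
              rw [mem_ball_zero_iff, norm_pt] at hx
              exact hp (mem_ball_zero_iff.2 ((le_max_left _ _).trans_lt hx))
            rw [hψ]
            exact indicator_of_notMem hx _
      _ < ∞ := by
          rw [lintegral_indicator measurableSet_ball, lintegral_indicator measurableSet_ball,
            setLIntegral_const, setLIntegral_const]
          exact ENNReal.mul_lt_top (ENNReal.mul_lt_top ENNReal.coe_lt_top measure_ball_lt_top)
            measure_ball_lt_top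
  calc ∫⁻ s in ball (0 : ℂ) r, F.N k t s v
      ≤ ∫⁻ s in ball (0 : ℂ) r, (nu (F.f t) s ψ + B) := lintegral_mono fun s => hdec s
    _ = (∫⁻ s in ball (0 : ℂ) r, nu (F.f t) s ψ) + ∫⁻ s in ball (0 : ℂ) r, B :=
        lintegral_add_right _ measurable_const
    _ ≤ (∫⁻ p : ℂ × ℂ, ∫⁻ z : ℂ, ψ (pt p z)) + ∫⁻ s in ball (0 : ℂ) r, B := by
        gcongr
        exact (setLIntegral_le_lintegral _ _).trans (level_bound F ht hψl)
    _ < ∞ := by
        refine ENNReal.add_lt_top.2 ⟨hloc, ?_⟩
        rw [setLIntegral_const]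
        exact ENNReal.mul_lt_top hB.lt_top measure_ball_lt_top

end Vale.Agent.P298.H293
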