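import Vale.Agent.P298.H98.OTC2
import Vale.Agent.P298.H373.Nu
import Vale.Agent.P298.H475.Cov
import Vale.Agent.P298.H293.Fin3

set_option linter.all false

/-! P298, block OT: assembly. From the extension theorem for a polynomial family over a disc
(`OTFam`) to the extension in the parameter `s` (`OTS`) and in the parameter `t` (`OTP1`). -/

namespace Vale.Agent.P298.H293

open Filter Topology Metric MeasureTheory Set Vale.Agent.P298 Vale.Agent.P298.H379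
open scoped ENNReal NNReal

/-- The extension theorem of Ohsawa and Takegoshi for the surfaces `G_τ = 0`,
`G_τ(x) = Σ c_i x_i^d + b_τ(x)`, over a disc. -/
def OTFam (C : ℝ≥0) : Prop :=
  ∀ (d e : ℕ), 5 ≤ d → ∀ (c : Fin 3 → ℂ), (∀ i, c i ≠ 0) → ∀ (b : ℂ → Q d (d - 1)) (r : ℝ),
    0 < r → DifferentiableOn ℂ b (ball 0 r) →
    (∃ B : ℝ, ∀ τ ∈ ball (0 : ℂ) r, ∀ α, ‖b τ α‖ ≤ B) →
    (∃ p : ℂ × ℂ, ∀ z, H98.Gf c b 0 (pt p z) = 0 → pd 2 (H98.Gf c b 0) (pt p z) ≠ 0) →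
    ∀ k ∈ KK d e, ∀ v : Q d e, Nk (H98.Gf c b 0) 0 k (ev v) < ∞ →
    ∫⁻ τ in ball (0 : ℂ) r, Nk (H98.Gf c b τ) 0 k (ev v) < ∞ →
    ∃ h : ℂ → Q d e, DifferentiableOn ℂ h (ball 0 r) ∧ h 0 = v ∧
      ∫⁻ τ in ball (0 : ℂ) r, Nk (H98.Gf c b τ) 0 k (ev (h τ)) ≤
        C * ENNReal.ofReal (r ^ 2) * Nk (H98.Gf c b 0) 0 k (ev v)

/-- the index of the constant term -/
def mon0 (d e : ℕ) (hd : 0 < d) : Mon d e := ⟨fun _ => 0, by simp, by simpa using hd⟩

open Classical in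
/-- the constant polynomial -/
noncomputable def cst (d e : ℕ) (hd : 0 < d) (s : ℂ) : Q d e :=
  fun α => if α = mon0 d e hd then s else 0

theorem ev_cst {d e : ℕ} (hd : 0 < d) (s : ℂ) (x : Fin 3 → ℂ) : ev (cst d e hd s) x = s := by
  classical
  unfold ev cst
  rw [Finset.sum_eq_single (mon0 d e hd)]
  · simp [mon0]
  · intro α _ hα
    simp [hα]
  · simp

theorem ev_sub' {d e : ℕ} (a b : Q d e) (x : Fin 3 → ℂ) : ev (a - b) x = ev a x - ev b x := by
  unfold ev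
  rw [← Finset.sum_sub_distrib]
  refine Finset.sum_congr rfl fun α _ => ?_
  rw [Pi.sub_apply, sub_mul]

variable {d : ℕ} {R δ : ℝ}

theorem Gf_sub (c : Fin 3 → ℂ) (a : ℂ → Q d (d - 1)) (hd : 0 < d) (σ : ℂ → ℂ) (τ : ℂ) :
    H98.Gf c (fun τ => a τ - cst d (d - 1) hd (σ τ)) τ =
      fun x => (∑ i, c i * x i ^ d + ev (a τ) x) - σ τ := by
  funext x
  unfold H98.Gf
  rw [ev_sub', ev_cst]
  ring

theorem Nk_Gf_sub (c : Fin 3 → ℂ) (a : ℂ → Q d (d - 1)) (hd : 0 < d) (σ : ℂ → ℂ) (τ : ℂ) (k : ℝ)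
    (h : (Fin 3 → ℂ) → ℂ) :
    Nk (H98.Gf c (fun τ => a τ - cst d (d - 1) hd (σ τ)) τ) 0 k h =
      Nk (fun x => ∑ i, c i * x i ^ d + ev (a τ) x) (σ τ) k h := by
  rw [Gf_sub]
  unfold Nk
  rw [H475.nu_sub_const]

theorem cst_diff {e : ℕ} (hd : 0 < d) {σ : ℂ → ℂ} {s : Set ℂ} (hσ : DifferentiableOn ℂ σ s) :
    DifferentiableOn ℂ (fun τ => cst d e hd (σ τ)) s := by
  classical
  rw [differentiableOn_pi]
  intro α
  unfold cst
  by_cases h : α = mon0 d e hd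
  · simpa [h] using hσ
  · simp [h]

theorem norm_cst_le {e : ℕ} (hd : 0 < d) (s : ℂ) (α : Mon d e) : ‖cst d e hd s α‖ ≤ ‖s‖ := by
  classical
  unfold cst
  split_ifs
  · exact le_rfl
  · simp

/-- there is a generic point over the surface `F_t = s`, `|s| < δ` -/
theorem exists_generic (F : PFam d R δ) {t : ℂ} (ht : t ∈ ball (0 : ℂ) R) {s : ℂ} (hs : ‖s‖ < δ) :
    ∃ p : ℂ × ℂ, ∀ z, F.f t (pt p z) = s → pd 2 (F.f t) (pt p z) ≠ 0 := by
  have hf : AnalyticOnNhd ℂ (F.f t) univ := by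
    have h1 : Differentiable ℂ (F.f t) := by
      unfold PFam.f ev
      fun_prop
    exact Vale.Agent.P268.analyticOnNhd_of_differentiableOn isOpen_univ h1.differentiableOn
  have hcrit : ({x | x ∈ (univ : Set (Fin 3 → ℂ)) ∧ F.f t x = s ∧ ∀ l, pd l (F.f t) x = 0} :
      Set (Fin 3 → ℂ)).Countable := by
    refine (countable_singleton (0 : Fin 3 → ℂ)).mono ?_
    rintro x ⟨-, hx, hx2⟩
    refine F.crit t ht x ?_ hx2
    change ‖F.f t x‖ < δ
    rw [hx]
    exact hs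
  have h := H373.ae_regular isOpen_univ hf s hcrit
  obtain ⟨p, hp⟩ := h.exists
  exact ⟨p, fun z hz => hp z (mem_univ _) hz⟩

/-- (OT4) from the family theorem -/
theorem ots_of_fam {C : ℝ≥0} (H : OTFam C) (F : PFam d R δ) (e : ℕ) : OTS F C e := by
  intro k hk t ht r hr v hN
  have hd0 : 0 < d := by have := F.hd; omega
  have key : ∀ (τ : ℂ) (h : (Fin 3 → ℂ) → ℂ),
      Nk (H98.Gf F.c (fun τ => F.a t - cst d (d - 1) hd0 τ) τ) 0 k h = Nk (F.f t) τ k h := by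
    intro τ h
    exact Nk_Gf_sub F.c (fun _ => F.a t) hd0 (fun τ => τ) τ k h
  have hG : ∀ τ, H98.Gf F.c (fun τ => F.a t - cst d (d - 1) hd0 τ) τ = fun x => F.f t x - τ := by
    intro τ
    exact Gf_sub F.c (fun _ => F.a t) hd0 (fun τ => τ) τ
  obtain ⟨p, hp⟩ := exists_generic F ht (s := 0) (by simpa using F.hδ)
  obtain ⟨h, h1, h2, h3⟩ := H d e F.hd F.c F.hc (fun τ => F.a t - cst d (d - 1) hd0 τ) r hr.1
    ((differentiableOn_const _).sub (cst_diff hd0 differentiableOn_id))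
    ⟨‖F.a t‖ + r, fun τ hτ α => by
      rw [mem_ball_zero_iff] at hτ
      calc ‖(F.a t - cst d (d - 1) hd0 τ) α‖ ≤ ‖F.a t α‖ + ‖cst d (d - 1) hd0 τ α‖ := by
            rw [Pi.sub_apply]
            exact norm_sub_le _ _
        _ ≤ ‖F.a t‖ + r := add_le_add (norm_le_pi_norm _ _) ((norm_cst_le hd0 _ _).trans hτ.le)⟩
    ⟨p, fun z hz => by
      rw [hG] at hz ⊢
      have hz' : F.f t (pt p z) = 0 := by simpa using hz
      have := hp z hz'
      unfold pd at this ⊢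
      rwa [fderiv_sub_const]⟩ k hk v (by rw [key]; exact hN) (by
        simp only [key]
        exact fin_s F ht r hk v)
  refine ⟨h, h1, h2, ?_⟩
  have h4 : ∀ τ, F.N k t τ (h τ) =
      Nk (H98.Gf F.c (fun τ => F.a t - cst d (d - 1) hd0 τ) τ) 0 k (ev (h τ)) := fun τ =>
    (key τ _).symm
  have h5 : F.N k t 0 v =
      Nk (H98.Gf F.c (fun τ => F.a t - cst d (d - 1) hd0 τ) 0) 0 k (ev v) := (key 0 _).symm
  simp only [h4]
  rw [h5]
  exact h3

/-- (P1) on relatively compact discs -/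
def OTP1c (F : PFam d R δ) (C : ℝ≥0) (e : ℕ) : Prop :=
  ∀ k ∈ KK d e, ∀ s : ℂ, s ≠ 0 → ‖s‖ < δ → ∀ t₀ : ℂ, ∀ r > 0, closedBall t₀ r ⊆ ball 0 R →
    ∀ v : Q d e, ∃ h : ℂ → Q d e, DifferentiableOn ℂ h (ball t₀ r) ∧ h t₀ = v ∧
      ∫⁻ t in ball t₀ r, F.N k t s (h t) ≤ C * ENNReal.ofReal (r ^ 2) * F.N k t₀ s v

theorem otp1c_of_fam {C : ℝ≥0} (hC : C ≠ 0) (H : OTFam C) (F : PFam d R δ) (e : ℕ) :
    OTP1c F C e := by
  intro k hk s hs0 hs t₀ r hr hb v
  have hd0 : 0 < d := by have := F.hd; omega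
  have ht₀ : t₀ ∈ ball (0 : ℂ) R := hb (mem_closedBall_self hr.le)
  by_cases hN : F.N k t₀ s v = ∞
  · refine ⟨fun _ => v, differentiableOn_const _, rfl, ?_⟩
    rw [hN, ENNReal.mul_top]
    · exact le_top
    · refine mul_ne_zero (by exact_mod_cast hC) ?_
      rw [Ne, ENNReal.ofReal_eq_zero, not_le]
      positivity
  have key : ∀ (τ : ℂ) (h : (Fin 3 → ℂ) → ℂ),
      Nk (H98.Gf F.c (fun τ => F.a (t₀ + τ) - cst d (d - 1) hd0 s) τ) 0 k h =
        Nk (F.f (t₀ + τ)) s k h := by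
    intro τ h
    exact Nk_Gf_sub F.c (fun τ => F.a (t₀ + τ)) hd0 (fun _ => s) τ k h
  have hG : ∀ τ, H98.Gf F.c (fun τ => F.a (t₀ + τ) - cst d (d - 1) hd0 s) τ =
      fun x => F.f (t₀ + τ) x - s := by
    intro τ
    exact Gf_sub F.c (fun τ => F.a (t₀ + τ)) hd0 (fun _ => s) τ
  obtain ⟨p, hp⟩ := exists_generic F ht₀ hs
  have hmap : MapsTo (fun τ : ℂ => t₀ + τ) (ball 0 r) (ball 0 R) := by
    intro τ hτ
    apply hb
    rw [mem_closedBall, dist_eq_norm, add_sub_cancel_left]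
    exact (mem_ball_zero_iff.1 hτ).le
  obtain ⟨B, hB⟩ : ∃ B : ℝ, ∀ t ∈ closedBall t₀ r, ‖F.a t‖ ≤ B :=
    (isCompact_closedBall t₀ r).exists_bound_of_continuousOn (F.holo.continuousOn.mono hb)
  obtain ⟨h, h1, h2, h3⟩ := H d e F.hd F.c F.hc
    (fun τ => F.a (t₀ + τ) - cst d (d - 1) hd0 s) r hr
    ((F.holo.comp (by fun_prop) hmap).sub (differentiableOn_const _))
    ⟨B + ‖s‖, fun τ hτ α => by
      calc ‖(F.a (t₀ + τ) - cst d (d - 1) hd0 s) α‖
          ≤ ‖F.a (t₀ + τ) α‖ + ‖cst d (d - 1) hd0 s α‖ := by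
            rw [Pi.sub_apply]
            exact norm_sub_le _ _
        _ ≤ B + ‖s‖ := add_le_add ((norm_le_pi_norm _ _).trans (hB _ (by
            rw [mem_closedBall, dist_eq_norm, add_sub_cancel_left]
            exact (mem_ball_zero_iff.1 hτ).le))) (norm_cst_le hd0 _ _)⟩
    ⟨p, fun z hz => by
      rw [hG] at hz ⊢
      have hz' : F.f t₀ (pt p z) = s := by
        have : F.f (t₀ + 0) (pt p z) - s = 0 := hz
        rw [add_zero] at this
        exact sub_eq_zero.1 this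
      have h6 := hp z hz'
      unfold pd at h6 ⊢
      rw [fderiv_sub_const, add_zero]
      exact h6⟩ k hk v (by
        rw [key, add_zero]
        exact lt_top_iff_ne_top.2 hN) (by
        simp only [key]
        have h5 := (measurePreserving_add_left (volume : Measure ℂ) t₀).setLIntegral_comp_preimage_emb
          (measurableEmbedding_addLeft t₀) (fun t => F.N k t s v) (ball t₀ r)
        have h6 : (fun τ : ℂ => t₀ + τ) ⁻¹' (ball t₀ r) = ball 0 r := by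
          ext τ
          simp [mem_ball, dist_eq_norm]
        rw [h6] at h5
        exact (le_of_eq h5).trans_lt (fin_p1 F hs0 hs hb hk v))
  refine ⟨fun t => h (t - t₀), ?_, by simpa using h2, ?_⟩
  · refine h1.comp (by fun_prop) fun t ht => ?_
    rw [mem_ball, dist_eq_norm] at ht
    rw [mem_ball_zero_iff]
    exact ht
  · have h4 : ∫⁻ t in ball t₀ r, F.N k t s (h (t - t₀)) =
        ∫⁻ τ in ball (0 : ℂ) r, F.N k (t₀ + τ) s (h τ) := by
      have h5 := (measurePreserving_add_left (volume : Measure ℂ) t₀).setLIntegral_comp_preimage_emb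
        (measurableEmbedding_addLeft t₀) (fun t => F.N k t s (h (t - t₀))) (ball t₀ r)
      rw [← h5]
      have h6 : (fun τ : ℂ => t₀ + τ) ⁻¹' (ball t₀ r) = ball 0 r := by
        ext τ
        simp [mem_ball, dist_eq_norm]
      rw [h6]
      refine lintegral_congr fun τ => ?_
      rw [add_sub_cancel_left]
    rw [h4]
    have h7 : ∀ τ, F.N k (t₀ + τ) s (h τ) =
        Nk (H98.Gf F.c (fun τ => F.a (t₀ + τ) - cst d (d - 1) hd0 s) τ) 0 k (ev (h τ)) := fun τ =>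
      (key τ _).symm
    have h8 : F.N k t₀ s v =
        Nk (H98.Gf F.c (fun τ => F.a (t₀ + τ) - cst d (d - 1) hd0 s) 0) 0 k (ev v) := by
      rw [key, add_zero]
      rfl
    simp only [h7]
    rw [h8]
    exact h3

end Vale.Agent.P298.H293
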