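import Mathlib

/-!
P298, block OT (helper293): definitions. `ℂ² × ℂ = ℂ³` with coordinates `x₀, x₁` (base) and `x₂`.

* `pol G x z` : value of the polynomial `G ∈ ℂ[x₀, x₁, x₂]` at `(x₀, x₁, z)`;
* `polX G x : ℂ[X]` : the polynomial `G(x₀, x₁, X)`;
* `rootInt G φ` : the root sum integral `∫_{ℂ²} ∑_{z : G(x, z) = 0} φ(x, z) / |∂₂ G(x, z)|²`;
* `NN k G h` : the `L^{2/k}` norm of `h` on `G = 0`;
* `QE d e` : polynomials of degree `≤ e` which are of degree `< d` in `x₂`.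
-/

open MeasureTheory
open scoped ENNReal NNReal

namespace Vale.Agent.P298.H293

/-- `G(x₀, x₁, X)` as polynomial in `X`. -/
noncomputable def polX (G : MvPolynomial (Fin 3) ℂ) (x : Fin 2 → ℂ) : Polynomial ℂ :=
  MvPolynomial.aeval (Fin.snoc (fun i => Polynomial.C (x i)) Polynomial.X :
    Fin 3 → Polynomial ℂ) G

/-- `G(x₀, x₁, z)`. -/
noncomputable def pol (G : MvPolynomial (Fin 3) ℂ) (x : Fin 2 → ℂ) (z : ℂ) : ℂ :=
  MvPolynomial.eval (Fin.snoc x z : Fin 3 → ℂ) G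

/-- The root sum integral. -/
noncomputable def rootInt (G : MvPolynomial (Fin 3) ℂ) (φ : (Fin 2 → ℂ) → ℂ → ℝ≥0∞) : ℝ≥0∞ :=
  ∫⁻ x : Fin 2 → ℂ, ∑ z ∈ (polX G x).roots.toFinset,
    φ x z / ‖pol (MvPolynomial.pderiv 2 G) x z‖ₑ ^ 2

/-- The `L^{2/k}` norm of `h` on the surface `G = 0`. -/
noncomputable def NN (k : ℝ) (G h : MvPolynomial (Fin 3) ℂ) : ℝ≥0∞ :=
  rootInt G fun x z => ‖pol h x z‖ₑ ^ (2 / k)

/-- Polynomials of degree `≤ e` which are of degree `< d` in the last variable. -/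
def QE (d e : ℕ) : Submodule ℂ (MvPolynomial (Fin 3) ℂ) where
  carrier := {h | ∀ α ∈ h.support, (α.sum fun _ n => n) ≤ e ∧ α 2 < d}
  zero_mem' := by simp
  add_mem' := by
    intro a b ha hb α hα
    rcases Finset.mem_union.1 (MvPolynomial.support_add hα) with h | h
    · exact ha α h
    · exact hb α h
  smul_mem' := by
    intro c a ha α hα
    exact ha α (MvPolynomial.support_smul hα)

/-- The family `G_τ`, `|τ| < δ`, consists of polynomials of degree `≤ d`, monic of degree `d` in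
the last variable, and the coefficients are bounded holomorphic functions of `τ`. -/
structure IsFam (d : ℕ) (δ : ℝ) (G : ℂ → MvPolynomial (Fin 3) ℂ) : Prop where
  pos : 0 < δ
  deg : ∀ τ ∈ Metric.ball (0 : ℂ) δ, ∀ α ∈ (G τ).support, (α.sum fun _ n => n) ≤ d
  monic : ∀ τ ∈ Metric.ball (0 : ℂ) δ, (G τ).coeff (Finsupp.single 2 d) = 1
  hol : ∀ α, DifferentiableOn ℂ (fun τ => (G τ).coeff α) (Metric.ball (0 : ℂ) δ)
  bdd : ∀ α, ∃ B : ℝ, ∀ τ ∈ Metric.ball (0 : ℂ) δ, ‖(G τ).coeff α‖ ≤ B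
  red : ∃ x : Fin 2 → ℂ, (polX (G 0) x).Separable

/-- The statement of the extension theorem for families (`OT-FAM`), with the constant `C₀`. -/
def OTFam (C₀ : ℝ≥0∞) : Prop :=
  ∀ (d e : ℕ) (k : ℝ), 1 ≤ k → k * ((d : ℝ) - 4) ≤ e → (e : ℝ) < k * ((d : ℝ) - 3) →
  ∀ (δ : ℝ) (G : ℂ → MvPolynomial (Fin 3) ℂ), IsFam d δ G → ∀ v ∈ QE d e,
  ∫⁻ τ in Metric.ball (0 : ℂ) δ, NN k (G τ) v < ⊤ →
  ∃ h : ℂ → MvPolynomial (Fin 3) ℂ, (∀ τ, h τ ∈ QE d e) ∧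
    (∀ α, DifferentiableOn ℂ (fun τ => (h τ).coeff α) (Metric.ball (0 : ℂ) δ)) ∧ h 0 = v ∧
    ∫⁻ τ in Metric.ball (0 : ℂ) δ, NN k (G τ) (h τ) ≤ C₀ * ENNReal.ofReal (δ ^ 2) * NN k (G 0) v

end Vale.Agent.P298.H293
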