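import Vale.Agent.P298.H412.Cont
import Vale.Agent.P298.H379.Basic

set_option linter.all false

/-! P298, block OT: the constant extension has finite norm. -/

namespace Vale.Agent.P298.H293

open Filter Topology Metric MeasureTheory Set Vale.Agent.P298 Vale.Agent.P298.H379
open scoped ENNReal NNReal

variable {d e : ℕ} {R δ : ℝ}

/-- The growth of the integrand. -/
theorem pow_ev_le {k : ℝ} (hk : k ∈ KK d e) (v : Q d e) : ∃ C g : ℝ, 0 ≤ C ∧
    g < 2 * ((d : ℝ) - 3) ∧ ∀ x, ‖ev v x‖ₑ ^ (2 / k) ≤ ENNReal.ofReal (C * (1 + ‖x‖) ^ g) := by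
  obtain ⟨hk1, -, -, hk2⟩ := hk
  have hk0 : 0 < k := by linarith
  refine ⟨(Fintype.card (Mon d e) * ‖v‖) ^ (2 / k), e * (2 / k), by positivity, ?_, fun x => ?_⟩
  · have : (e : ℝ) * (2 / k) ≤ 2 * ((d : ℝ) - 7 / 2) := by
      rw [mul_div_assoc', div_le_iff₀ hk0]
      linarith
    linarith
  · rw [← ofReal_norm, ENNReal.ofReal_rpow_of_nonneg (norm_nonneg _) (by positivity)]
    apply ENNReal.ofReal_le_ofReal
    have h1 := norm_ev_le v x
    calc ‖ev v x‖ ^ (2 / k) ≤ (Fintype.card (Mon d e) * ‖v‖ * (1 + ‖x‖) ^ e) ^ (2 / k) := by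
          gcongr
      _ = (Fintype.card (Mon d e) * ‖v‖) ^ (2 / k) * (1 + ‖x‖) ^ (e * (2 / k)) := by
          rw [Real.mul_rpow (by positivity) (by positivity), ← Real.rpow_natCast,
            ← Real.rpow_mul (by positivity)]

/-- the family of smooth surfaces `F_t = s` -/
noncomputable def sfam (F : PFam d R δ) {s : ℂ} (hs0 : s ≠ 0) (hs : ‖s‖ < δ) :
    H412.SFam d (ball 0 R) where
  c := F.c
  a := F.a
  s := s
  hd := F.hd
  hD := isOpen_ball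
  hc := F.hc
  holo := F.holo
  smooth := by
    intro t ht x hx
    by_contra hcon
    push Not at hcon
    have h1 : x = 0 := F.crit t ht x (by rw [hx]; exact hs) hcon
    have hd0 : d ≠ 0 := by have := F.hd; omega
    rw [h1, F.zero t ht] at hx
    apply hs0
    rw [← hx]
    simp [hd0]

/-- finiteness for the extension in the parameter `t` -/
theorem fin_p1 (F : PFam d R δ) {s : ℂ} (hs0 : s ≠ 0) (hs : ‖s‖ < δ) {t₀ : ℂ} {r : ℝ}
    (hb : closedBall t₀ r ⊆ ball 0 R) {k : ℝ} (hk : k ∈ KK d e) (v : Q d e) :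
    ∫⁻ t in ball t₀ r, F.N k t s v < ∞ := by
  obtain ⟨C, g, hC, hg, hCg⟩ := pow_ev_le hk v
  have hev : Continuous (fun x => ‖ev v x‖ₑ ^ (2 / k)) :=
    (ENNReal.continuous_rpow_const).comp (contDiff_ev (n := 0) v).continuous.enorm
  have hm : Measurable (fun x => ‖ev v x‖ₑ ^ (2 / k)) := hev.measurable
  have hc : ∀ (t : ℂ) (x : Fin 3 → ℂ),
      ContinuousAt (fun p : ℂ × (Fin 3 → ℂ) => ‖ev v p.2‖ₑ ^ (2 / k)) (t, x) := by
    intro t x
    have h2 : Continuous fun p : ℂ × (Fin 3 → ℂ) => ‖ev v p.2‖ₑ ^ (2 / k) :=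
      hev.comp continuous_snd
    exact h2.continuousAt
  have hN : ∀ t, nu ((sfam F hs0 hs).f t) (sfam F hs0 hs).s (fun x => ‖ev v x‖ₑ ^ (2 / k)) =
      F.N k t s v := fun t => rfl
  have key : ∀ t ∈ ball (0 : ℂ) R, ContinuousAt (fun t => F.N k t s v) t ∧ F.N k t s v < ∞ := by
    intro t ht
    have h1 := (sfam F hs0 hs).continuousAt_nu (P := ℂ) (τ := fun t => t) (y₀ := t)
      continuousAt_id ht (δ := fun _ x => ‖ev v x‖ₑ ^ (2 / k)) (C := C) (g := g)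
      (Eventually.of_forall fun _ => hm) (fun x => hc t x) hC hg
      (Eventually.of_forall fun _ => hCg)
    simp only [hN] at h1
    exact h1
  rcases lt_or_ge r 0 with hr | hr
  · rw [ball_eq_empty.2 hr.le]
    simp
  obtain ⟨t₁, ht₁, hmax⟩ := (isCompact_closedBall t₀ r).exists_isMaxOn
    ⟨t₀, mem_closedBall_self hr⟩ (f := fun t => F.N k t s v)
    fun t ht => (key t (hb ht)).1.continuousWithinAt
  calc ∫⁻ t in ball t₀ r, F.N k t s v ≤ ∫⁻ t in ball t₀ r, F.N k t₁ s v := by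
        refine setLIntegral_mono' measurableSet_ball fun t ht => ?_
        exact hmax (ball_subset_closedBall ht)
    _ < ∞ := by
        rw [setLIntegral_const]
        exact ENNReal.mul_lt_top (key t₁ (hb ht₁)).2 measure_ball_lt_top

/-! ### Extension in the parameter `s` -/

/-- lower bound of the derivative in the direction of the largest coordinate -/
theorem pd_lower (F : PFam d R δ) (t : ℂ) : ∃ A κ : ℝ, 1 ≤ A ∧ 0 < κ ∧ ∀ x : Fin 3 → ℂ,
    A ≤ ‖x‖ → ∀ k, ‖x k‖ = ‖x‖ → κ * (1 + ‖x‖) ^ (d - 1) ≤ ‖pd k (F.f t) x‖ := by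
  have hd := F.hd
  obtain ⟨i₀, -, hi₀⟩ := Finset.exists_min_image Finset.univ (fun i => ‖F.c i‖)
    Finset.univ_nonempty
  set m := ‖F.c i₀‖ with hm
  have hm0 : 0 < m := norm_pos_iff.2 (F.hc i₀)
  set M : ℝ := Fintype.card (Mon d (d - 1)) * (d - 1 : ℕ) * ‖F.a t‖ with hM
  have hM0 : 0 ≤ M := by positivity
  refine ⟨max 1 (M * 2 ^ d / m), m / 2 ^ d, le_max_left _ _, by positivity, fun x hx k hxk => ?_⟩
  have hx1 : 1 ≤ ‖x‖ := (le_max_left _ _).trans hx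
  have hx2 : M * 2 ^ d / m ≤ ‖x‖ := (le_max_right _ _).trans hx
  rw [F.pd_f]
  have h1 : ‖F.c k * (d * x k ^ (d - 1))‖ ≥ m * ‖x‖ ^ (d - 1) := by
    rw [norm_mul, norm_mul, norm_pow, Complex.norm_natCast, hxk]
    have h2 : (1 : ℝ) ≤ d := by exact_mod_cast (by omega : 1 ≤ d)
    have h3 : m ≤ ‖F.c k‖ := hi₀ k (Finset.mem_univ k)
    calc m * ‖x‖ ^ (d - 1) ≤ ‖F.c k‖ * (1 * ‖x‖ ^ (d - 1)) := by
          rw [one_mul]; gcongr
      _ ≤ ‖F.c k‖ * (d * ‖x‖ ^ (d - 1)) := by gcongr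
  have h2 : ‖pd k (ev (F.a t)) x‖ ≤ M * (1 + ‖x‖) ^ (d - 1 - 1) := norm_pd_ev_le k (F.a t) x
  have h3 : (1 + ‖x‖) ^ (d - 1) ≤ 2 ^ (d - 1) * ‖x‖ ^ (d - 1) := by
    rw [← mul_pow]
    gcongr
    linarith
  have h4 : (1 + ‖x‖) ^ (d - 1) = (1 + ‖x‖) ^ (d - 1 - 1) * (1 + ‖x‖) := by
    rw [← pow_succ]
    congr 1
    omega
  have h5 : (2 : ℝ) ^ d = 2 * 2 ^ (d - 1) := by
    rw [← pow_succ']
    congr 1
    omega
  -- `m |x|^(d-1) ≥ 2 (m / 2^d) (1+|x|)^(d-1)` and `M (1+|x|)^(d-2) ≤ (m/2^d) (1+|x|)^(d-1)`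
  have h6 : 2 * (m / 2 ^ d) * (1 + ‖x‖) ^ (d - 1) ≤ m * ‖x‖ ^ (d - 1) := by
    rw [h5]
    have h7 : 2 * (m / (2 * 2 ^ (d - 1))) * (1 + ‖x‖) ^ (d - 1) =
        m * ((1 + ‖x‖) ^ (d - 1) / 2 ^ (d - 1)) := by
      field_simp
    rw [h7]
    gcongr
    rw [div_le_iff₀ (by positivity)]
    linarith
  have h7 : M * (1 + ‖x‖) ^ (d - 1 - 1) ≤ m / 2 ^ d * (1 + ‖x‖) ^ (d - 1) := by
    rw [h4]
    have h8 : M ≤ m / 2 ^ d * (1 + ‖x‖) := by
      rw [div_le_iff₀ hm0] at hx2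
      rw [div_mul_eq_mul_div, le_div_iff₀ (by positivity)]
      nlinarith
    calc M * (1 + ‖x‖) ^ (d - 1 - 1) ≤ (m / 2 ^ d * (1 + ‖x‖)) * (1 + ‖x‖) ^ (d - 1 - 1) := by
          gcongr
      _ = _ := by ring
  have h8 := norm_sub_le (F.c k * (d * x k ^ (d - 1)) + pd k (ev (F.a t)) x)
    (pd k (ev (F.a t)) x)
  rw [add_sub_cancel_right] at h8
  linarith

end Vale.Agent.P298.H293
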