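import Vale.Agent.P298.H293.Fin

set_option linter.all false

/-! P298, block OT: the constant extension has finite norm (extension in the parameter `s`). -/

namespace Vale.Agent.P298.H293

open Filter Topology Metric MeasureTheory Set Vale.Agent.P298 Vale.Agent.P298.H379
open scoped ENNReal NNReal

variable {d e : ℕ} {R δ : ℝ}

/-- the family over the empty set (only used for its polynomials) -/
noncomputable def sfam0 (F : PFam d R δ) (s : ℂ) : H412.SFam d ∅ where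
  c := F.c
  a := F.a
  s := s
  hd := F.hd
  hD := isOpen_empty
  hc := F.hc
  holo := differentiableOn_empty
  smooth := fun t ht => absurd ht (notMem_empty t)

theorem analytic_f (F : PFam d R δ) (t : ℂ) : AnalyticOnNhd ℂ (F.f t) univ :=
  (sfam0 F 0).analyticOnNhd_f t

theorem fibre_card (F : PFam d R δ) (t s : ℂ) (k : Fin 3) (q : ℂ × ℂ) :
    ({x | x ∈ (univ : Set (Fin 3 → ℂ)) ∧ F.f t x = s ∧ x (H412.fi k) = q.1 ∧
      x (H412.se k) = q.2} : Set (Fin 3 → ℂ)).encard ≤ (d : ℕ) := by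
  classical
  set Z := ((sfam0 F s).Pq k t q).roots.toFinset with hZ
  have hsub : ({x | x ∈ (univ : Set (Fin 3 → ℂ)) ∧ F.f t x = s ∧ x (H412.fi k) = q.1 ∧
      x (H412.se k) = q.2} : Set (Fin 3 → ℂ)) ⊆ (H412.mq k q) '' (Z : Set ℂ) := by
    rintro x ⟨-, hx, h1, h2⟩
    have h3 := H412.mq_eq h1 h2
    refine ⟨x k, ?_, ?_⟩
    · rw [Finset.mem_coe, hZ, (sfam0 F s).mem_roots_Pq]
      show F.f t (H412.mq k q (x k)) = s
      rw [h3]
      exact hx
    · exact h3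
  refine (Set.encard_le_encard hsub).trans ((Set.encard_image_le _ _).trans ?_)
  rw [Set.encard_coe_eq_coe_finsetCard]
  exact_mod_cast (sfam0 F s).card_roots_le k t q

/-- **Tail**: the part of the surfaces `F_t = s` near infinity has mass bounded uniformly in `s`. -/
theorem tail_bound (F : PFam d R δ) (t : ℂ) {A κ : ℝ} (hκ : 0 < κ)
    (hA : ∀ x : Fin 3 → ℂ, A ≤ ‖x‖ → ∀ k, ‖x k‖ = ‖x‖ →
      κ * (1 + ‖x‖) ^ (d - 1) ≤ ‖pd k (F.f t) x‖) {C g : ℝ} (hC : 0 ≤ C)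
    (hg : g < 2 * ((d : ℝ) - 3)) {φ : (Fin 3 → ℂ) → ℝ≥0∞}
    (hφ : ∀ x, φ x ≤ ENNReal.ofReal (C * (1 + ‖x‖) ^ g)) :
    ∃ B : ℝ≥0∞, B ≠ ∞ ∧ ∀ s, nu (F.f t) s ({x | A ≤ ‖x‖}.indicator φ) ≤ B := by
  have hd := F.hd
  set β : ℝ := ((2 * (d - 1) : ℕ) : ℝ) - g with hβ
  have hβ4 : 4 < β := by
    have h4 : ((2 * (d - 1) : ℕ) : ℝ) = 2 * ((d : ℝ) - 1) := by
      push_cast [Nat.cast_sub (by omega : 1 ≤ d)]
      ring
    rw [hβ, h4]
    linarith
  set Φ : ℂ × ℂ → ℝ≥0∞ := fun q => ENNReal.ofReal (C / κ ^ 2) * ENNReal.ofReal ((1 + ‖q‖) ^ (-β))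
    with hΦ
  have hΦm : Measurable Φ := by
    refine Measurable.const_mul ?_ _
    refine ENNReal.measurable_ofReal.comp ?_
    exact (measurable_const.add measurable_norm).pow_const _
  have hΦfin : ∫⁻ q, Φ q ≠ ∞ := by
    rw [hΦ, lintegral_const_mul' _ _ (by finiteness)]
    exact ENNReal.mul_ne_top (by finiteness) (H412.finite_bound hβ4).ne
  set ψ : Fin 3 → (Fin 3 → ℂ) → ℝ≥0∞ := fun k =>
    {x : Fin 3 → ℂ | A ≤ ‖x‖ ∧ ‖x k‖ = ‖x‖}.indicator
      (fun x => ENNReal.ofReal (C * (1 + ‖x‖) ^ g)) with hψ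
  have hψm : ∀ k, Measurable (ψ k) := by
    intro k
    refine Measurable.indicator ?_ ?_
    · exact ENNReal.measurable_ofReal.comp
        (((measurable_const.add measurable_norm).pow_const _).const_mul _)
    · exact (measurableSet_le measurable_const measurable_norm).inter
        (measurableSet_eq_fun (measurable_pi_apply k).norm measurable_norm)
  refine ⟨∑ k : Fin 3, d * ∫⁻ q, Φ q, ?_, fun s => ?_⟩
  · refine (ENNReal.sum_lt_top.2 fun k _ => ?_).ne
    exact (ENNReal.mul_ne_top (by finiteness) hΦfin).lt_top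
  have h1 : ∀ k, nu (F.f t) s (ψ k) ≤ d * ∫⁻ q, Φ q := by
    intro k
    refine H373.nu_le_of_fibre isOpen_univ (analytic_f F t)
      (H373.analyticOnNhd_proj (H412.fi k)) (H373.analyticOnNhd_proj (H412.se k)) s hΦm
      (fun q => fibre_card F t s k q) (fun x hx => absurd (mem_univ x) hx) fun x _ hx _ => ?_
    by_cases hxk : A ≤ ‖x‖ ∧ ‖x k‖ = ‖x‖
    · have h2 : ψ k x = ENNReal.ofReal (C * (1 + ‖x‖) ^ g) :=
        indicator_of_mem (show x ∈ {x : Fin 3 → ℂ | A ≤ ‖x‖ ∧ ‖x k‖ = ‖x‖} from hxk) _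
      have h3 : ‖jac3 (F.f t) (fun y => y (H412.fi k)) (fun y => y (H412.se k)) x‖ₑ =
          ENNReal.ofReal ‖pd k (F.f t) x‖ := by
        rw [← ofReal_norm, H373.norm_jac3_proj (H412.fi_ne_se k) (H412.fi_ne k) (H412.se_ne k)]
      rw [h2, h3, hΦ]
      simp only
      rw [← ENNReal.ofReal_pow (norm_nonneg _), ← ENNReal.ofReal_mul (by positivity),
        ← ENNReal.ofReal_mul (by positivity)]
      apply ENNReal.ofReal_le_ofReal
      have h4 := hA x hxk.1 k hxk.2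
      have hx0 : 0 < 1 + ‖x‖ := by positivity
      have h5 : ‖((x (H412.fi k), x (H412.se k)) : ℂ × ℂ)‖ ≤ ‖x‖ :=
        max_le (norm_le_pi_norm x _) (norm_le_pi_norm x _)
      have h6 : (1 + ‖x‖) ^ (-β) ≤ (1 + ‖((x (H412.fi k), x (H412.se k)) : ℂ × ℂ)‖) ^ (-β) :=
        Real.rpow_le_rpow_of_nonpos (by positivity) (by linarith) (by linarith)
      have h7 : (κ * (1 + ‖x‖) ^ (d - 1)) ^ 2 ≤ ‖pd k (F.f t) x‖ ^ 2 := by gcongr
      have h8 : (1 + ‖x‖) ^ g = ((1 + ‖x‖) ^ (d - 1)) ^ 2 * (1 + ‖x‖) ^ (-β) := by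
        rw [← pow_mul, ← Real.rpow_natCast, ← Real.rpow_add hx0]
        congr 1
        rw [hβ, mul_comm (d - 1) 2]
        ring
      calc C * (1 + ‖x‖) ^ g = (κ * (1 + ‖x‖) ^ (d - 1)) ^ 2 * (C / κ ^ 2 * (1 + ‖x‖) ^ (-β)) := by
            rw [h8, mul_pow]
            field_simp
        _ ≤ ‖pd k (F.f t) x‖ ^ 2 * (C / κ ^ 2 *
              (1 + ‖((x (H412.fi k), x (H412.se k)) : ℂ × ℂ)‖) ^ (-β)) := by gcongr
    · have h2 : ψ k x = 0 :=
        indicator_of_notMem (show x ∉ {x : Fin 3 → ℂ | A ≤ ‖x‖ ∧ ‖x k‖ = ‖x‖} from hxk) _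
      rw [h2]
      exact zero_le
  calc nu (F.f t) s ({x | A ≤ ‖x‖}.indicator φ)
      ≤ nu (F.f t) s (fun x => ψ 0 x + (ψ 1 x + ψ 2 x)) := by
        refine H379.nu_mono fun x _ => ?_
        by_cases hx : A ≤ ‖x‖
        · rw [indicator_of_mem (by exact hx)]
          obtain ⟨k, hk⟩ : ∃ k, ‖x k‖ = ‖x‖ := by
            obtain ⟨k, -, hk⟩ := Finset.exists_max_image (Finset.univ : Finset (Fin 3))
              (fun k => ‖x k‖) Finset.univ_nonempty
            refine ⟨k, le_antisymm (norm_le_pi_norm x k) ?_⟩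
            rw [pi_norm_le_iff_of_nonneg (norm_nonneg _)]
            exact fun i => hk i (Finset.mem_univ i)
          have h2 : ψ k x = ENNReal.ofReal (C * (1 + ‖x‖) ^ g) :=
            indicator_of_mem (show x ∈ {x : Fin 3 → ℂ | A ≤ ‖x‖ ∧ ‖x k‖ = ‖x‖} from ⟨hx, hk⟩) _
          refine (hφ x).trans ?_
          rw [← h2]
          fin_cases k
          · exact le_self_add
          · exact le_self_add.trans le_add_self
          · exact le_add_self.trans le_add_self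
        · rw [indicator_of_notMem (by exact hx)]
          exact zero_le
    _ = nu (F.f t) s (ψ 0) + (nu (F.f t) s (ψ 1) + nu (F.f t) s (ψ 2)) := by
        rw [H373.nu_add isOpen_univ (analytic_f F t) s (hψm 0)
          (fun x hx => absurd (mem_univ x) hx),
          H373.nu_add isOpen_univ (analytic_f F t) s (hψm 1)
          (fun x hx => absurd (mem_univ x) hx)]
    _ ≤ (d * ∫⁻ q, Φ q) + ((d * ∫⁻ q, Φ q) + (d * ∫⁻ q, Φ q)) :=
        add_le_add (h1 0) (add_le_add (h1 1) (h1 2))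
    _ = ∑ k : Fin 3, d * ∫⁻ q, Φ q := by
        rw [Fin.sum_univ_three, add_assoc]

end Vale.Agent.P298.H293
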