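import Vale.Agent.P300.H435.L2.Apriori

/-!
P298, block OT (helper293): the twisted basic inequality (Ohsawa-Takegoshi) on finite étale
covers, on top of `Vale.Agent.P300.L2`.
-/

set_option linter.all false

open MeasureTheory Filter Topology
open scoped ENNReal NNReal ComplexConjugate

namespace Vale.Agent.P298.H293

open Vale.Agent.P300.L2 Vale.Agent.P300.L2.Sheets

variable {n N : ℕ} {S : Sheets n N}

theorem integrable_realT {f : (Fin n → ℂ) × ℕ → ℝ} (hf : S.CD 0 (fun q => (f q : ℂ)))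
    (hs : S.Supp (fun q => (f q : ℂ))) : Integrable f S.μ := by
  simpa using (integrable_of_supp hf hs).re

/-- The elementary inequality behind the twisted estimate. -/
theorem tw_alg (A B Z : ℂ) {e l : ℝ} (he : 0 < e) (hl : 0 < l) :
    ‖A - B - Z‖ ^ 2 * e ≤ 2 * ((e + l) * ‖A‖ ^ 2) + 2 * ((e + l) * ‖B‖ ^ 2) +
      (e + e ^ 2 / l) * ‖Z‖ ^ 2 := by
  have h1 : ‖A - B - Z‖ ≤ ‖A - B‖ + ‖Z‖ := norm_sub_le _ _
  have h2 : ‖A - B‖ ≤ ‖A‖ + ‖B‖ := norm_sub_le _ _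
  have h3 : ‖A - B‖ ^ 2 ≤ 2 * ‖A‖ ^ 2 + 2 * ‖B‖ ^ 2 := by
    have := pow_le_pow_left₀ (norm_nonneg _) h2 2
    linarith only [this, sq_nonneg (‖A‖ - ‖B‖)]
  have h4 : ‖A - B - Z‖ ^ 2 ≤ (‖A - B‖ + ‖Z‖) ^ 2 := pow_le_pow_left₀ (norm_nonneg _) h1 2
  have h5 : (‖A - B‖ + ‖Z‖) ^ 2 * e ≤ (e + l) * ‖A - B‖ ^ 2 + (e + e ^ 2 / l) * ‖Z‖ ^ 2 := by
    have h6 : (e + l) * ‖A - B‖ ^ 2 + (e + e ^ 2 / l) * ‖Z‖ ^ 2 - (‖A - B‖ + ‖Z‖) ^ 2 * e =
        (l * ‖A - B‖ - e * ‖Z‖) ^ 2 / l := by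
      field_simp
      ring
    have h7 : 0 ≤ (l * ‖A - B‖ - e * ‖Z‖) ^ 2 / l := by positivity
    linarith
  have h8 : (e + l) * ‖A - B‖ ^ 2 ≤ (e + l) * (2 * ‖A‖ ^ 2 + 2 * ‖B‖ ^ 2) :=
    mul_le_mul_of_nonneg_left h3 (by positivity)
  have h9 := mul_le_mul_of_nonneg_right h4 he.le
  linarith

/-- The twisted a priori estimate for test forms: `e = exp (-ζ)` and `l` are the two twisting
functions. -/
theorem tw_a_priori {Φ ψ χ ζ l : (Fin n → ℂ) × ℕ → ℝ} (hΦ : S.CD 2 (fun q => (Φ q : ℂ)))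
    (hψ : S.CD 2 (fun q => (ψ q : ℂ))) (hχ : S.CD 2 (fun q => (χ q : ℂ)))
    (hζ : S.CD 2 (fun q => (ζ q : ℂ))) (hl : S.CD 0 (fun q => (l q : ℂ)))
    (hl0 : ∀ q, 0 < l q) {K : ℝ} (hK : ∀ q ∈ S.M, Real.exp (-ζ q) + l q ≤ K * Real.exp (-ζ q))
    (hχψ : ∀ q ∈ S.M, ∀ β : Fin n → ℂ,
      2 * K * ((∑ j, ‖S.D j (fun q => (ψ q : ℂ)) q‖ ^ 2) * ∑ j, ‖β j‖ ^ 2) ≤ S.levi χ β q)
    (hlevi : ∀ q ∈ S.M, ∀ β : Fin n → ℂ, 0 ≤ S.levi Φ β q)
    {ξ : Fin n → (Fin n → ℂ) × ℕ → ℂ} (hξ : ∀ j, S.CD 0 (ξ j))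
    (hL : ∀ q ∈ S.M, ∀ β : Fin n → ℂ, ‖∑ j, ξ j q * β j‖ ^ 2 +
      (Real.exp (-ζ q) + Real.exp (-ζ q) ^ 2 / l q) *
        ‖∑ j, S.D j (fun q => (ζ q : ℂ)) q * β j‖ ^ 2 ≤ Real.exp (-ζ q) * S.levi ζ β q)
    (β : Fin n → (Fin n → ℂ) × ℕ → ℂ) (hβ : ∀ j, S.IsTest (β j)) :
    ∫ q, ‖∑ j, ξ j q * β j q‖ ^ 2 * Real.exp (-(Φ q + χ q)) ∂S.μ ≤
      2 * ∫ q, (Real.exp (-ζ q) + l q) * (‖∑ j, (S.D j (β j) q -
        S.D j (fun q => ((Φ q + χ q - ψ q : ℝ) : ℂ)) q * β j q)‖ ^ 2 *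
        Real.exp (-(Φ q + χ q))) ∂S.μ +
      (1 / 2) * ∑ j, ∑ k, ∫ q, ‖S.Db j (β k) q - S.Db k (β j) q‖ ^ 2 *
        Real.exp (-(Φ q + χ q + ζ q)) ∂S.μ := by
  have hlam : S.CD 2 (fun q => ((Φ q + χ q : ℝ) : ℂ)) := by
    simpa only [Complex.ofReal_add] using hΦ.add hχ
  have hlam0 : S.CD 0 (fun q => ((Φ q + χ q : ℝ) : ℂ)) := hlam.mono (by norm_num)
  have hlamz : S.CD 2 (fun q => ((Φ q + χ q + ζ q : ℝ) : ℂ)) := by
    refine (hlam.add hζ).congr fun q _ => ?_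
    push_cast
    ring
  have hlamz0 : S.CD 0 (fun q => ((Φ q + χ q + ζ q : ℝ) : ℂ)) := hlamz.mono (by norm_num)
  have hlamz1 : S.CD 1 (fun q => ((Φ q + χ q + ζ q : ℝ) : ℂ)) := hlamz.mono (by norm_num)
  have hψ1 : S.CD 1 (fun q => (ψ q : ℂ)) := hψ.mono (by norm_num)
  have hζ1 : S.CD 1 (fun q => (ζ q : ℂ)) := hζ.mono (by norm_num)
  have hζ0 : S.CD 0 (fun q => (ζ q : ℂ)) := hζ.mono (by norm_num)
  have hlam1 : S.CD 1 (fun q => ((Φ q + χ q : ℝ) : ℂ)) := hlam.mono (by norm_num)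
  have hgam1 : S.CD 1 (fun q => ((Φ q + χ q - ψ q : ℝ) : ℂ)) := by
    simpa only [Complex.ofReal_sub] using hb_CD_sub hlam1 hψ1
  have hβ0 : ∀ j, S.CD 0 (β j) := fun j => (hβ j).1.mono (by norm_num)
  have hβ1 : ∀ j, S.CD 1 (β j) := fun j => (hβ j).1.mono (by norm_num)
  have hez : S.CD 0 (fun q => ((Real.exp (-ζ q) : ℝ) : ℂ)) := hb_CD_exp hζ0
  have hb := basic_ineq (fun q => Φ q + χ q + ζ q) hlamz β hβ
  have iΦ := hp_int_levi hΦ hlamz0 hβ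
  have iχ := hp_int_levi hχ hlamz0 hβ
  have iζ := hp_int_levi hζ hlamz0 hβ
  -- real valued continuous functions with compact support are integrable
  have hmulr : ∀ {u v : (Fin n → ℂ) × ℕ → ℝ}, S.CD 0 (fun q => (u q : ℂ)) →
      S.CD 0 (fun q => (v q : ℂ)) → S.CD 0 (fun q => ((u q * v q : ℝ) : ℂ)) := by
    intro u v hu hv
    refine (hu.mul hv).congr fun q _ => ?_
    push_cast
    rfl
  have hsqr : ∀ {X : (Fin n → ℂ) × ℕ → ℂ}, S.CD 0 X →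
      S.CD 0 (fun q => ((‖X q‖ ^ 2 : ℝ) : ℂ)) := by
    intro X hX
    refine (hX.mul hX.conj).congr fun q _ => ?_
    rw [Complex.mul_conj, Complex.normSq_eq_norm_sq]
  have hsupp2 : ∀ {X : (Fin n → ℂ) × ℕ → ℂ} {Y : (Fin n → ℂ) × ℕ → ℂ}, S.Supp X →
      (∀ q, X q = 0 → Y q = 0) → S.Supp Y := by
    rintro X Y ⟨C, h1, h2, h3⟩ h
    exact ⟨C, h1, h2, fun q hq => h q (h3 q hq)⟩
  have hE0 : S.CD 0 (fun q => ((Real.exp (-(Φ q + χ q)) : ℝ) : ℂ)) := hb_CD_exp hlam0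
  have hEz : S.CD 0 (fun q => ((Real.exp (-(Φ q + χ q + ζ q)) : ℝ) : ℂ)) := hb_CD_exp hlamz0
  -- the test functions
  set A : (Fin n → ℂ) × ℕ → ℂ := fun q => ∑ j, (S.D j (β j) q -
      S.D j (fun q => ((Φ q + χ q - ψ q : ℝ) : ℂ)) q * β j q) with hA
  set B : (Fin n → ℂ) × ℕ → ℂ := fun q => ∑ j, S.D j (fun q => (ψ q : ℂ)) q * β j q with hB
  set Z : (Fin n → ℂ) × ℕ → ℂ := fun q => ∑ j, S.D j (fun q => (ζ q : ℂ)) q * β j q with hZ
  set T : (Fin n → ℂ) × ℕ → ℂ := fun q => ∑ j, (S.D j (β j) q -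
      S.D j (fun q => ((Φ q + χ q + ζ q : ℝ) : ℂ)) q * β j q) with hT
  set X : (Fin n → ℂ) × ℕ → ℂ := fun q => ∑ j, ξ j q * β j q with hX
  have hAc : S.CD 0 A := CD.sum Finset.univ (X := fun j q => S.D j (β j) q -
        S.D j (fun q => ((Φ q + χ q - ψ q : ℝ) : ℂ)) q * β j q) fun j _ =>
        hb_CD_sub (CD.D (m := 0) (hβ1 j)) ((CD.D (m := 0) hgam1).mul (hβ0 j))
  have hAs : S.Supp A := hb_supp_sum Finset.univ (X := fun j q => S.D j (β j) q -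
        S.D j (fun q => ((Φ q + χ q - ψ q : ℝ) : ℂ)) q * β j q) fun j _ =>
        hb_supp_sub (hb_supp_D (hβ j).2) (hb_supp_mul' _ (hβ j).2)
  have hTc : S.CD 0 T := CD.sum Finset.univ (X := fun j q => S.D j (β j) q -
        S.D j (fun q => ((Φ q + χ q + ζ q : ℝ) : ℂ)) q * β j q) fun j _ =>
        hb_CD_sub (CD.D (m := 0) (hβ1 j)) ((CD.D (m := 0) hlamz1).mul (hβ0 j))
  have hTs : S.Supp T := hb_supp_sum Finset.univ (X := fun j q => S.D j (β j) q -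
        S.D j (fun q => ((Φ q + χ q + ζ q : ℝ) : ℂ)) q * β j q) fun j _ =>
        hb_supp_sub (hb_supp_D (hβ j).2) (hb_supp_mul' _ (hβ j).2)
  have hBc : S.CD 0 B := CD.sum Finset.univ
    (X := fun j q => S.D j (fun q => (ψ q : ℂ)) q * β j q) fun j _ =>
      (CD.D (m := 0) hψ1).mul (hβ0 j)
  have hZc : S.CD 0 Z := CD.sum Finset.univ
    (X := fun j q => S.D j (fun q => (ζ q : ℂ)) q * β j q) fun j _ =>
      (CD.D (m := 0) hζ1).mul (hβ0 j)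
  have hXc : S.CD 0 X := CD.sum Finset.univ
    (X := fun j q => ξ j q * β j q) fun j _ => (hξ j).mul (hβ0 j)
  have hXs : S.Supp X := hb_supp_sum Finset.univ (X := fun j q => ξ j q * β j q) fun j _ =>
    hb_supp_mul' _ (hβ j).2
  have iT : Integrable (fun q => ‖T q‖ ^ 2 * Real.exp (-(Φ q + χ q + ζ q))) S.μ :=
    hp_int_sq hlamz0 hTc hTs
  have iX : Integrable (fun q => ‖X q‖ ^ 2 * Real.exp (-(Φ q + χ q))) S.μ :=
    hp_int_sq hlam0 hXc hXs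
  have iA : Integrable (fun q => (Real.exp (-ζ q) + l q) *
      (‖A q‖ ^ 2 * Real.exp (-(Φ q + χ q)))) S.μ := by
    have h1 : S.CD 0 (fun q => (((Real.exp (-ζ q) + l q) *
        (‖A q‖ ^ 2 * Real.exp (-(Φ q + χ q))) : ℝ) : ℂ)) := by
      refine hmulr ?_ (hmulr (hsqr hAc) hE0)
      refine (hez.add hl).congr fun q _ => ?_
      push_cast
      rfl
    refine integrable_realT h1 (hsupp2 hAs fun q hq => ?_)
    rw [hq]
    simp
  -- the Levi form of the sum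
  have e1 : ∫ q, S.levi (fun q => Φ q + χ q + ζ q) (fun j => β j q) q *
        Real.exp (-(Φ q + χ q + ζ q)) ∂S.μ =
      ∫ q, (S.levi Φ (fun j => β j q) q * Real.exp (-(Φ q + χ q + ζ q)) +
        S.levi χ (fun j => β j q) q * Real.exp (-(Φ q + χ q + ζ q)) +
        S.levi ζ (fun j => β j q) q * Real.exp (-(Φ q + χ q + ζ q))) ∂S.μ := by
    refine integral_congr_ae (ae_mem_M.mono fun q hq => ?_)
    beta_reduce
    rw [levi_add (Φ := fun q => Φ q + χ q) hlam hζ hq, levi_add hΦ hχ hq]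
    ring
  -- the pointwise estimate
  have e2 : ∫ q, ‖X q‖ ^ 2 * Real.exp (-(Φ q + χ q)) ∂S.μ ≤
      ∫ q, (2 * ((Real.exp (-ζ q) + l q) * (‖A q‖ ^ 2 * Real.exp (-(Φ q + χ q)))) +
        (S.levi Φ (fun j => β j q) q * Real.exp (-(Φ q + χ q + ζ q)) +
        S.levi χ (fun j => β j q) q * Real.exp (-(Φ q + χ q + ζ q)) +
        S.levi ζ (fun j => β j q) q * Real.exp (-(Φ q + χ q + ζ q))) -
        ‖T q‖ ^ 2 * Real.exp (-(Φ q + χ q + ζ q))) ∂S.μ := by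
    refine integral_mono_ae iX
      (((iA.const_mul 2).add ((iΦ.add iχ).add iζ)).sub iT) (ae_mem_M.mono fun q hq => ?_)
    change ‖X q‖ ^ 2 * Real.exp (-(Φ q + χ q)) ≤
      2 * ((Real.exp (-ζ q) + l q) * (‖A q‖ ^ 2 * Real.exp (-(Φ q + χ q)))) +
        (S.levi Φ (fun j => β j q) q * Real.exp (-(Φ q + χ q + ζ q)) +
        S.levi χ (fun j => β j q) q * Real.exp (-(Φ q + χ q + ζ q)) +
        S.levi ζ (fun j => β j q) q * Real.exp (-(Φ q + χ q + ζ q))) -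
        ‖T q‖ ^ 2 * Real.exp (-(Φ q + χ q + ζ q))
    have hd : ∀ j, S.D j (fun q => ((Φ q + χ q + ζ q : ℝ) : ℂ)) q =
        S.D j (fun q => ((Φ q + χ q - ψ q : ℝ) : ℂ)) q + S.D j (fun q => (ψ q : ℂ)) q +
          S.D j (fun q => (ζ q : ℂ)) q := by
      intro j
      have h := D_add (j := j) hgam1 hψ1 hq
      have h' := D_add (j := j) (hgam1.add hψ1) hζ1 hq
      rw [← h, ← h']
      congr 1
      funext q
      push_cast
      ring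
    have hTe : T q = A q - B q - Z q := by
      simp only [hT, hA, hB, hZ]
      rw [← Finset.sum_sub_distrib, ← Finset.sum_sub_distrib]
      refine Finset.sum_congr rfl fun j _ => ?_
      rw [hd j]
      ring
    have hBle : ‖B q‖ ^ 2 ≤ (∑ j, ‖S.D j (fun q => (ψ q : ℂ)) q‖ ^ 2) * ∑ j, ‖β j q‖ ^ 2 := by
      have h3 : ‖B q‖ ≤ ∑ j, ‖S.D j (fun q => (ψ q : ℂ)) q‖ * ‖β j q‖ := by
        simp only [hB]
        exact (norm_sum_le _ _).trans (Finset.sum_le_sum fun j _ => (norm_mul _ _).le)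
      calc ‖B q‖ ^ 2 ≤ (∑ j, ‖S.D j (fun q => (ψ q : ℂ)) q‖ * ‖β j q‖) ^ 2 :=
            pow_le_pow_left₀ (norm_nonneg _) h3 2
        _ ≤ _ := Finset.sum_mul_sq_le_sq_mul_sq _ _ _
    have h4 := hχψ q hq fun j => β j q
    have h5 := hL q hq fun j => β j q
    have h6 := hlevi q hq fun j => β j q
    have h7 := hK q hq
    have hez0 : 0 < Real.exp (-ζ q) := Real.exp_pos _
    have h8 := tw_alg (A q) (B q) (Z q) hez0 (hl0 q)
    rw [← hTe] at h8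
    have h9 : Real.exp (-(Φ q + χ q + ζ q)) = Real.exp (-ζ q) * Real.exp (-(Φ q + χ q)) := by
      rw [← Real.exp_add]
      congr 1
      ring
    rw [h9]
    set e := Real.exp (-ζ q) with he
    set w := Real.exp (-(Φ q + χ q)) with hw
    have hw0 : 0 < w := Real.exp_pos _
    have h10 : 2 * ((e + l q) * ‖B q‖ ^ 2) ≤ e * S.levi χ (fun j => β j q) q := by
      have h11 : 2 * ((e + l q) * ‖B q‖ ^ 2) ≤ 2 * ((K * e) * ‖B q‖ ^ 2) := by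
        have := mul_le_mul_of_nonneg_right h7 (sq_nonneg ‖B q‖)
        linarith
      have hK0 : 0 ≤ K := by
        by_contra hneg
        push Not at hneg
        have : K * e < 0 := mul_neg_of_neg_of_pos hneg hez0
        linarith [hl0 q]
      have h12 : 2 * K * ‖B q‖ ^ 2 ≤ S.levi χ (fun j => β j q) q := by
        refine le_trans ?_ h4
        exact mul_le_mul_of_nonneg_left hBle (by positivity)
      have h13 := mul_le_mul_of_nonneg_left h12 hez0.le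
      linarith
    have h14 : ‖X q‖ ^ 2 + (e + e ^ 2 / l q) * ‖Z q‖ ^ 2 ≤ e * S.levi ζ (fun j => β j q) q := h5
    have h15 : ‖X q‖ ^ 2 ≤ 2 * ((e + l q) * ‖A q‖ ^ 2) + e * S.levi Φ (fun j => β j q) q +
        e * S.levi χ (fun j => β j q) q + e * S.levi ζ (fun j => β j q) q - ‖T q‖ ^ 2 * e := by
      have := mul_nonneg hez0.le h6
      linarith
    have h16 := mul_le_mul_of_nonneg_right h15 hw0.le
    linarith only [h16]
  have iS : Integrable (fun q => S.levi Φ (fun j => β j q) q * Real.exp (-(Φ q + χ q + ζ q)) +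
        S.levi χ (fun j => β j q) q * Real.exp (-(Φ q + χ q + ζ q)) +
        S.levi ζ (fun j => β j q) q * Real.exp (-(Φ q + χ q + ζ q))) S.μ :=
    (iΦ.add iχ).add iζ
  have iB : Integrable (fun q => 2 * ((Real.exp (-ζ q) + l q) *
      (‖A q‖ ^ 2 * Real.exp (-(Φ q + χ q)))) +
      (S.levi Φ (fun j => β j q) q * Real.exp (-(Φ q + χ q + ζ q)) +
        S.levi χ (fun j => β j q) q * Real.exp (-(Φ q + χ q + ζ q)) +
        S.levi ζ (fun j => β j q) q * Real.exp (-(Φ q + χ q + ζ q)))) S.μ :=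
    (iA.const_mul 2).add iS
  rw [integral_sub iB iT, integral_add (iA.const_mul 2) iS, integral_const_mul] at e2
  rw [e1] at hb
  change ∫ q, ‖X q‖ ^ 2 * Real.exp (-(Φ q + χ q)) ∂S.μ ≤ 2 * ∫ q, (Real.exp (-ζ q) + l q) *
    (‖A q‖ ^ 2 * Real.exp (-(Φ q + χ q))) ∂S.μ + _
  change _ ≤ ∫ q, ‖T q‖ ^ 2 * Real.exp (-(Φ q + χ q + ζ q)) ∂S.μ + _ at hb
  linarith

end Vale.Agent.P298.H293
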