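import Vale.Agent.P298.H293.TwA
import Vale.Agent.P300.H435.L2.Pair

set_option linter.all false

open MeasureTheory Filter Topology
open scoped ENNReal NNReal ComplexConjugate

namespace Vale.Agent.P298.H293

open Vale.Agent.P300.L2 Vale.Agent.P300.L2.Sheets

variable {n N : ℕ} {S : Sheets n N}

/-- The estimate for `(α, β)` when `β` is closed and in the domain of the adjoint. -/
theorem pairing_tw {Φ ψ χ W : (Fin n → ℂ) × ℕ → ℝ} (hΦ : S.CD 2 (fun q => (Φ q : ℂ)))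
    (hψ : S.CD 2 (fun q => (ψ q : ℂ))) (hχ : S.CD 2 (fun q => (χ q : ℂ)))
    (hW : S.CD 0 (fun q => (W q : ℂ))) (hW0 : ∀ q, 0 ≤ W q) {W1 : ℝ}
    (hW1 : ∀ q ∈ S.M, W q ≤ W1) {ξ : Fin n → (Fin n → ℂ) × ℕ → ℂ} (hξ : ∀ j, S.CD 0 (ξ j))
    {K1 : ℝ} (hK1 : 0 ≤ K1)
    (hAP : ∀ β : Fin n → (Fin n → ℂ) × ℕ → ℂ, (∀ j, S.IsTest (β j)) →
      ∫ q, ‖∑ j, ξ j q * β j q‖ ^ 2 * Real.exp (-(Φ q + χ q)) ∂S.μ ≤
      2 * ∫ q, W q * (‖∑ j, (S.D j (β j) q -
        S.D j (fun q => ((Φ q + χ q - ψ q : ℝ) : ℂ)) q * β j q)‖ ^ 2 *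
        Real.exp (-(Φ q + χ q))) ∂S.μ +
      K1 * ∑ j, ∑ k, ∫ q, ‖S.Db j (β k) q - S.Db k (β j) q‖ ^ 2 *
        Real.exp (-(Φ q + χ q)) ∂S.μ)
    (hχψ' : ∀ q ∈ S.M, 2 * ψ q ≤ χ q)
    {p : (Fin n → ℂ) → ℝ} (hcut : S.HasCut p ψ)
    (α : Fin n → (Fin n → ℂ) × ℕ → ℂ) (hα : ∀ j, S.CD 1 (α j))
    (hα2 : ∀ j, ∫⁻ q, ENNReal.ofReal (‖α j q‖ ^ 2 * Real.exp (-(Φ q + χ q - ψ q))) ∂S.μ < ⊤)
    (a : (Fin n → ℂ) × ℕ → ℝ) (ha : ∀ q, 0 ≤ a q) (ham : AEMeasurable a S.μ)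
    (hab : ∀ q ∈ S.M, ∀ β : Fin n → ℂ,
      ‖∑ j, α j q * conj (β j)‖ ^ 2 ≤ a q * ‖∑ j, ξ j q * β j‖ ^ 2)
    {A : ℝ} (hA0 : 0 ≤ A)
    (hA : ∫⁻ q, ENNReal.ofReal (a q * Real.exp (-Φ q)) ∂S.μ ≤ ENNReal.ofReal A)
    (b : Fin n → (Fin n → ℂ) × ℕ → ℂ) (g : (Fin n → ℂ) × ℕ → ℂ)
    (hb : ∀ j, AEStronglyMeasurable (b j) S.μ) (hg : AEStronglyMeasurable g S.μ)
    (hb2 : ∀ j, ∫⁻ q, ENNReal.ofReal (‖b j q‖ ^ 2 * Real.exp (-(Φ q + χ q - ψ q))) ∂S.μ < ⊤)
    (hg2 : ∫⁻ q, ENNReal.ofReal (‖g q‖ ^ 2 * Real.exp (-(Φ q + χ q))) ∂S.μ < ⊤)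
    (hgw : ∀ κ, S.IsTest κ →
      ∫ q, (∑ j, b j q * S.D j κ q) * Real.exp (-(Φ q + χ q - ψ q)) ∂S.μ =
        - ∫ q, g q * κ q * Real.exp (-(Φ q + χ q - ψ q)) ∂S.μ)
    (hsw : ∀ κ, S.IsTest κ → ∀ j k, ∫ q, (b k q * S.Db j κ q - b j q * S.Db k κ q) ∂S.μ = 0) :
    ‖∫ q, (∑ j, α j q * conj (b j q)) * Real.exp (-(Φ q + χ q - ψ q)) ∂S.μ‖ ^ 2 ≤
      2 * A * ∫ q, W q * (‖g q‖ ^ 2 * Real.exp (-(Φ q + χ q))) ∂S.μ := by
  -- regularity of the weights
  have hlam : S.CD 2 (fun q => ((Φ q + χ q : ℝ) : ℂ)) :=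
    (hΦ.add hχ).congr fun q _ => by push_cast; ring
  have hφ2 : S.CD 2 (fun q => ((Φ q + χ q - ψ q : ℝ) : ℂ)) :=
    (hlam.add ((CD.const (-1)).mul hψ)).congr fun q _ => by push_cast; ring
  have hw2 : S.CD 2 (fun q => ((Real.exp (-(Φ q + χ q - ψ q)) : ℝ) : ℂ)) :=
    CD.comp_real (φ := fun x => Real.exp (-x)) (by fun_prop) hφ2
  have hw3 : S.CD 2 (fun q => ((Real.exp (-(Φ q + χ q)) : ℝ) : ℂ)) :=
    CD.comp_real (φ := fun x => Real.exp (-x)) (by fun_prop) hlam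
  have hw1 : S.CD 2 (fun q => ((Real.exp (-Φ q) : ℝ) : ℂ)) :=
    CD.comp_real (φ := fun x => Real.exp (-x)) (by fun_prop) hΦ
  have hw2m := HPair_meas_real (hw2.mono (Nat.zero_le 2))
  have hw3m := HPair_meas_real (hw3.mono (Nat.zero_le 2))
  have hw1m := HPair_meas_real (hw1.mono (Nat.zero_le 2))
  have hαm : ∀ j, AEStronglyMeasurable (α j) S.μ := fun j =>
    aestronglyMeasurable_of_CD ((hα j).mono (Nat.zero_le 1))
  -- integrability
  have hαi : ∀ j, Integrable (fun q => ‖α j q‖ ^ 2 * Real.exp (-(Φ q + χ q - ψ q))) S.μ :=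
    fun j => HPair_integrable (((hαm j).norm.pow 2).mul hw2m) (fun q => by positivity) (hα2 j)
  have hbi : ∀ j, Integrable (fun q => ‖b j q‖ ^ 2 * Real.exp (-(Φ q + χ q - ψ q))) S.μ :=
    fun j => HPair_integrable (((hb j).norm.pow 2).mul hw2m) (fun q => by positivity) (hb2 j)
  have hgi : Integrable (fun q => ‖g q‖ ^ 2 * Real.exp (-(Φ q + χ q))) S.μ :=
    HPair_integrable ((hg.norm.pow 2).mul hw3m) (fun q => by positivity) hg2
  have hai : Integrable (fun q => a q * Real.exp (-Φ q)) S.μ :=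
    HPair_integrable (ham.aestronglyMeasurable.mul hw1m)
      (fun q => mul_nonneg (ha q) (Real.exp_pos _).le) (lt_of_le_of_lt hA ENNReal.ofReal_lt_top)
  have hAint : ∫ q, a q * Real.exp (-Φ q) ∂S.μ ≤ A :=
    HPair_integral_le (ham.aestronglyMeasurable.mul hw1m)
      (fun q => mul_nonneg (ha q) (Real.exp_pos _).le) hA0 hA
  have hWm : AEStronglyMeasurable W S.μ := HPair_meas_real hW
  have hWi : ∀ {f : (Fin n → ℂ) × ℕ → ℝ}, Integrable f S.μ →
      Integrable (fun q => W q * f q) S.μ := by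
    intro f hf
    refine Integrable.mono' (hf.norm.const_mul W1) (hWm.mul hf.1) ?_
    filter_upwards [S.ae_mem_M] with q hq
    rw [norm_mul, Real.norm_of_nonneg (hW0 q)]
    exact mul_le_mul_of_nonneg_right (hW1 q hq) (norm_nonneg _)
  have hWle : ∀ {f : (Fin n → ℂ) × ℕ → ℝ}, Integrable f S.μ → (∀ q, 0 ≤ f q) →
      ∫ q, W q * f q ∂S.μ ≤ W1 * ∫ q, f q ∂S.μ := by
    intro f hf h0
    rw [← integral_const_mul]
    refine integral_mono_ae (hWi hf) (hf.const_mul _) ?_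
    filter_upwards [S.ae_mem_M] with q hq
    exact mul_le_mul_of_nonneg_right (hW1 q hq) (h0 q)
  set G : ℝ := ∫ q, W q * (‖g q‖ ^ 2 * Real.exp (-(Φ q + χ q))) ∂S.μ with hG
  have hG0 : 0 ≤ G := integral_nonneg fun q => mul_nonneg (hW0 q) (by positivity)
  have hW10 : 0 ≤ |W1| := abs_nonneg _
  have hαb : ∀ j, Integrable (fun q => α j q * conj (b j q) *
      (Real.exp (-(Φ q + χ q - ψ q)) : ℂ)) S.μ := fun j =>
    HPair_mul_integrable (hαm j) (hb j) hw2m (fun q => (Real.exp_pos _).le) (hαi j) (hbi j)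
  set K : ℝ := ∑ j, (∫ q, ‖α j q‖ ^ 2 * Real.exp (-(Φ q + χ q - ψ q)) ∂S.μ + 1) / 2 with hK
  -- the estimate with a parameter
  have main : ∀ t : ℝ, 0 < t → ∀ δ : ℝ, 0 < δ → δ ≤ 1 →
      2 * ‖∫ q, (∑ j, α j q * conj (b j q)) * Real.exp (-(Φ q + χ q - ψ q)) ∂S.μ‖ ≤
        t * A + t⁻¹ * (2 * ((1 + δ) * G + (1 + δ⁻¹) * (|W1| * δ ^ 2)) + K1 * (n * (n * δ ^ 2))) +
          2 * (δ * K) := by
    intro t ht δ hδ hδ1
    obtain ⟨β, hβ, hβb, hβg, hβs⟩ := exists_test_approx (lam := fun q => Φ q + χ q) hlam hψ hcut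
      b g hb hg hb2 hg2 hgw hsw (ε := ENNReal.ofReal (δ ^ 2))
      (by rw [Ne, ENNReal.ofReal_eq_zero, not_le]; positivity)
    have hβ0 : ∀ j, S.CD 0 (β j) := fun j => (hβ j).1.mono (Nat.zero_le 2)
    have hβm : ∀ j, AEStronglyMeasurable (β j) S.μ := fun j => aestronglyMeasurable_of_CD (hβ0 j)
    -- the function `T`
    set T : (Fin n → ℂ) × ℕ → ℂ := fun q => ∑ j, (S.D j (β j) q -
      S.D j (fun q => ((Φ q + χ q - ψ q : ℝ) : ℂ)) q * β j q) with hT
    have hTc : S.CD 0 T := by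
      have h1 : S.CD 0 (fun q => ∑ j, (S.D j (β j) q + (-1) *
          (S.D j (fun q => ((Φ q + χ q - ψ q : ℝ) : ℂ)) q * β j q))) := by
        refine CD.sum _ fun j _ => CD.add ?_ (CD.mul (CD.const _) (CD.mul ?_ (hβ0 j)))
        · exact (CD.D (m := 1) (hβ j).1).mono (Nat.zero_le 1)
        · exact (CD.D (m := 1) hφ2).mono (Nat.zero_le 1)
      refine h1.congr fun q _ => ?_
      simp only [hT]
      refine Finset.sum_congr rfl fun j _ => ?_
      ring
    have hTs : S.Supp T := by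
      have h1 : S.Supp (fun q => ∑ j, (S.D j (β j) q -
          S.D j (fun q => ((Φ q + χ q - ψ q : ℝ) : ℂ)) q * β j q)) := by
        refine HPair_supp_sum _ fun j _ => ?_
        obtain ⟨C, h1, h2, h3⟩ := (hβ j).2
        refine ⟨C, h1, h2, fun q hq => ?_⟩
        beta_reduce
        rw [HPair_D_zero j h1.isClosed h3 q hq, h3 q hq, mul_zero, sub_zero]
      exact h1
    have hTm : AEStronglyMeasurable T S.μ := aestronglyMeasurable_of_CD hTc
    have hTi : Integrable (fun q => ‖T q‖ ^ 2 * Real.exp (-(Φ q + χ q))) S.μ :=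
      HPair_integrable_sq hTc hTs (hw3.mono (Nat.zero_le 2))
    -- `T` is close to `g`
    have hTg : Integrable (fun q => ‖T q - g q‖ ^ 2 * Real.exp (-(Φ q + χ q))) S.μ :=
      HPair_integrable (((hTm.sub hg).norm.pow 2).mul hw3m) (fun q => by positivity)
        (lt_of_le_of_lt hβg ENNReal.ofReal_lt_top)
    have hTg' : ∫ q, ‖T q - g q‖ ^ 2 * Real.exp (-(Φ q + χ q)) ∂S.μ ≤ δ ^ 2 :=
      HPair_integral_le (((hTm.sub hg).norm.pow 2).mul hw3m)
        (fun q => mul_nonneg (sq_nonneg _) (Real.exp_pos _).le) (sq_nonneg δ) hβg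
    have hTb : ∫ q, W q * (‖T q‖ ^ 2 * Real.exp (-(Φ q + χ q))) ∂S.μ ≤
        (1 + δ) * G + (1 + δ⁻¹) * (|W1| * δ ^ 2) := by
      have h1 : ∫ q, W q * (‖T q‖ ^ 2 * Real.exp (-(Φ q + χ q))) ∂S.μ ≤
          ∫ q, ((1 + δ) * (W q * (‖g q‖ ^ 2 * Real.exp (-(Φ q + χ q)))) +
            (1 + δ⁻¹) * (W q * (‖T q - g q‖ ^ 2 * Real.exp (-(Φ q + χ q))))) ∂S.μ := by
        refine integral_mono (hWi hTi) (((hWi hgi).const_mul _).add ((hWi hTg).const_mul _))
          fun q => ?_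
        have h2 : ‖T q‖ ≤ ‖g q‖ + ‖T q - g q‖ := by
          have := norm_add_le (g q) (T q - g q)
          rwa [add_sub_cancel] at this
        have h3 : ‖T q‖ ^ 2 ≤ (‖g q‖ + ‖T q - g q‖) ^ 2 := pow_le_pow_left₀ (norm_nonneg _) h2 2
        have h4 : (‖g q‖ + ‖T q - g q‖) ^ 2 ≤
            (1 + δ) * ‖g q‖ ^ 2 + (1 + δ⁻¹) * ‖T q - g q‖ ^ 2 := by
          have h5 : (1 + δ) * ‖g q‖ ^ 2 + (1 + δ⁻¹) * ‖T q - g q‖ ^ 2 -
              (‖g q‖ + ‖T q - g q‖) ^ 2 = (δ * ‖g q‖ - ‖T q - g q‖) ^ 2 / δ := by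
            field_simp
            ring
          have h6 : 0 ≤ (δ * ‖g q‖ - ‖T q - g q‖) ^ 2 / δ := by (clear * - hδ; positivity)
          linarith
        have h7 := mul_le_mul_of_nonneg_left (mul_le_mul_of_nonneg_right (h3.trans h4)
          (Real.exp_pos (-(Φ q + χ q))).le) (hW0 q)
        simp only
        linarith
      rw [integral_add ((hWi hgi).const_mul _) ((hWi hTg).const_mul _), integral_const_mul,
        integral_const_mul, ← hG] at h1
      refine h1.trans ?_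
      have h2 : ∫ q, W q * (‖T q - g q‖ ^ 2 * Real.exp (-(Φ q + χ q))) ∂S.μ ≤ |W1| * δ ^ 2 := by
        refine (hWle hTg fun q => by positivity).trans ?_
        refine (mul_le_mul_of_nonneg_right (le_abs_self W1)
          (integral_nonneg fun q => by positivity)).trans ?_
        exact mul_le_mul_of_nonneg_left hTg' hW10
      have h3 : 0 ≤ 1 + δ⁻¹ := by positivity
      have := mul_le_mul_of_nonneg_left h2 h3
      linarith
    -- the closedness defect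
    have hSm : ∀ j k, AEStronglyMeasurable (fun q => S.Db j (β k) q - S.Db k (β j) q) S.μ :=
      fun j k => (aestronglyMeasurable_of_CD ((CD.Db (m := 1) (hβ k).1).mono (Nat.zero_le 1))).sub
        (aestronglyMeasurable_of_CD ((CD.Db (m := 1) (hβ j).1).mono (Nat.zero_le 1)))
    have hSb : ∀ j k, ∫ q, ‖S.Db j (β k) q - S.Db k (β j) q‖ ^ 2 *
        Real.exp (-(Φ q + χ q)) ∂S.μ ≤ δ ^ 2 := fun j k =>
      HPair_integral_le (((hSm j k).norm.pow 2).mul hw3m)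
        (fun q => mul_nonneg (sq_nonneg _) (Real.exp_pos _).le) (sq_nonneg δ) (hβs j k)
    have hSsum : ∑ j, ∑ k, ∫ q, ‖S.Db j (β k) q - S.Db k (β j) q‖ ^ 2 *
        Real.exp (-(Φ q + χ q)) ∂S.μ ≤ n * (n * δ ^ 2) := by
      calc ∑ j, ∑ k, ∫ q, ‖S.Db j (β k) q - S.Db k (β j) q‖ ^ 2 *
            Real.exp (-(Φ q + χ q)) ∂S.μ ≤ ∑ _j : Fin n, ∑ _k : Fin n, δ ^ 2 :=
            Finset.sum_le_sum fun j _ => Finset.sum_le_sum fun k _ => hSb j k
        _ = n * (n * δ ^ 2) := by simp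
    -- the Levi form
    have hap := hAP β hβ
    have hLb : ∫ q, ‖∑ j, ξ j q * β j q‖ ^ 2 * Real.exp (-(Φ q + χ q)) ∂S.μ ≤
        2 * ((1 + δ) * G + (1 + δ⁻¹) * (|W1| * δ ^ 2)) + K1 * (n * (n * δ ^ 2)) := by
      refine hap.trans ?_
      have h1 := mul_le_mul_of_nonneg_left hSsum hK1
      linarith [hTb]
    have hLi : Integrable (fun q => ‖∑ j, ξ j q * β j q‖ ^ 2 * Real.exp (-(Φ q + χ q)))
        S.μ := by
      have h1 : S.CD 0 (fun q => ∑ j, ξ j q * β j q) :=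
        CD.sum Finset.univ (X := fun j q => ξ j q * β j q) fun j _ => (hξ j).mul (hβ0 j)
      have h2 : S.Supp (fun q => ∑ j, ξ j q * β j q) :=
        HPair_supp_sum _ (X := fun j q => ξ j q * β j q) fun j _ => HPair_supp_mul' (hβ j).2
      exact HPair_integrable_sq h1 h2 (hw3.mono (Nat.zero_le 2))
    -- the pairing with the test form
    have hαβ : ∀ j, Integrable (fun q => α j q * conj (β j q) *
        (Real.exp (-(Φ q + χ q - ψ q)) : ℂ)) S.μ := fun j =>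
      integrable_of_supp ((((hα j).mono (Nat.zero_le 1)).mul (hβ0 j).conj).mul
        (hw2.mono (Nat.zero_le 2))) (HPair_supp_mul (HPair_supp_mul' (HPair_supp_conj (hβ j).2)))
    have hsumb : ∫ q, (∑ j, α j q * conj (b j q)) * Real.exp (-(Φ q + χ q - ψ q)) ∂S.μ =
        ∑ j, ∫ q, α j q * conj (b j q) * (Real.exp (-(Φ q + χ q - ψ q)) : ℂ) ∂S.μ := by
      rw [← integral_finsetSum _ fun j _ => hαb j]
      refine integral_congr_ae (ae_of_all _ fun q => ?_)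
      simp only [Finset.sum_mul]
    have hsumβ : ∫ q, (∑ j, α j q * conj (β j q)) * Real.exp (-(Φ q + χ q - ψ q)) ∂S.μ =
        ∑ j, ∫ q, α j q * conj (β j q) * (Real.exp (-(Φ q + χ q - ψ q)) : ℂ) ∂S.μ := by
      rw [← integral_finsetSum _ fun j _ => hαβ j]
      refine integral_congr_ae (ae_of_all _ fun q => ?_)
      simp only [Finset.sum_mul]
    have hβpair : 2 * ‖∫ q, (∑ j, α j q * conj (β j q)) *
        Real.exp (-(Φ q + χ q - ψ q)) ∂S.μ‖ ≤
        t * A + t⁻¹ * (2 * ((1 + δ) * G + (1 + δ⁻¹) * (|W1| * δ ^ 2)) +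
          K1 * (n * (n * δ ^ 2))) := by
      have h1 : ‖∫ q, (∑ j, α j q * conj (β j q)) * Real.exp (-(Φ q + χ q - ψ q)) ∂S.μ‖ ≤
          ∫ q, (1 / 2 * (t * (a q * Real.exp (-Φ q)) + t⁻¹ *
            (‖∑ j, ξ j q * β j q‖ ^ 2 * Real.exp (-(Φ q + χ q))))) ∂S.μ := by
        refine norm_integral_le_of_norm_le
          (((hai.const_mul t).add (hLi.const_mul t⁻¹)).const_mul (1 / 2)) ?_
        filter_upwards [S.ae_mem_M] with q hq
        rw [norm_mul, Complex.norm_real, Real.norm_of_nonneg (Real.exp_pos _).le]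
        have h2 := hab q hq (fun j => β j q)
        have h3 : 0 ≤ ‖∑ j, ξ j q * β j q‖ ^ 2 := sq_nonneg _
        set L := ‖∑ j, ξ j q * β j q‖ ^ 2 with hL
        set x := ‖∑ j, α j q * conj (β j q)‖ with hx
        have hx0 : 0 ≤ x := norm_nonneg _
        have h4 : Real.exp (-(Φ q + χ q - ψ q)) ≤
            Real.exp (-Φ q / 2) * Real.exp (-(Φ q + χ q) / 2) := by
          rw [← Real.exp_add]
          apply Real.exp_le_exp.2
          have := hχψ' q hq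
          linarith only [this]
        have h5 : 0 ≤ Real.exp (-Φ q / 2) * Real.exp (-(Φ q + χ q) / 2) := by positivity
        have h6 : Real.exp (-Φ q) = Real.exp (-Φ q / 2) ^ 2 := by
          rw [← Real.exp_nat_mul]
          congr 1
          push_cast
          ring
        have h7 : Real.exp (-(Φ q + χ q)) = Real.exp (-(Φ q + χ q) / 2) ^ 2 := by
          rw [← Real.exp_nat_mul]
          congr 1
          push_cast
          ring
        refine (mul_le_mul_of_nonneg_left h4 hx0).trans ?_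
        rw [h6, h7]
        set E := Real.exp (-Φ q / 2) with hE
        set F := Real.exp (-(Φ q + χ q) / 2) with hF
        have hE0 : 0 < E := Real.exp_pos _
        have hF0 : 0 < F := Real.exp_pos _
        -- `x E F ≤ (t a E² + t⁻¹ L F²) / 2`
        have h8 : x ≤ Real.sqrt (a q) * Real.sqrt L := by
          rw [← Real.sqrt_mul (ha q)]
          exact Real.le_sqrt_of_sq_le h2
        have h9 : x * (E * F) ≤ Real.sqrt (a q) * Real.sqrt L * (E * F) :=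
          mul_le_mul_of_nonneg_right h8 h5
        have h10 : a q = Real.sqrt (a q) ^ 2 := (Real.sq_sqrt (ha q)).symm
        have h11 : L = Real.sqrt L ^ 2 := (Real.sq_sqrt h3).symm
        set sa := Real.sqrt (a q) with hsa
        set sL := Real.sqrt L with hsL
        rw [h10, h11]
        refine h9.trans ?_
        have h12 : 1 / 2 * (t * (sa ^ 2 * E ^ 2) + t⁻¹ * (sL ^ 2 * F ^ 2)) -
            sa * sL * (E * F) = (t * (sa * E) - sL * F) ^ 2 / (2 * t) := by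
          field_simp
          ring
        have h13 : 0 ≤ (t * (sa * E) - sL * F) ^ 2 / (2 * t) := by (clear * - ht; positivity)
        linarith only [h13, h12]
      rw [integral_const_mul, integral_add (hai.const_mul t) (hLi.const_mul t⁻¹),
        integral_const_mul, integral_const_mul] at h1
      have h2 := mul_le_mul_of_nonneg_left hAint ht.le
      have h3 := mul_le_mul_of_nonneg_left hLb (inv_pos.2 ht).le
      linarith only [h3, h2, h1]
    -- the difference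
    have hdiff : ‖∫ q, (∑ j, α j q * conj (b j q)) * Real.exp (-(Φ q + χ q - ψ q)) ∂S.μ -
        ∫ q, (∑ j, α j q * conj (β j q)) * Real.exp (-(Φ q + χ q - ψ q)) ∂S.μ‖ ≤ δ * K := by
      rw [hsumb, hsumβ, ← Finset.sum_sub_distrib, hK, Finset.mul_sum]
      refine norm_sum_le_of_le _ fun j _ => ?_
      rw [← integral_sub (hαb j) (hαβ j)]
      have hbβm : AEStronglyMeasurable (fun q => β j q - b j q) S.μ := (hβm j).sub (hb j)
      have hbβi : Integrable (fun q => ‖β j q - b j q‖ ^ 2 *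
          Real.exp (-(Φ q + χ q - ψ q))) S.μ :=
        HPair_integrable ((hbβm.norm.pow 2).mul hw2m) (fun q => by (clear * -; positivity))
          (lt_of_le_of_lt (hβb j) ENNReal.ofReal_lt_top)
      have hbβ2 : ∫ q, ‖β j q - b j q‖ ^ 2 * Real.exp (-(Φ q + χ q - ψ q)) ∂S.μ ≤ δ ^ 2 :=
        HPair_integral_le ((hbβm.norm.pow 2).mul hw2m)
          (fun q => mul_nonneg (sq_nonneg _) (Real.exp_pos _).le) (sq_nonneg δ) (hβb j)
      have h1 : ‖∫ q, (α j q * conj (b j q) * (Real.exp (-(Φ q + χ q - ψ q)) : ℂ) -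
          α j q * conj (β j q) * (Real.exp (-(Φ q + χ q - ψ q)) : ℂ)) ∂S.μ‖ ≤
          ∫ q, (1 / 2 * (δ * (‖α j q‖ ^ 2 * Real.exp (-(Φ q + χ q - ψ q))) +
            δ⁻¹ * (‖β j q - b j q‖ ^ 2 * Real.exp (-(Φ q + χ q - ψ q))))) ∂S.μ := by
        refine norm_integral_le_of_norm_le
          ((((hαi j).const_mul δ).add (hbβi.const_mul δ⁻¹)).const_mul (1 / 2))
          (ae_of_all _ fun q => ?_)
        have h2 : α j q * conj (b j q) * (Real.exp (-(Φ q + χ q - ψ q)) : ℂ) -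
            α j q * conj (β j q) * (Real.exp (-(Φ q + χ q - ψ q)) : ℂ) =
            -(α j q * conj (β j q - b j q) * (Real.exp (-(Φ q + χ q - ψ q)) : ℂ)) := by
          rw [map_sub]
          ring
        rw [h2, norm_neg, norm_mul, norm_mul, RCLike.norm_conj, Complex.norm_real,
          Real.norm_of_nonneg (Real.exp_pos _).le]
        set x := ‖α j q‖ with hx
        set y := ‖β j q - b j q‖ with hy
        set E := Real.exp (-(Φ q + χ q - ψ q)) with hE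
        have hE0 : 0 < E := Real.exp_pos _
        have h3 : 1 / 2 * (δ * (x ^ 2 * E) + δ⁻¹ * (y ^ 2 * E)) - x * y * E =
            (δ * x - y) ^ 2 * E / (2 * δ) := by
          field_simp
          ring
        have h4 : 0 ≤ (δ * x - y) ^ 2 * E / (2 * δ) := by (clear * - hδ; positivity)
        linarith only [h4, h3]
      refine h1.trans ?_
      rw [integral_const_mul, integral_add ((hαi j).const_mul δ) (hbβi.const_mul δ⁻¹),
        integral_const_mul, integral_const_mul]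
      have h5 : δ⁻¹ * ∫ q, ‖β j q - b j q‖ ^ 2 * Real.exp (-(Φ q + χ q - ψ q)) ∂S.μ ≤ δ := by
        calc δ⁻¹ * ∫ q, ‖β j q - b j q‖ ^ 2 * Real.exp (-(Φ q + χ q - ψ q)) ∂S.μ
            ≤ δ⁻¹ * δ ^ 2 := mul_le_mul_of_nonneg_left hbβ2 (inv_pos.2 hδ).le
          _ = δ := by field_simp
      linarith only [h5]
    -- conclusion
    have h9 : ‖∫ q, (∑ j, α j q * conj (b j q)) * Real.exp (-(Φ q + χ q - ψ q)) ∂S.μ‖ ≤
        ‖∫ q, (∑ j, α j q * conj (β j q)) * Real.exp (-(Φ q + χ q - ψ q)) ∂S.μ‖ + δ * K := by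
      have := norm_le_norm_add_norm_sub'
        (∫ q, (∑ j, α j q * conj (b j q)) * Real.exp (-(Φ q + χ q - ψ q)) ∂S.μ)
        (∫ q, (∑ j, α j q * conj (β j q)) * Real.exp (-(Φ q + χ q - ψ q)) ∂S.μ)
      linarith only [this, hdiff]
    linarith only [h9, hβpair]
  -- limit `δ → 0`
  have main2 : ∀ t : ℝ, 0 < t →
      2 * ‖∫ q, (∑ j, α j q * conj (b j q)) * Real.exp (-(Φ q + χ q - ψ q)) ∂S.μ‖ ≤
        t * A + t⁻¹ * (2 * G) := by
    intro t ht
    have hlim : Tendsto (fun δ : ℝ => t * A + t⁻¹ * (2 * ((1 + δ) * G + |W1| * (δ ^ 2 + δ)) +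
        K1 * (n * (n * δ ^ 2))) + 2 * (δ * K)) (𝓝[>] 0) (𝓝 (t * A + t⁻¹ * (2 * G))) := by
      have h1 : Continuous (fun δ : ℝ => t * A + t⁻¹ * (2 * ((1 + δ) * G + |W1| * (δ ^ 2 + δ)) +
        K1 * (n * (n * δ ^ 2))) + 2 * (δ * K)) := by fun_prop
      have h2 := h1.tendsto 0
      simp only [ne_eq, OfNat.ofNat_ne_zero, not_false_eq_true, zero_pow, mul_zero, add_zero,
        zero_mul, one_mul] at h2
      exact h2.mono_left nhdsWithin_le_nhds
    refine ge_of_tendsto hlim ?_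
    filter_upwards [Ioc_mem_nhdsGT (zero_lt_one : (0 : ℝ) < 1)] with δ hδ
    have h1 := main t ht δ hδ.1 hδ.2
    have h2 : (1 + δ⁻¹) * (|W1| * δ ^ 2) = |W1| * (δ ^ 2 + δ) := by
      have := hδ.1.ne'
      field_simp
    rw [h2] at h1
    exact h1
  have h := HPair_discrim (norm_nonneg _) hA0 main2 (mul_nonneg (by norm_num) hG0)
  linarith


end Vale.Agent.P298.H293
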