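import Vale.Agent.P298.H293.TwC
import Vale.Agent.P300.H435.L2.Hor
import Vale.Agent.P300.H435.L2.LeviLog

set_option linter.all false

open MeasureTheory Filter Topology
open scoped ENNReal NNReal ComplexConjugate

namespace Vale.Agent.P298.H293

open Vale.Agent.P300.L2 Vale.Agent.P300.L2.Sheets

variable {n N : ℕ} {S : Sheets n N}

/-- The twisted estimate of the pairing. -/
theorem main_tw {p : (Fin n → ℂ) → ℝ} {C : ℝ} {k0 : ℕ} (hp : Exh S.V p C k0)
    {Φ ζ l : (Fin n → ℂ) × ℕ → ℝ} (hΦ : S.CD 2 (fun q => (Φ q : ℂ)))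
    (hΦb : ∃ c : ℝ, ∀ q ∈ S.M, c ≤ Φ q)
    (hlevi : ∀ q ∈ S.M, ∀ β : Fin n → ℂ, 0 ≤ S.levi Φ β q)
    (hζ : S.CD 2 (fun q => (ζ q : ℂ))) (hl : S.CD 0 (fun q => (l q : ℂ)))
    (hl0 : ∀ q, 0 < l q) {K : ℝ} (hK : ∀ q ∈ S.M, Real.exp (-ζ q) + l q ≤ K * Real.exp (-ζ q))
    (hK1 : 1 ≤ K) {W1 : ℝ} (hW1 : ∀ q ∈ S.M, Real.exp (-ζ q) + l q ≤ W1)
    {ξ : Fin n → (Fin n → ℂ) × ℕ → ℂ} (hξ : ∀ j, S.CD 0 (ξ j))
    (hL : ∀ q ∈ S.M, ∀ β : Fin n → ℂ, ‖∑ j, ξ j q * β j‖ ^ 2 +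
      (Real.exp (-ζ q) + Real.exp (-ζ q) ^ 2 / l q) *
        ‖∑ j, S.D j (fun q => (ζ q : ℂ)) q * β j‖ ^ 2 ≤ Real.exp (-ζ q) * S.levi ζ β q)
    (α : Fin n → (Fin n → ℂ) × ℕ → ℂ) (hα : ∀ j, S.CD 1 (α j))
    (hcl : ∀ q ∈ S.M, ∀ j k, S.Db j (α k) q = S.Db k (α j) q)
    (hαb : ∃ (c : ℝ) (k : ℕ), ∀ q ∈ S.M, ∀ j, ‖α j q‖ ≤ c * (1 + p q.1) ^ k)
    (a : (Fin n → ℂ) × ℕ → ℝ) (ha : ∀ q, 0 ≤ a q) (ham : AEMeasurable a S.μ)
    (hab : ∀ q ∈ S.M, ∀ β : Fin n → ℂ,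
      ‖∑ j, α j q * conj (β j)‖ ^ 2 ≤ a q * ‖∑ j, ξ j q * β j‖ ^ 2)
    {A : ℝ} (hA0 : 0 ≤ A)
    (hA : ∫⁻ q, ENNReal.ofReal (a q * Real.exp (-Φ q)) ∂S.μ ≤ ENNReal.ofReal A)
    (γ : Fin n → (Fin n → ℂ) × ℕ → ℂ) (hγ : ∀ j, S.IsTest (γ j)) :
    ‖∫ q, ∑ j, α j q * conj (γ j q) ∂S.μ‖ ^ 2 ≤
      2 * A * ∫ q, (Real.exp (-ζ q) + l q) * (‖S.dvH γ q‖ ^ 2 * Real.exp (Φ q)) ∂S.μ := by
  have hW : S.CD 0 (fun q => ((Real.exp (-ζ q) + l q : ℝ) : ℂ)) := by
    refine ((hb_CD_exp (hζ.mono (by norm_num))).add hl).congr fun q _ => ?_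
    push_cast
    rfl
  have hW0 : ∀ q, 0 ≤ Real.exp (-ζ q) + l q := fun q => (add_pos (Real.exp_pos _) (hl0 q)).le
  have hWm : AEStronglyMeasurable (fun q => Real.exp (-ζ q) + l q) S.μ := HPair_meas_real hW
  have hWi : ∀ {f : (Fin n → ℂ) × ℕ → ℝ}, Integrable f S.μ →
      Integrable (fun q => (Real.exp (-ζ q) + l q) * f q) S.μ := by
    intro f hf
    refine Integrable.mono' (hf.norm.const_mul W1) (hWm.mul hf.1) ?_
    filter_upwards [S.ae_mem_M] with q hq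
    rw [norm_mul, Real.norm_of_nonneg (hW0 q)]
    exact mul_le_mul_of_nonneg_right (hW1 q hq) (norm_nonneg _)
  obtain ⟨k1, C2, hC2, hw⟩ := exists_weights hp
  set τ : ℕ → ℝ := fun m => 1 / ((m : ℝ) + 1) with hτdef
  have hτ0 : ∀ m, 0 < τ m := fun m => by positivity
  have hτ1 : ∀ m, τ m ≤ 1 := fun m => by
    rw [hτdef]
    simp only
    rw [div_le_one (by positivity)]
    have : (0 : ℝ) ≤ m := m.cast_nonneg
    linarith
  have hτlim : Tendsto τ atTop (𝓝 0) := tendsto_one_div_add_atTop_nhds_zero_nat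
  have hK0 : 0 < K := by linarith
  have key : ∀ m, ‖∫ q, ∑ j, α j q * conj (γ j q) ∂S.μ‖ ^ 2 ≤
      2 * A * ∫ q, (Real.exp (-ζ q) + l q) * (‖S.dvH γ q‖ ^ 2 *
        Real.exp (Φ q + K * C2 * τ m * (1 + p q.1) ^ (k0 + 1) -
        2 * (k1 * Real.log (1 + τ m * p q.1)))) ∂S.μ := by
    intro m
    obtain ⟨h1, h2, h3⟩ := hw (τ m) (hτ0 m) (hτ1 m)
    have hχ := χH_CD (S := S) hp (K * C2 * τ m)
    have hψ := ψH_CD hp k1 (hτ0 m)
    have hp0 : ∀ z ∈ S.V, 0 ≤ p z := fun z hz => le_trans (by positivity) (hp.norm_sq_le z hz)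
    have hχψ : ∀ q ∈ S.M, ∀ β : Fin n → ℂ,
        2 * K * ((∑ j, ‖S.D j (fun q => ((k1 * Real.log (1 + τ m * p q.1) : ℝ) : ℂ)) q‖ ^ 2) *
          ∑ j, ‖β j‖ ^ 2) ≤ S.levi (fun q => K * C2 * τ m * (1 + p q.1) ^ (k0 + 1)) β q := by
      intro q hq β
      have h4 := h2 q hq β
      have h5 := levi_lin (χH_CD (S := S) hp (C2 * τ m)) (χH_CD (S := S) hp (C2 * τ m)) K 0 hq β
      have h6 : (fun q : (Fin n → ℂ) × ℕ => K * C2 * τ m * (1 + p q.1) ^ (k0 + 1)) =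
          fun q : (Fin n → ℂ) × ℕ => K * (C2 * τ m * (1 + p q.1) ^ (k0 + 1)) +
            0 * (C2 * τ m * (1 + p q.1) ^ (k0 + 1)) := by
        funext q
        ring
      rw [h6, h5]
      have := mul_le_mul_of_nonneg_left h4 hK0.le
      linarith
    have hχψ' : ∀ q ∈ S.M, 2 * (k1 * Real.log (1 + τ m * p q.1)) ≤
        K * C2 * τ m * (1 + p q.1) ^ (k0 + 1) := by
      intro q hq
      refine (h1 q.1 hq.1).trans ?_
      have h4 : 0 ≤ C2 * τ m * (1 + p q.1) ^ (k0 + 1) := by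
        have := hp0 q.1 hq.1
        have := hτ0 m
        positivity
      have := mul_le_mul_of_nonneg_right hK1 h4
      linarith
    refine proj_tw (ψ := fun q => k1 * Real.log (1 + τ m * p q.1))
      (χ := fun q => K * C2 * τ m * (1 + p q.1) ^ (k0 + 1))
      (W := fun q => Real.exp (-ζ q) + l q) hΦ hψ hχ hW hW0 hW1 hξ
      (K1 := 1 / 2 * |W1|) (by positivity) ?_ hχψ' h3 α hα hcl (fun j => ?_) a ha ham hab
      hA0 hA γ hγ
    · intro β hβ
      refine (tw_a_priori hΦ hψ hχ hζ hl hl0 hK hχψ hlevi hξ hL β hβ).trans ?_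
      refine add_le_add le_rfl ?_
      rw [mul_assoc (1 / 2 : ℝ)]
      refine mul_le_mul_of_nonneg_left ?_ (by norm_num)
      rw [Finset.mul_sum]
      refine Finset.sum_le_sum fun j _ => ?_
      rw [Finset.mul_sum]
      refine Finset.sum_le_sum fun k _ => ?_
      have hβ1 : ∀ j, S.CD 1 (β j) := fun j => (hβ j).1.mono (by norm_num)
      have hcurl : S.CD 0 (fun q => S.Db j (β k) q - S.Db k (β j) q) :=
        hb_CD_sub (CD.Db (m := 0) (hβ1 k)) (CD.Db (m := 0) (hβ1 j))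
      have hcs : S.Supp (fun q => S.Db j (β k) q - S.Db k (β j) q) :=
        hb_supp_sub (hb_supp_Db (hβ k).2) (hb_supp_Db (hβ j).2)
      have hlam0 : S.CD 0 (fun q => ((Φ q + K * C2 * τ m * (1 + p q.1) ^ (k0 + 1) : ℝ) : ℂ)) := by
        refine ((hΦ.add hχ).mono (by norm_num)).congr fun q _ => ?_
        push_cast
        ring
      have hlamz0 : S.CD 0 (fun q => ((Φ q + K * C2 * τ m * (1 + p q.1) ^ (k0 + 1) + ζ q : ℝ) :
          ℂ)) := by
        refine (((hΦ.add hχ).add hζ).mono (by norm_num)).congr fun q _ => ?_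
        push_cast
        ring
      have i1 := hp_int_sq hlamz0 hcurl hcs
      have i2 := hp_int_sq hlam0 hcurl hcs
      rw [← integral_const_mul]
      refine integral_mono_ae i1 (i2.const_mul _) ?_
      filter_upwards [S.ae_mem_M] with q hq
      beta_reduce
      have h4 : Real.exp (-(Φ q + K * C2 * τ m * (1 + p q.1) ^ (k0 + 1) + ζ q)) =
          Real.exp (-ζ q) * Real.exp (-(Φ q + K * C2 * τ m * (1 + p q.1) ^ (k0 + 1))) := by
        rw [← Real.exp_add]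
        congr 1
        ring
      rw [h4]
      have h5 : Real.exp (-ζ q) ≤ |W1| := by
        have := hW1 q hq
        have := hl0 q
        have := le_abs_self W1
        linarith
      have h6 : 0 ≤ ‖S.Db j (β k) q - S.Db k (β j) q‖ ^ 2 *
          Real.exp (-(Φ q + K * C2 * τ m * (1 + p q.1) ^ (k0 + 1))) := by positivity
      have := mul_le_mul_of_nonneg_right h5 h6
      linarith
    · obtain ⟨c, k, hc⟩ := hαb
      exact alpha_finite hp hΦb ⟨c, k, fun q hq => hc q hq j⟩ (c2 := K * C2 * τ m)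
        (mul_pos (mul_pos hK0 hC2) (hτ0 m)) (fun q => rfl) hχψ'
  have lim : Tendsto (fun m => ∫ q, (Real.exp (-ζ q) + l q) * (‖S.dvH γ q‖ ^ 2 *
      Real.exp (Φ q + K * C2 * τ m * (1 + p q.1) ^ (k0 + 1) -
        2 * (k1 * Real.log (1 + τ m * p q.1)))) ∂S.μ) atTop
      (𝓝 (∫ q, (Real.exp (-ζ q) + l q) * (‖S.dvH γ q‖ ^ 2 * Real.exp (Φ q)) ∂S.μ)) := by
    refine tendsto_integral_of_dominated_convergence
      (fun q => (Real.exp (-ζ q) + l q) * (‖S.dvH γ q‖ ^ 2 *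
        Real.exp (Φ q + K * C2 * (1 + p q.1) ^ (k0 + 1)))) (fun m => ?_) ?_
      (fun m => ?_) ?_
    · refine (hWi (integrable_expH ?_ hγ)).aestronglyMeasurable
      have h1 := (hΦ.add (χH_CD hp (K * C2 * τ m))).add
        ((CD.const (-2 : ℂ)).mul (ψH_CD hp k1 (hτ0 m)))
      refine h1.congr fun q _ => ?_
      push_cast
      ring
    · refine hWi (integrable_expH ?_ hγ)
      refine (hΦ.add (χH_CD hp (K * C2))).congr fun q _ => ?_
      push_cast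
      ring
    · filter_upwards [ae_mem_M (S := S)] with q hq
      have hp0 : 0 ≤ p q.1 := le_trans (by positivity) (hp.norm_sq_le q.1 hq.1)
      rw [Real.norm_of_nonneg (mul_nonneg (hW0 q) (by positivity))]
      have hlog : 0 ≤ Real.log (1 + τ m * p q.1) := by
        refine Real.log_nonneg ?_
        have := mul_nonneg (hτ0 m).le hp0
        linarith
      have h4 : K * C2 * τ m * (1 + p q.1) ^ (k0 + 1) ≤ K * C2 * (1 + p q.1) ^ (k0 + 1) := by
        have : K * C2 * τ m ≤ K * C2 * 1 := by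
          gcongr
          exact hτ1 m
        rw [mul_one] at this
        gcongr
      refine mul_le_mul_of_nonneg_left ?_ (hW0 q)
      gcongr
      have h5 : (0 : ℝ) ≤ k1 * Real.log (1 + τ m * p q.1) := by positivity
      linarith
    · filter_upwards [ae_mem_M (S := S)] with q hq
      refine Tendsto.const_mul _ (Tendsto.const_mul _
        ((Real.continuous_exp.tendsto _).comp ?_))
      have h6 : Tendsto (fun m => Φ q + K * C2 * τ m * (1 + p q.1) ^ (k0 + 1) -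
          2 * (k1 * Real.log (1 + τ m * p q.1))) atTop
          (𝓝 (Φ q + K * C2 * 0 * (1 + p q.1) ^ (k0 + 1) -
            2 * (k1 * Real.log (1 + 0 * p q.1)))) := by
        refine Tendsto.sub (Tendsto.const_add _ ((hτlim.const_mul _).mul_const _)) ?_
        refine Tendsto.const_mul _ (Tendsto.const_mul _ ?_)
        refine Tendsto.log ((hτlim.mul_const _).const_add _) ?_
        norm_num
      simpa using h6
  exact ge_of_tendsto' (lim.const_mul _) key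

end Vale.Agent.P298.H293
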