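import Vale.Agent.P298.H293.TwD

set_option linter.all false

open MeasureTheory Filter Topology
open scoped ENNReal NNReal ComplexConjugate

namespace Vale.Agent.P298.H293

open Vale.Agent.P300.L2 Vale.Agent.P300.L2.Sheets

variable {n N : ℕ} {S : Sheets n N}

/-- The twisted version of the theorem of Hörmander; `exp w = exp (-ζ) + l`. -/
theorem hor_tw {p : (Fin n → ℂ) → ℝ} {C : ℝ} {k0 : ℕ} (hp : Exh S.V p C k0)
    {Φ ζ l w : (Fin n → ℂ) × ℕ → ℝ} (hΦ : S.CD 2 (fun q => (Φ q : ℂ)))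
    (hΦb : ∃ c : ℝ, ∀ q ∈ S.M, c ≤ Φ q)
    (hlevi : ∀ q ∈ S.M, ∀ β : Fin n → ℂ, 0 ≤ S.levi Φ β q)
    (hζ : S.CD 2 (fun q => (ζ q : ℂ))) (hl : S.CD 0 (fun q => (l q : ℂ)))
    (hw : S.CD 2 (fun q => (w q : ℂ))) (hwe : ∀ q ∈ S.M, Real.exp (w q) = Real.exp (-ζ q) + l q)
    (hl0 : ∀ q, 0 < l q) {K : ℝ} (hK : ∀ q ∈ S.M, Real.exp (-ζ q) + l q ≤ K * Real.exp (-ζ q))
    (hK1 : 1 ≤ K) {W1 : ℝ} (hW1 : ∀ q ∈ S.M, Real.exp (-ζ q) + l q ≤ W1)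
    {ξ : Fin n → (Fin n → ℂ) × ℕ → ℂ} (hξ : ∀ j, S.CD 0 (ξ j))
    (hL : ∀ q ∈ S.M, ∀ β : Fin n → ℂ, ‖∑ j, ξ j q * β j‖ ^ 2 +
      (Real.exp (-ζ q) + Real.exp (-ζ q) ^ 2 / l q) *
        ‖∑ j, S.D j (fun q => (ζ q : ℂ)) q * β j‖ ^ 2 ≤ Real.exp (-ζ q) * S.levi ζ β q)
    (α : Fin n → (Fin n → ℂ) × ℕ → ℂ) (hα : ∀ j, S.CD 1 (α j))
    (hcl : ∀ q ∈ S.M, ∀ j k, S.Db j (α k) q = S.Db k (α j) q)
    (hαb : ∃ (c : ℝ) (k : ℕ), ∀ q ∈ S.M, ∀ j, ‖α j q‖ ≤ c * (1 + p q.1) ^ k)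
    (a : (Fin n → ℂ) × ℕ → ℝ) (ha : ∀ q, 0 ≤ a q) (ham : AEMeasurable a S.μ)
    (hab : ∀ q ∈ S.M, ∀ β : Fin n → ℂ,
      ‖∑ j, α j q * conj (β j)‖ ^ 2 ≤ a q * ‖∑ j, ξ j q * β j‖ ^ 2)
    {A : ℝ} (hA0 : 0 ≤ A)
    (hA : ∫⁻ q, ENNReal.ofReal (a q * Real.exp (-Φ q)) ∂S.μ ≤ ENNReal.ofReal A) :
    ∃ u : (Fin n → ℂ) × ℕ → ℂ, AEStronglyMeasurable u S.μ ∧
      ∫⁻ q, ENNReal.ofReal (‖u q‖ ^ 2 * Real.exp (-(Φ q + w q))) ∂S.μ ≤
        ENNReal.ofReal (2 * A) ∧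
      ∀ κ, S.IsTest κ → ∀ j, ∫ q, u q * S.Db j κ q ∂S.μ = - ∫ q, α j q * κ q ∂S.μ := by
  obtain ⟨Ψ, hΨe⟩ : ∃ Ψ : (Fin n → ℂ) × ℕ → ℝ, Ψ = fun q => Φ q + w q := ⟨_, rfl⟩
  have hΨ : S.CD 2 (fun q => (Ψ q : ℂ)) := by
    rw [hΨe]
    refine (hΦ.add hw).congr fun q _ => ?_
    push_cast
    rfl
  obtain ⟨U, hU, hUl⟩ := exists_riesz (LH hΨ) (lH hα) (C := 2 * A) (by positivity) (by
    intro γ
    rw [lH_eq, RCLike.norm_conj, norm_sq_LH]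
    refine (main_tw hp hΦ hΦb hlevi hζ hl hl0 hK hK1 hW1 hξ hL α hα hcl hαb a ha ham hab hA0
      hA γ γ.2).trans (le_of_eq ?_)
    congr 1
    refine integral_congr_ae ?_
    filter_upwards [S.ae_mem_M] with q hq
    rw [hΨe, Real.exp_add, hwe q hq]
    ring)
  have hexp : AEStronglyMeasurable (fun q => ((Real.exp (1 / 2 * Ψ q) : ℝ) : ℂ)) S.μ :=
    aestronglyMeasurable_of_CD (expH_CD hΨ _)
  have hgoal : ∀ q, Φ q + w q = Ψ q := fun q => by rw [hΨe]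
  simp only [hgoal]
  refine ⟨fun q => -(U q * ((Real.exp (1 / 2 * Ψ q) : ℝ) : ℂ)),
    ((Lp.aestronglyMeasurable U).mul hexp).neg, ?_, fun κ hκ j => ?_⟩
  · have h1 : ∀ q, ‖-(U q * ((Real.exp (1 / 2 * Ψ q) : ℝ) : ℂ))‖ ^ 2 * Real.exp (-Ψ q) =
        ‖U q‖ ^ 2 := by
      intro q
      rw [norm_neg, norm_mul, Complex.norm_real, Real.norm_eq_abs, abs_of_pos (Real.exp_pos _),
        mul_pow, ← Real.exp_nat_mul, mul_assoc, ← Real.exp_add]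
      have : ((2 : ℕ) : ℝ) * (1 / 2 * Ψ q) + -Ψ q = 0 := by
        push_cast
        ring
      rw [this, Real.exp_zero, mul_one]
    simp_rw [h1]
    have hI : Integrable (fun q => ‖U q‖ ^ 2) S.μ :=
      (memLp_two_iff_integrable_sq_norm (Lp.aestronglyMeasurable U)).1 (Lp.memLp U)
    rw [← ofReal_integral_eq_lintegral_ofReal hI (Eventually.of_forall fun q => by positivity),
      ← norm_sq_Lp]
    exact ENNReal.ofReal_le_ofReal hU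
  · set γ : Fin n → (Fin n → ℂ) × ℕ → ℂ := fun i => if i = j then (fun q => conj (κ q)) else
      (fun _ => 0) with hγdef
    have hγ : ∀ i, S.IsTest (γ i) := by
      intro i
      by_cases h : i = j
      · simp only [hγdef, h, if_true]
        exact hκ.conjH
      · simp only [hγdef, h, if_false]
        exact IsTest.zeroH
    have hγj : γ j = fun q => conj (κ q) := by simp [hγdef]
    have h1 := hUl ⟨γ, hγ⟩
    rw [lH_eq, L2.inner_def] at h1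
    have h2 : ∀ q, ∑ i, α i q * conj (γ i q) = α j q * κ q := by
      intro q
      rw [Finset.sum_eq_single j]
      · rw [hγj, Complex.conj_conj]
      · intro i _ hij
        simp [hγdef, hij]
      · simp
    have h3 : ∀ q, S.dvH γ q = conj (S.Db j κ q) := by
      intro q
      rw [dvH, Finset.sum_eq_single j]
      · rw [hγj, D_conj]
      · intro i _ hij
        have : γ i = fun _ => 0 := by simp [hγdef, hij]
        rw [this]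
        exact dz_const 0
      · simp
    have h4 : (∫ q, inner ℂ (U q) ((LH hΨ ⟨γ, hγ⟩ : Lp ℂ 2 S.μ) q) ∂S.μ : ℂ) =
        conj (∫ q, U q * ((Real.exp (1 / 2 * Ψ q) : ℝ) : ℂ) * S.Db j κ q ∂S.μ) := by
      rw [← integral_conj]
      refine integral_congr_ae ?_
      filter_upwards [coe_LH hΨ ⟨γ, hγ⟩] with q hq
      rw [hq, RCLike.inner_apply', h3, map_mul, map_mul, Complex.conj_ofReal]
      ring
    rw [h4] at h1
    have h5 := congrArg (starRingEnd ℂ) h1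
    rw [Complex.conj_conj, Complex.conj_conj] at h5
    simp only [h2] at h5
    rw [h5, ← integral_neg]
    congr 1
    funext q
    ring


end Vale.Agent.P298.H293
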