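import Vale.Agent.P298.H293.TwD
import Vale.Agent.P300.H435.L2.Sing

set_option linter.all false

open MeasureTheory Filter Topology
open scoped ENNReal NNReal ComplexConjugate

namespace Vale.Agent.P298.H293

open Vale.Agent.P300.L2 Vale.Agent.P300.L2.Sheets

variable {n N : ℕ} {S : Sheets n N}

/-- The twisted version of the theorem of Hörmander for decreasing weights;
`exp w = exp (-ζ) + l`. -/
theorem hor_sing_tw {p : (Fin n → ℂ) → ℝ} {C : ℝ} {k0 : ℕ} (hp : Exh S.V p C k0)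
    {Φ : ℕ → (Fin n → ℂ) × ℕ → ℝ} {ζ l w : (Fin n → ℂ) × ℕ → ℝ}
    (hΦ : ∀ m, S.CD 2 (fun q => (Φ m q : ℂ)))
    (hantiΦ : ∀ m, ∀ q ∈ S.M, Φ (m + 1) q ≤ Φ m q)
    (hΦb : ∀ m, ∃ c : ℝ, ∀ q ∈ S.M, c ≤ Φ m q)
    (hlevi : ∀ m, ∀ q ∈ S.M, ∀ β : Fin n → ℂ, 0 ≤ S.levi (Φ m) β q)
    (hζ : S.CD 2 (fun q => (ζ q : ℂ))) (hl : S.CD 0 (fun q => (l q : ℂ)))
    (hw : S.CD 2 (fun q => (w q : ℂ))) (hwe : ∀ q ∈ S.M, Real.exp (w q) = Real.exp (-ζ q) + l q)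
    (hl0 : ∀ q, 0 < l q) {K : ℝ} (hK : ∀ q ∈ S.M, Real.exp (-ζ q) + l q ≤ K * Real.exp (-ζ q))
    (hK1 : 1 ≤ K) {W1 : ℝ} (hW1 : ∀ q ∈ S.M, Real.exp (-ζ q) + l q ≤ W1)
    {ξ : Fin n → (Fin n → ℂ) × ℕ → ℂ} (hξ : ∀ j, S.CD 0 (ξ j))
    (hLL : ∀ q ∈ S.M, ∀ β : Fin n → ℂ, ‖∑ j, ξ j q * β j‖ ^ 2 +
      (Real.exp (-ζ q) + Real.exp (-ζ q) ^ 2 / l q) *
        ‖∑ j, S.D j (fun q => (ζ q : ℂ)) q * β j‖ ^ 2 ≤ Real.exp (-ζ q) * S.levi ζ β q)
    (α : Fin n → (Fin n → ℂ) × ℕ → ℂ) (hα : ∀ j, S.CD 1 (α j))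
    (hcl : ∀ q ∈ S.M, ∀ j k, S.Db j (α k) q = S.Db k (α j) q)
    (hαb : ∃ (c : ℝ) (k : ℕ), ∀ q ∈ S.M, ∀ j, ‖α j q‖ ≤ c * (1 + p q.1) ^ k)
    (a : ℕ → (Fin n → ℂ) × ℕ → ℝ) (ha : ∀ m q, 0 ≤ a m q) (ham : ∀ m, AEMeasurable (a m) S.μ)
    (hab : ∀ m, ∀ q ∈ S.M, ∀ β : Fin n → ℂ,
      ‖∑ j, α j q * conj (β j)‖ ^ 2 ≤ a m q * ‖∑ j, ξ j q * β j‖ ^ 2)
    {A : ℝ} (hA0 : 0 ≤ A)
    (hA : ∀ m, ∫⁻ q, ENNReal.ofReal (a m q * Real.exp (-Φ m q)) ∂S.μ ≤ ENNReal.ofReal A) :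
    ∃ u : (Fin n → ℂ) × ℕ → ℂ, AEStronglyMeasurable u S.μ ∧
      (∀ m, ∫⁻ q, ENNReal.ofReal (‖u q‖ ^ 2 * Real.exp (-(Φ m q + w q))) ∂S.μ ≤
        ENNReal.ofReal (2 * A)) ∧
      ∀ κ, S.IsTest κ → ∀ j, ∫ q, u q * S.Db j κ q ∂S.μ = - ∫ q, α j q * κ q ∂S.μ := by
  obtain ⟨Ψ, hΨe⟩ : ∃ Ψ : ℕ → (Fin n → ℂ) × ℕ → ℝ, Ψ = fun m q => Φ m q + w q := ⟨_, rfl⟩
  have hΨ : ∀ m, S.CD 2 (fun q => (Ψ m q : ℂ)) := by
    intro m
    rw [hΨe]
    refine ((hΦ m).add hw).congr fun q _ => ?_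
    push_cast
    rfl
  have hanti : ∀ m, ∀ q ∈ S.M, Ψ (m + 1) q ≤ Ψ m q := by
    intro m q hq
    rw [hΨe]
    exact add_le_add (hantiΦ m q hq) le_rfl
  have hgoal : ∀ m q, Φ m q + w q = Ψ m q := fun m q => by rw [hΨe]
  simp only [hgoal]
  have hmeas := limE_meas hΨ hanti
  -- the operator
  have hmem : ∀ γ : TT S, MemLp (fun q => ((Real.sqrt (limE Ψ q) : ℝ) : ℂ) *
      S.dvH (γ : Fin n → (Fin n → ℂ) × ℕ → ℂ) q) 2 S.μ := by
    intro γ
    refine (memLpH (divH_CD (hΨ 0) γ.2) (divH_supp γ.2)).of_le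
      (hmeas.mul (aestronglyMeasurable_of_CD (dvH_CD γ.2))) ?_
    filter_upwards with q
    rw [norm_mul, norm_mul, Complex.norm_real, Complex.norm_real, Real.norm_eq_abs,
      Real.norm_eq_abs, abs_of_nonneg (Real.sqrt_nonneg _), abs_of_pos (Real.exp_pos _)]
    refine mul_le_mul_of_nonneg_right ?_ (norm_nonneg _)
    calc Real.sqrt (limE Ψ q) ≤ Real.sqrt (Real.exp (Ψ 0 q)) := Real.sqrt_le_sqrt (limE_le Ψ 0 q)
      _ = Real.exp (1 / 2 * Ψ 0 q) := by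
          rw [← Real.exp_half]
          congr 1
          ring
  let L : TT S →ₗ[ℂ] Lp ℂ 2 S.μ :=
    { toFun := fun γ => (hmem γ).toLp _
      map_add' := by
        intro γ γ'
        rw [← MemLp.toLp_add]
        refine MemLp.toLp_congr _ _ ?_
        filter_upwards [ae_mem_M (S := S)] with q hq
        simp only [Pi.add_apply]
        rw [Submodule.coe_add, dvH_add γ.2 γ'.2 hq, mul_add]
      map_smul' := by
        intro c γ
        rw [RingHom.id_apply, ← MemLp.toLp_const_smul]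
        refine MemLp.toLp_congr _ _ ?_
        filter_upwards [ae_mem_M (S := S)] with q hq
        simp only [Pi.smul_apply, smul_eq_mul]
        rw [Submodule.coe_smul, dvH_smul γ.2 c hq]
        ring }
  have hL : ∀ γ : TT S, L γ =ᵐ[S.μ] fun q => ((Real.sqrt (limE Ψ q) : ℝ) : ℂ) *
      S.dvH (γ : Fin n → (Fin n → ℂ) × ℕ → ℂ) q := fun γ => MemLp.coeFn_toLp (hmem γ)
  have hLn : ∀ γ : TT S, ‖L γ‖ ^ 2 =
      ∫ q, ‖S.dvH (γ : Fin n → (Fin n → ℂ) × ℕ → ℂ) q‖ ^ 2 * limE Ψ q ∂S.μ := by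
    intro γ
    rw [norm_sq_Lp]
    refine integral_congr_ae ?_
    filter_upwards [hL γ] with q hq
    rw [hq, norm_mul, Complex.norm_real, Real.norm_eq_abs, abs_of_nonneg (Real.sqrt_nonneg _),
      mul_pow, Real.sq_sqrt (limE_nonneg _ _), mul_comm]
  -- the estimate
  have hest : ∀ γ : TT S, ‖lH hα γ‖ ^ 2 ≤ 2 * A * ‖L γ‖ ^ 2 := by
    intro γ
    rw [hLn, lH_eq, RCLike.norm_conj]
    have h1 : ∀ m, ‖∫ q, ∑ j, α j q * conj ((γ : Fin n → (Fin n → ℂ) × ℕ → ℂ) j q) ∂S.μ‖ ^ 2 ≤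
        2 * A * ∫ q, ‖S.dvH (γ : Fin n → (Fin n → ℂ) × ℕ → ℂ) q‖ ^ 2 *
          Real.exp (Ψ m q) ∂S.μ := by
      intro m
      refine (main_tw hp (hΦ m) (hΦb m) (hlevi m) hζ hl hl0 hK hK1 hW1 hξ hLL α hα hcl hαb (a m)
        (ha m) (ham m) (hab m) hA0 (hA m) γ γ.2).trans (le_of_eq ?_)
      congr 1
      refine integral_congr_ae ?_
      filter_upwards [S.ae_mem_M] with q hq
      rw [← hgoal, Real.exp_add, hwe q hq]
      ring
    have h2 : Tendsto (fun m => ∫ q, ‖S.dvH (γ : Fin n → (Fin n → ℂ) × ℕ → ℂ) q‖ ^ 2 *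
        Real.exp (Ψ m q) ∂S.μ) atTop
        (𝓝 (∫ q, ‖S.dvH (γ : Fin n → (Fin n → ℂ) × ℕ → ℂ) q‖ ^ 2 * limE Ψ q ∂S.μ)) := by
      refine tendsto_integral_of_dominated_convergence
        (fun q => ‖S.dvH (γ : Fin n → (Fin n → ℂ) × ℕ → ℂ) q‖ ^ 2 * Real.exp (Ψ 0 q))
        (fun m => (integrable_expH (hΨ m) γ.2).aestronglyMeasurable)
        (integrable_expH (hΨ 0) γ.2) (fun m => ?_) ?_
      · filter_upwards [ae_mem_M (S := S)] with q hq
        rw [Real.norm_of_nonneg (by positivity)]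
        have h3 : Ψ m q ≤ Ψ 0 q :=
          antitone_nat_of_succ_le (f := fun m => Ψ m q) (fun m => hanti m q hq) (Nat.zero_le m)
        exact mul_le_mul_of_nonneg_left (Real.exp_le_exp.2 h3) (by positivity)
      · filter_upwards [ae_mem_M (S := S)] with q hq
        exact (limE_tendsto fun m => hanti m q hq).const_mul _
    exact ge_of_tendsto' (h2.const_mul _) h1
  obtain ⟨U, hU, hUl⟩ := exists_riesz L (lH hα) (C := 2 * A) (by positivity) hest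
  refine ⟨fun q => -(U q * ((Real.sqrt (limE Ψ q) : ℝ) : ℂ)),
    ((Lp.aestronglyMeasurable U).mul hmeas).neg, ?_, fun κ hκ j => ?_⟩
  · intro m
    have hI : Integrable (fun q => ‖U q‖ ^ 2) S.μ :=
      (memLp_two_iff_integrable_sq_norm (Lp.aestronglyMeasurable U)).1 (Lp.memLp U)
    calc ∫⁻ q, ENNReal.ofReal (‖-(U q * ((Real.sqrt (limE Ψ q) : ℝ) : ℂ))‖ ^ 2 *
          Real.exp (-Ψ m q)) ∂S.μ ≤ ∫⁻ q, ENNReal.ofReal (‖U q‖ ^ 2) ∂S.μ := by
          refine lintegral_mono fun q => ENNReal.ofReal_le_ofReal ?_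
          rw [norm_neg, norm_mul, Complex.norm_real, Real.norm_eq_abs,
            abs_of_nonneg (Real.sqrt_nonneg _), mul_pow, Real.sq_sqrt (limE_nonneg _ _)]
          calc ‖U q‖ ^ 2 * limE Ψ q * Real.exp (-Ψ m q)
              ≤ ‖U q‖ ^ 2 * Real.exp (Ψ m q) * Real.exp (-Ψ m q) := by
                gcongr
                exact limE_le Ψ m q
            _ = ‖U q‖ ^ 2 := by
                rw [mul_assoc, ← Real.exp_add]
                simp
      _ ≤ ENNReal.ofReal (2 * A) := by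
          rw [← ofReal_integral_eq_lintegral_ofReal hI (Eventually.of_forall fun q => by positivity),
            ← norm_sq_Lp]
          exact ENNReal.ofReal_le_ofReal hU
  · set γ : Fin n → (Fin n → ℂ) × ℕ → ℂ := fun i => if i = j then (fun q => conj (κ q)) else
      (fun _ => 0) with hγdef
    have hγ : ∀ i, S.IsTest (γ i) := by
      intro i
      by_cases h : i = j
      · simp only [hγdef, h, if_true]
        exact hκ.conjH
      · simp only [hγdef, h, if_false]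
        exact IsTest.zeroH
    have hγj : γ j = fun q => conj (κ q) := by simp [hγdef]
    have h1 := hUl ⟨γ, hγ⟩
    rw [lH_eq, L2.inner_def] at h1
    have h2 : ∀ q, ∑ i, α i q * conj (γ i q) = α j q * κ q := by
      intro q
      rw [Finset.sum_eq_single j]
      · rw [hγj, Complex.conj_conj]
      · intro i _ hij
        simp [hγdef, hij]
      · simp
    have h3 : ∀ q, S.dvH γ q = conj (S.Db j κ q) := by
      intro q
      rw [dvH, Finset.sum_eq_single j]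
      · rw [hγj, D_conj]
      · intro i _ hij
        have : γ i = fun _ => 0 := by simp [hγdef, hij]
        rw [this]
        exact dz_const 0
      · simp
    have h4 : (∫ q, inner ℂ (U q) ((L ⟨γ, hγ⟩ : Lp ℂ 2 S.μ) q) ∂S.μ : ℂ) =
        conj (∫ q, U q * ((Real.sqrt (limE Ψ q) : ℝ) : ℂ) * S.Db j κ q ∂S.μ) := by
      rw [← integral_conj]
      refine integral_congr_ae ?_
      filter_upwards [hL ⟨γ, hγ⟩] with q hq
      rw [hq, RCLike.inner_apply', h3, map_mul, map_mul, Complex.conj_ofReal]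
      ring
    rw [h4] at h1
    have h5 := congrArg (starRingEnd ℂ) h1
    rw [Complex.conj_conj, Complex.conj_conj] at h5
    simp only [h2] at h5
    rw [h5, ← integral_neg]
    congr 1
    funext q
    ring


end Vale.Agent.P298.H293
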