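import Vale.Agent.P300.H435.L2.Basic

set_option linter.all false

/-! P298, block OT: the theorem of Ohsawa and Takegoshi on sheets, for a fixed `ε`. -/

open MeasureTheory Filter Topology
open scoped ENNReal NNReal ComplexConjugate

namespace Vale.Agent.P298.H293

open Vale.Agent.P300.L2 Vale.Agent.P300.L2.Sheets

/-- Bound of the derivative of the smooth transition function. -/
theorem exists_st_bound : ∃ C' : ℝ, 0 < C' ∧ ∀ x, |deriv Real.smoothTransition x| ≤ C' := by
  have h1 : ContDiff ℝ 1 Real.smoothTransition := Real.smoothTransition.contDiff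
  have h2 : Continuous (deriv Real.smoothTransition) := h1.continuous_deriv (by norm_num)
  obtain ⟨B, hB⟩ := (isCompact_Icc (a := (0 : ℝ)) (b := 1)).exists_bound_of_continuousOn
    h2.continuousOn
  refine ⟨max B 1, by positivity, fun x => ?_⟩
  by_cases hx : x ∈ Set.Icc (0 : ℝ) 1
  · exact (hB x hx).trans (le_max_left _ _)
  · have h3 : deriv Real.smoothTransition x = 0 := by
      rw [Set.mem_Icc, not_and_or, not_le, not_le] at hx
      rcases hx with hx | hx
      · have : Real.smoothTransition =ᶠ[𝓝 x] fun _ => 0 := by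
          filter_upwards [gt_mem_nhds hx] with y hy
          exact Real.smoothTransition.zero_of_nonpos hy.le
        rw [this.deriv_eq]; simp
      · have : Real.smoothTransition =ᶠ[𝓝 x] fun _ => 1 := by
          filter_upwards [lt_mem_nhds hx] with y hy
          exact Real.smoothTransition.one_of_one_le hy.le
        rw [this.deriv_eq]; simp
    rw [h3, abs_zero]; positivity

/-- The constant. -/
noncomputable def stB : ℝ := exists_st_bound.choose

theorem stB_pos : 0 < stB := exists_st_bound.choose_spec.1

theorem stB_le (x : ℝ) : |deriv Real.smoothTransition x| ≤ stB := exists_st_bound.choose_spec.2 x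

theorem deriv_st_zero_of {x : ℝ} (hx : x < 0 ∨ 1 < x) : deriv Real.smoothTransition x = 0 := by
  rcases hx with hx | hx
  · have : Real.smoothTransition =ᶠ[𝓝 x] fun _ => 0 := by
      filter_upwards [gt_mem_nhds hx] with y hy
      exact Real.smoothTransition.zero_of_nonpos hy.le
    rw [this.deriv_eq]; simp
  · have : Real.smoothTransition =ᶠ[𝓝 x] fun _ => 1 := by
      filter_upwards [lt_mem_nhds hx] with y hy
      exact Real.smoothTransition.one_of_one_le hy.le
    rw [this.deriv_eq]; simp

/-- The constant of the theorem of Ohsawa and Takegoshi on sheets. -/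
noncomputable def otC : ℝ := 2 + 1536 * stB ^ 2

theorem otC_pos : 0 < otC := by unfold otC; have := stB_pos; positivity

variable {n N : ℕ} {S : Sheets n N}

/-- `y ↦ smoothTransition (2 - 2 y)` -/
noncomputable def cutX (y : ℝ) : ℝ := Real.smoothTransition (2 - 2 * y)

theorem cutX_contDiff : ContDiff ℝ 4 cutX := by
  have h1 : ContDiff ℝ 4 Real.smoothTransition := Real.smoothTransition.contDiff
  have h2 : ContDiff ℝ 4 (fun y : ℝ => 2 - 2 * y) := by fun_prop
  exact h1.comp h2

theorem cutX_one {y : ℝ} (hy : y ≤ 1 / 2) : cutX y = 1 := by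
  unfold cutX
  exact Real.smoothTransition.one_of_one_le (by linarith)

theorem cutX_zero {y : ℝ} (hy : 1 ≤ y) : cutX y = 0 := by
  unfold cutX
  exact Real.smoothTransition.zero_of_nonpos (by linarith)

theorem cutX_nonneg (y : ℝ) : 0 ≤ cutX y := Real.smoothTransition.nonneg _

theorem cutX_le_one (y : ℝ) : cutX y ≤ 1 := Real.smoothTransition.le_one _

theorem deriv_cutX (y : ℝ) : deriv cutX y = -2 * deriv Real.smoothTransition (2 - 2 * y) := by
  have h1 : HasDerivAt (fun y : ℝ => 2 - 2 * y) (-2) y := by
    simpa using ((hasDerivAt_id y).const_mul 2).const_sub 2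
  have h2 : HasDerivAt Real.smoothTransition (deriv Real.smoothTransition (2 - 2 * y))
      (2 - 2 * y) := by
    have : ContDiff ℝ 1 Real.smoothTransition := Real.smoothTransition.contDiff
    exact (this.differentiable (by norm_num) _).hasDerivAt
  have h3 : HasDerivAt cutX (deriv Real.smoothTransition (2 - 2 * y) * (-2)) y := h2.comp y h1
  rw [h3.deriv, mul_comm]

theorem deriv_cutX_zero {y : ℝ} (hy : y < 1 / 2 ∨ 1 < y) : deriv cutX y = 0 := by
  rw [deriv_cutX, deriv_st_zero_of, mul_zero]
  rcases hy with h | h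
  · right; linarith
  · left; linarith

theorem deriv_cutX_sq_le (y : ℝ) : deriv cutX y ^ 2 ≤ 4 * stB ^ 2 := by
  rw [deriv_cutX, mul_pow, ← sq_abs (deriv _ _)]
  have h1 := stB_le (2 - 2 * y)
  have h2 : |deriv Real.smoothTransition (2 - 2 * y)| ^ 2 ≤ stB ^ 2 := by gcongr
  linarith

/-- `y (s + log s + (1 + s)²) ≤ 12` for `y = exp (-s)`, `s ≥ 1`. -/
theorem exp_mul_le {s g l : ℝ} (hs : 1 ≤ s) (hg : g ≤ 2 * s) (hl : l = (1 + s) ^ 2) :
    Real.exp (-s) * (g + l) ≤ 12 := by
  have h1 : g + l ≤ 6 * s ^ 2 := by
    rw [hl]; nlinarith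
  have h2 : s ^ 2 ≤ 2 * Real.exp s := by
    have := Real.quadratic_le_exp_of_nonneg (show 0 ≤ s by linarith)
    nlinarith
  have h3 : Real.exp (-s) * Real.exp s = 1 := by rw [← Real.exp_add]; simp
  have h4 : 0 < Real.exp (-s) := Real.exp_pos _
  calc Real.exp (-s) * (g + l) ≤ Real.exp (-s) * (6 * (2 * Real.exp s)) := by
        gcongr
        linarith
    _ = 12 * (Real.exp (-s) * Real.exp s) := by ring
    _ = 12 := by rw [h3, mul_one]

end Vale.Agent.P298.H293
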